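import Mathlib

open Finset
open scoped RealInnerProductSpace

noncomputable section

namespace Vale.Agent.P335

section Eig
variable {V : Type*} [NormedAddCommGroup V] [InnerProductSpace ℝ V] [FiniteDimensional ℝ V]

theorem quad_le' (S : V →ₗ[ℝ] V) (hS : S.IsSymmetric) (a : ℝ)
    (h : ∀ v, v ≠ 0 → ∀ μ : ℝ, S v = μ • v → μ ≤ a) (w : V) :
    ⟪w, S w⟫ ≤ a * ⟪w, w⟫ := by
  set b := hS.eigenvectorBasis rfl
  have hb : ∀ i, S (b i) = hS.eigenvalues rfl i • b i := fun i => hS.apply_eigenvectorBasis rfl i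
  have h1 := b.sum_repr w
  have h2 : ∀ i, ⟪w, b i⟫ = b.repr w i := fun i => by
    rw [b.repr_apply_apply, real_inner_comm]
  have e1 : ⟪w, S w⟫ = ∑ i, hS.eigenvalues rfl i * b.repr w i ^ 2 := by
    conv_lhs => rw [← h1]
    rw [map_sum, inner_sum]
    refine sum_congr rfl fun i _ => ?_
    rw [map_smul, hb, h1, inner_smul_right, inner_smul_right, h2]; ring
  have e2 : ⟪w, w⟫ = ∑ i, b.repr w i ^ 2 := by
    conv_lhs => rw [← h1]
    rw [inner_sum]
    refine sum_congr rfl fun i _ => ?_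
    rw [h1, inner_smul_right, h2]; ring
  rw [e1, e2, mul_sum]
  exact sum_le_sum fun i _ => mul_le_mul_of_nonneg_right
    (h _ (b.orthonormal.ne_zero i) _ (hb i)) (sq_nonneg _)

end Eig

variable {X : Type*} [Fintype X]

/-- the standard inner product -/
def ip (F G : X → ℝ) : ℝ := ∑ x, F x * G x

theorem ip_comm (F G : X → ℝ) : ip F G = ip G F := sum_congr rfl fun _ _ => mul_comm _ _
theorem ip_add_left (F G H : X → ℝ) : ip (F + G) H = ip F H + ip G H := by
  simp [ip, add_mul, sum_add_distrib]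
theorem ip_add_right (F G H : X → ℝ) : ip F (G + H) = ip F G + ip F H := by
  simp [ip, mul_add, sum_add_distrib]
theorem ip_sub_left (F G H : X → ℝ) : ip (F - G) H = ip F H - ip G H := by
  simp [ip, sub_mul, sum_sub_distrib]
theorem ip_sub_right (F G H : X → ℝ) : ip F (G - H) = ip F G - ip F H := by
  simp [ip, mul_sub, sum_sub_distrib]
theorem ip_smul_left (c : ℝ) (F G : X → ℝ) : ip (c • F) G = c * ip F G := by
  simp [ip, mul_sum, mul_assoc]
theorem ip_smul_right (c : ℝ) (F G : X → ℝ) : ip F (c • G) = c * ip F G := by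
  rw [ip_comm, ip_smul_left, ip_comm]
theorem ip_zero_left (F : X → ℝ) : ip 0 F = 0 := by simp [ip]
theorem ip_zero_right (F : X → ℝ) : ip F 0 = 0 := by simp [ip]
theorem ip_sum_left {ι : Type*} (s : Finset ι) (F : ι → X → ℝ) (G : X → ℝ) :
    ip (∑ i ∈ s, F i) G = ∑ i ∈ s, ip (F i) G := by
  simp only [ip, Finset.sum_apply, sum_mul]; exact sum_comm
theorem ip_sum_right {ι : Type*} (s : Finset ι) (F : ι → X → ℝ) (G : X → ℝ) :
    ip G (∑ i ∈ s, F i) = ∑ i ∈ s, ip G (F i) := by
  rw [ip_comm, ip_sum_left]; exact sum_congr rfl fun _ _ => ip_comm _ _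
theorem ip_self_nonneg (F : X → ℝ) : 0 ≤ ip F F := sum_nonneg fun _ _ => mul_self_nonneg _
theorem ip_self_pos {F : X → ℝ} (h : F ≠ 0) : 0 < ip F F := by
  obtain ⟨x, hx⟩ := Function.ne_iff.1 h
  exact sum_pos' (fun _ _ => mul_self_nonneg _) ⟨x, mem_univ _, mul_self_pos.2 hx⟩
theorem ip_sq_le (F G : X → ℝ) : ip F G ^ 2 ≤ ip F F * ip G G := by
  have := sum_mul_sq_le_sq_mul_sq univ F G
  simpa [ip, sq] using this

theorem quad_le (T : (X → ℝ) →ₗ[ℝ] (X → ℝ)) (hT : ∀ F G, ip (T F) G = ip F (T G)) (a : ℝ)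
    (h : ∀ F, F ≠ 0 → ∀ μ : ℝ, T F = μ • F → μ ≤ a) (F : X → ℝ) : ip F (T F) ≤ a * ip F F := by
  let e : EuclideanSpace ℝ X ≃ₗ[ℝ] (X → ℝ) := WithLp.linearEquiv 2 ℝ (X → ℝ)
  have he : ∀ u v : EuclideanSpace ℝ X, ⟪u, v⟫ = ip (e u) (e v) := fun u v => by
    rw [PiLp.inner_apply, ip]
    exact sum_congr rfl fun x _ => by simp [e, mul_comm]
  let S : EuclideanSpace ℝ X →ₗ[ℝ] EuclideanSpace ℝ X := e.symm.toLinearMap ∘ₗ T ∘ₗ e.toLinearMap
  have hS : ∀ u, e (S u) = T (e u) := fun u => by simp [S]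
  have := quad_le' S (fun u v => by rw [he, he, hS, hS, hT]) a (fun v hv μ hμ => by
    refine h (e v) (by simpa using hv) μ ?_
    rw [← hS, hμ, map_smul]) (e.symm F)
  rw [he, he, hS] at this
  simpa using this

open Classical in
/-- equivalence class -/
def cls (R : Setoid X) (x : X) : Finset X := univ.filter fun y => R x y

theorem mem_cls {R : Setoid X} {x y : X} : y ∈ cls R x ↔ R x y := by simp [cls]

theorem cls_eq {R : Setoid X} {x y : X} (h : R x y) : cls R x = cls R y := by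
  ext z; simp only [mem_cls]
  exact ⟨fun h' => R.trans (R.symm h) h', fun h' => R.trans h h'⟩

theorem card_cls_pos (R : Setoid X) (x : X) : (0 : ℝ) < (cls R x).card := by
  exact_mod_cast card_pos.2 ⟨x, mem_cls.2 (R.refl x)⟩

/-- conditional expectation -/
def P (R : Setoid X) : (X → ℝ) →ₗ[ℝ] (X → ℝ) where
  toFun F x := (∑ y ∈ cls R x, F y) / (cls R x).card
  map_add' F G := by ext x; simp [sum_add_distrib, add_div]
  map_smul' c F := by ext x; simp [← mul_sum, mul_div_assoc]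

theorem P_apply (R : Setoid X) (F : X → ℝ) (x : X) :
    P R F x = (∑ y ∈ cls R x, F y) / (cls R x).card := rfl

theorem P_inv {R : Setoid X} (F : X → ℝ) {x y : X} (h : R x y) : P R F x = P R F y := by
  rw [P_apply, P_apply, cls_eq h]

theorem P_congr {R : Setoid X} {F G : X → ℝ} {x : X} (h : ∀ y, R x y → F y = G y) :
    P R F x = P R G x := by
  rw [P_apply, P_apply, sum_congr rfl fun y hy => h y (mem_cls.1 hy)]

theorem P_const {R : Setoid X} {F : X → ℝ} {x : X} {c : ℝ} (h : ∀ y, R x y → F y = c) :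
    P R F x = c := by
  rw [P_apply, sum_congr rfl fun y hy => h y (mem_cls.1 hy), sum_const, nsmul_eq_mul,
    mul_div_cancel_left₀ _ (card_cls_pos R x).ne']

theorem P_of_inv {R : Setoid X} {F : X → ℝ} (h : ∀ x y, R x y → F x = F y) : P R F = F :=
  funext fun x => P_const fun y hy => (h x y hy).symm

theorem P_mul {R : Setoid X} {A : X → ℝ} (F : X → ℝ) (h : ∀ x y, R x y → A x = A y) :
    P R (A * F) = A * P R F := by
  ext x
  rw [Pi.mul_apply, P_apply, P_apply, ← mul_div_assoc, mul_sum]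
  congr 1
  exact sum_congr rfl fun y hy => by rw [Pi.mul_apply, h x y (mem_cls.1 hy)]

theorem sum_P (R : Setoid X) (F : X → ℝ) : ∑ x, P R F x = ∑ x, F x := by
  classical
  simp only [P_apply, sum_div]
  rw [sum_comm' (t' := univ) (s' := fun y => cls R y)]
  · refine sum_congr rfl fun y _ => ?_
    rw [sum_congr rfl fun x hx => by rw [← cls_eq (mem_cls.1 hx)], sum_const, nsmul_eq_mul,
      mul_div_cancel₀ _ (card_cls_pos R y).ne']
  · intro x y; simp only [mem_cls, mem_univ, true_and, and_true]; exact ⟨R.symm, R.symm⟩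

theorem ip_P_P (R : Setoid X) (F G : X → ℝ) : ip (P R F) G = ip (P R F) (P R G) := by
  have := sum_P R (P R F * G)
  rw [P_mul G fun x y h => P_inv F h] at this
  exact this.symm

theorem ip_P (R : Setoid X) (F G : X → ℝ) : ip (P R F) G = ip F (P R G) := by
  rw [ip_P_P, ip_comm F, ip_P_P R G F, ip_comm]

theorem P_P_fine {R S : Setoid X} (h : ∀ x y, R x y → S x y) (F : X → ℝ) :
    P R (P S F) = P S F := P_of_inv fun x y hxy => P_inv F (h x y hxy)

theorem P_P (R : Setoid X) (F : X → ℝ) : P R (P R F) = P R F := P_P_fine (fun _ _ h => h) F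

theorem eq_of_ip {F G : X → ℝ} (h : ∀ H, ip F H = ip G H) : F = G := by
  by_contra hne
  have := ip_self_pos (sub_ne_zero.2 hne)
  rw [ip_sub_left, h, sub_self] at this
  exact lt_irrefl _ this

theorem P_P_coarse {R S : Setoid X} (h : ∀ x y, R x y → S x y) (F : X → ℝ) :
    P S (P R F) = P S F :=
  eq_of_ip fun H => by rw [ip_P, ip_P, P_P_fine h, ip_P]

theorem ip_P_le (R : Setoid X) (F : X → ℝ) : ip (P R F) (P R F) ≤ ip F F := by
  have := ip_self_nonneg (F - P R F)
  rw [ip_sub_left, ip_sub_right, ip_sub_right, ← ip_P, ip_P_P R F F] at this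
  linarith

theorem sum_le_of_cls (R : Setoid X) {F G : X → ℝ}
    (h : ∀ x, ∑ y ∈ cls R x, F y ≤ ∑ y ∈ cls R x, G y) : ∑ x, F x ≤ ∑ x, G x := by
  rw [← sum_P R F, ← sum_P R G]
  exact sum_le_sum fun x _ => div_le_div_of_nonneg_right (h x) (card_cls_pos R x).le

theorem sum_invol {τ : X → X} (hτ : Function.Involutive τ) (F : X → ℝ) :
    ∑ x, F (τ x) = ∑ x, F x := Equiv.sum_comp hτ.toPerm F

theorem P_comp {R : Setoid X} {τ : X → X} (hτ : Function.Involutive τ)
    (h : ∀ x y, R x y → R (τ x) (τ y)) (F : X → ℝ) : P R (F ∘ τ) = P R F ∘ τ := by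
  ext x
  have hb : ∀ G : X → ℝ, ∑ y ∈ cls R x, G (τ y) = ∑ y ∈ cls R (τ x), G y := fun G =>
    sum_nbij' τ τ (fun y hy => mem_cls.2 (h _ _ (mem_cls.1 hy)))
      (fun y hy => mem_cls.2 (by have := h _ _ (mem_cls.1 hy); rwa [hτ] at this))
      (fun y _ => hτ y) (fun y _ => hτ y) (fun _ _ => rfl)
  have hc := hb fun _ => 1
  simp only [sum_const, nsmul_eq_mul, mul_one] at hc
  simp only [Function.comp, P_apply]
  rw [hb F, hc]

theorem P_comp_self {R : Setoid X} {τ : X → X} (hτ : Function.Involutive τ)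
    (h : ∀ x, R x (τ x)) (F : X → ℝ) : P R (F ∘ τ) = P R F := by
  rw [P_comp hτ fun x y hxy => R.trans (R.symm (h x)) (R.trans hxy (h y))]
  exact funext fun x => (P_inv F (h x)).symm

/-- the grid criterion for commutation -/
theorem P_comm_on {R S : Setoid X} (O : X → Prop) (hR : ∀ x y, O x → R x y → O y)
    (hS : ∀ x y, O x → S x y → O y)
    (h1 : ∀ x y z, O x → R x y → S x z → ∃ w, S y w ∧ R z w)
    (h2 : ∀ x y, O x → R x y → S x y → x = y) (F : X → ℝ) {x : X} (hx : O x) :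
    P R (P S F) x = P S (P R F) x := by
  classical
  have key : ∀ {R S : Setoid X}, (∀ x y, O x → R x y → O y) → (∀ x y, O x → S x y → O y) →
      (∀ x y z, O x → R x y → S x z → ∃ w, S y w ∧ R z w) →
      (∀ x y, O x → R x y → S x y → x = y) →
      P R (P S F) x = (∑ w ∈ univ.filter (fun w => ∃ y, R x y ∧ S y w), F w) /
        ((cls R x).card * (cls S x).card) := by
    intro R S hR hS h1 h2
    have hle : ∀ x y, O x → R x y → (cls S x).card ≤ (cls S y).card := by
      intro x y hx hxy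
      choose! w hw using fun z => h1 x y z hx hxy
      refine card_le_card_of_injOn w (fun z hz => ?_) (fun z hz z' hz' he => ?_)
      · exact mem_coe.2 (mem_cls.2 (hw z (mem_cls.1 (mem_coe.1 hz))).1)
      · have a1 := mem_cls.1 (mem_coe.1 hz)
        have a2 := mem_cls.1 (mem_coe.1 hz')
        refine h2 z z' (hS _ _ hx a1) (R.trans (hw z a1).2 ?_) (S.trans (S.symm a1) a2)
        rw [he]; exact R.symm (hw z' a2).2
    have hc : ∀ y ∈ cls R x, (cls S y).card = (cls S x).card := fun y hy =>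
      le_antisymm (hle y x (hR _ _ hx (mem_cls.1 hy)) (R.symm (mem_cls.1 hy)))
        (hle x y hx (mem_cls.1 hy))
    rw [P_apply, sum_congr rfl fun y hy => by rw [P_apply, hc y hy], ← sum_div, div_div,
      mul_comm, ← sum_biUnion]
    · congr 1
      refine sum_congr ?_ fun _ _ => rfl
      ext w; simp [mem_cls]
    · intro y hy y' hy' hne
      have a1 := mem_cls.1 (mem_coe.1 hy)
      have a2 := mem_cls.1 (mem_coe.1 hy')
      refine disjoint_left.2 fun w b1 b2 => hne ?_
      exact h2 y y' (hR _ _ hx a1) (R.trans (R.symm a1) a2)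
        (S.trans (mem_cls.1 b1) (S.symm (mem_cls.1 b2)))
  have h1' : ∀ x y z, O x → S x y → R x z → ∃ w, R y w ∧ S z w := fun x y z hx a b => by
    obtain ⟨w, c, d⟩ := h1 x z y hx b a
    exact ⟨w, d, c⟩
  rw [key hR hS h1 h2, key hS hR h1' fun x y hx a b => h2 x y hx b a, mul_comm]
  congr 1
  refine sum_congr ?_ fun _ _ => rfl
  ext w
  simp only [mem_filter, mem_univ, true_and]
  constructor
  · rintro ⟨y, a, b⟩
    obtain ⟨z, c, d⟩ := h1 y x w (hR _ _ hx a) (R.symm a) b
    exact ⟨z, c, R.symm d⟩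
  · rintro ⟨y, a, b⟩
    obtain ⟨z, c, d⟩ := h1' y x w (hS _ _ hx a) (S.symm a) b
    exact ⟨z, c, S.symm d⟩

end Vale.Agent.P335
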