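import Mathlib

open Finset

noncomputable section

namespace Vale.Agent.P335

variable {X K : Type*} [DecidableEq K]

/-- exchangeable binary coordinates with a fixed sum -/
structure JH (Φ : Finset X) (Δ : Finset K) (y : K → X → ℝ) (τ : K → K → X → X) (a : ℝ) :
    Prop where
  bin : ∀ k ∈ Δ, ∀ x ∈ Φ, y k x = 0 ∨ y k x = 1
  mem : ∀ k ∈ Δ, ∀ l ∈ Δ, k ≠ l → ∀ x ∈ Φ, τ k l x ∈ Φ
  inv : ∀ k ∈ Δ, ∀ l ∈ Δ, k ≠ l → ∀ x ∈ Φ, τ k l (τ k l x) = x
  sw1 : ∀ k ∈ Δ, ∀ l ∈ Δ, k ≠ l → ∀ x ∈ Φ, y k (τ k l x) = y l x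
  sw2 : ∀ k ∈ Δ, ∀ l ∈ Δ, k ≠ l → ∀ x ∈ Φ, y l (τ k l x) = y k x
  sw3 : ∀ k ∈ Δ, ∀ l ∈ Δ, k ≠ l → ∀ m ∈ Δ, m ≠ k → m ≠ l → ∀ x ∈ Φ, y m (τ k l x) = y m x
  tot : ∀ x ∈ Φ, ∑ k ∈ Δ, y k x = a

/-- energy of one transposition -/
def en (Φ : Finset X) (τ : K → K → X → X) (φ : X → ℝ) (k l : K) : ℝ :=
  ∑ x ∈ Φ, ((φ x - φ (τ k l x)) / 2) ^ 2

theorem en_nonneg (Φ : Finset X) (τ : K → K → X → X) (φ : X → ℝ) (k l : K) : 0 ≤ en Φ τ φ k l :=
  sum_nonneg fun _ _ => sq_nonneg _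

theorem sum_sq_sub (T : Finset K) (f : K → ℝ) :
    ∑ k ∈ T, ∑ l ∈ T, (f k - f l) ^ 2 = 2 * T.card * ∑ k ∈ T, f k ^ 2 - 2 * (∑ k ∈ T, f k) ^ 2 := by
  simp only [sub_sq, sum_add_distrib, sum_sub_distrib, sum_const, nsmul_eq_mul, ← mul_sum,
    ← sum_mul]
  ring

namespace JH

variable {Φ : Finset X} {Δ : Finset K} {y : K → X → ℝ} {τ : K → K → X → X} {a : ℝ}

theorem sum_τ (h : JH Φ Δ y τ a) {k l : K} (hk : k ∈ Δ) (hl : l ∈ Δ) (hkl : k ≠ l) (f : X → ℝ) :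
    ∑ x ∈ Φ, f (τ k l x) = ∑ x ∈ Φ, f x :=
  sum_nbij' (τ k l) (τ k l) (h.mem k hk l hl hkl) (h.mem k hk l hl hkl) (h.inv k hk l hl hkl)
    (h.inv k hk l hl hkl) fun _ _ => rfl

theorem anti (h : JH Φ Δ y τ a) {k l : K} (hk : k ∈ Δ) (hl : l ∈ Δ) (hkl : k ≠ l) (φ t : X → ℝ)
    (ht : ∀ x ∈ Φ, t (τ k l x) = -t x) :
    ∑ x ∈ Φ, (φ x - φ (τ k l x)) / 2 * t x = ∑ x ∈ Φ, φ x * t x := by
  have h1 := h.sum_τ hk hl hkl fun x => φ x * t x
  rw [sum_congr rfl fun x hx => by rw [ht x hx]] at h1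
  have : ∀ x, (φ x - φ (τ k l x)) / 2 * t x = (φ x * t x + φ (τ k l x) * -t x) / 2 := fun x => by
    ring
  simp only [this, ← sum_div, sum_add_distrib, h1]; ring

theorem sq (h : JH Φ Δ y τ a) {k : K} (hk : k ∈ Δ) {x : X} (hx : x ∈ Φ) :
    y k x * y k x = y k x := by
  rcases h.bin k hk x hx with h | h <;> simp [h]

theorem sum_w (h : JH Φ Δ y τ a) {φ : X → ℝ} (h0 : ∑ x ∈ Φ, φ x = 0) :
    ∑ k ∈ Δ, ∑ x ∈ Φ, φ x * y k x = 0 := by
  rw [sum_comm, sum_congr rfl fun x hx => by rw [← mul_sum, h.tot x hx], ← sum_mul, h0, zero_mul]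

theorem p_eq1 (h : JH Φ Δ y τ a) {k l m : K} (hk : k ∈ Δ) (hl : l ∈ Δ) (hm : m ∈ Δ) (hkl : k ≠ l)
    (hml : m ≠ l) : ∑ x ∈ Φ, (y k x - y l x) ^ 2 = ∑ x ∈ Φ, (y m x - y l x) ^ 2 := by
  by_cases hkm : k = m
  · rw [hkm]
  rw [← h.sum_τ hk hm hkm]
  exact sum_congr rfl fun x hx => by
    rw [h.sw1 k hk m hm hkm x hx, h.sw3 k hk m hm hkm l hl hkl.symm hml.symm x hx]

theorem p_eq (h : JH Φ Δ y τ a) {k l k' l' : K} (hk : k ∈ Δ) (hl : l ∈ Δ) (hk' : k' ∈ Δ)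
    (hl' : l' ∈ Δ) (hkl : k ≠ l) (hkl' : k' ≠ l') :
    ∑ x ∈ Φ, (y k x - y l x) ^ 2 = ∑ x ∈ Φ, (y k' x - y l' x) ^ 2 := by
  have sy : ∀ k l, ∑ x ∈ Φ, (y k x - y l x) ^ 2 = ∑ x ∈ Φ, (y l x - y k x) ^ 2 := fun k l =>
    sum_congr rfl fun x _ => by ring
  by_cases h1 : k' = l
  · subst h1
    rw [sy k, sy k' k, h.p_eq1 hk hk' hl' hkl hkl'.symm, sy]
  · rw [h.p_eq1 hk hl hk' hkl h1, sy, h.p_eq1 hl hk' hl' (Ne.symm h1) hkl'.symm, sy]

theorem r_eq (h : JH Φ Δ y τ a) {k l m : K} (hk : k ∈ Δ) (hl : l ∈ Δ) (hm : m ∈ Δ) (hkl : k ≠ l)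
    (hmk : m ≠ k) (hml : m ≠ l) : ((Δ.card : ℝ) - 2) * ∑ x ∈ Φ, (y k x - y l x) ^ 2 * y m x =
      (a - 1) * ∑ x ∈ Φ, (y k x - y l x) ^ 2 := by
  have h1 : ∀ m' ∈ (Δ.erase k).erase l, ∑ x ∈ Φ, (y k x - y l x) ^ 2 * y m' x =
      ∑ x ∈ Φ, (y k x - y l x) ^ 2 * y m x := by
    intro m' hm'
    simp only [mem_erase] at hm'
    by_cases hmm : m' = m
    · rw [hmm]
    rw [← h.sum_τ hm'.2.2 hm hmm]
    exact sum_congr rfl fun x hx => by
      rw [h.sw1 m' hm'.2.2 m hm hmm x hx,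
        h.sw3 m' hm'.2.2 m hm hmm k hk (Ne.symm hm'.2.1) hmk.symm x hx,
        h.sw3 m' hm'.2.2 m hm hmm l hl (Ne.symm hm'.1) hml.symm x hx]
  have hl' : l ∈ Δ.erase k := mem_erase.2 ⟨hkl.symm, hl⟩
  have h2 : (((Δ.erase k).erase l).card : ℝ) = Δ.card - 2 := by
    have a1 := card_erase_add_one hl'
    have a2 := card_erase_add_one hk
    rw [← a2, ← a1]; push_cast; ring
  have h3 := sum_congr rfl h1
  rw [sum_const, nsmul_eq_mul, h2] at h3
  rw [← h3, sum_comm, mul_sum]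
  refine sum_congr rfl fun x hx => ?_
  rw [← mul_sum, sum_erase_eq_sub hl', sum_erase_eq_sub hk, h.tot x hx]
  rcases h.bin k hk x hx with a1 | a1 <;> rcases h.bin l hl x hx with a2 | a2 <;>
    simp [a1, a2]

theorem level (h : JH Φ Δ y τ a) {φ : X → ℝ} (h0 : ∑ x ∈ Φ, φ x = 0) (c : K → K → ℝ)
    (hc : ∀ k ∈ Δ, ∀ l ∈ Δ, k ≠ l →
      c k l * ∑ x ∈ Φ, (y k x - y l x) ^ 2 = ∑ x ∈ Φ, φ x * (y k x - y l x) ^ 2) :
    ∑ k ∈ Δ, ∑ l ∈ Δ.erase k, c k l ^ 2 * ∑ x ∈ Φ, (y k x - y l x) ^ 2 ≤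
      ∑ k ∈ Δ, ∑ l ∈ Δ.erase k, en Φ τ φ k l := by
  have hR : 0 ≤ ∑ k ∈ Δ, ∑ l ∈ Δ.erase k, en Φ τ φ k l :=
    sum_nonneg fun _ _ => sum_nonneg fun _ _ => en_nonneg _ _ _ _ _
  by_cases hs : Δ.card ≤ 2
  · refine le_of_eq_of_le (sum_eq_zero fun k hk => sum_eq_zero fun l hl => ?_) hR
    obtain ⟨hlk, hl⟩ := mem_erase.1 hl
    have hΔ : Δ = {k, l} := by
      refine (eq_of_subset_of_card_le (fun m hm => ?_) ?_).symm
      · simp only [mem_insert, mem_singleton] at hm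
        rcases hm with rfl | rfl <;> assumption
      · rwa [card_pair hlk.symm]
    rw [pow_two, mul_assoc, hc k hk l hl hlk.symm]
    have : ∀ x ∈ Φ, φ x * (y k x - y l x) ^ 2 = φ x * (a * (2 - a)) := fun x hx => by
      rw [← h.tot x hx, hΔ, sum_pair hlk.symm]
      rcases h.bin k hk x hx with a1 | a1 <;> rcases h.bin l hl x hx with a2 | a2 <;>
        simp [a1, a2] <;> norm_num
    rw [sum_congr rfl this, ← sum_mul, h0]; simp
  push Not at hs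
  obtain ⟨k0, l0, m0, hk0, hl0, hm0, hkl0, hkm0, hlm0⟩ := two_lt_card_iff.1 hs
  set p := ∑ x ∈ Φ, (y k0 x - y l0 x) ^ 2 with hp
  have hpe : ∀ k ∈ Δ, ∀ l ∈ Δ, k ≠ l → ∑ x ∈ Φ, (y k x - y l x) ^ 2 = p :=
    fun k hk l hl hkl => h.p_eq hk hl hk0 hl0 hkl hkl0
  have hp0 : 0 ≤ p := sum_nonneg fun _ _ => sq_nonneg _
  rcases hp0.eq_or_lt with hp0 | hp0
  · refine le_of_eq_of_le (sum_eq_zero fun k hk => sum_eq_zero fun l hl => ?_) hR
    rw [hpe k hk l (mem_erase.1 hl).2 (mem_erase.1 hl).1.symm, ← hp0, mul_zero]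
  set s : ℝ := (Δ.card : ℝ) with hsd
  have hs2 : 0 < s - 2 := by
    have : (2 : ℝ) < Δ.card := by exact_mod_cast hs
    linarith
  set e := (a - 1) / (s - 2) with he
  have hre : ∀ k ∈ Δ, ∀ l ∈ Δ, ∀ m ∈ Δ, k ≠ l → m ≠ k → m ≠ l →
      ∑ x ∈ Φ, (y k x - y l x) ^ 2 * y m x = e * p := fun k hk l hl m hm a1 a2 a3 => by
    have := h.r_eq hk hl hm a1 a2 a3
    rw [hpe k hk l hl a1, ← hsd] at this
    rw [he, div_mul_eq_mul_div, ← this]; field_simp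
  have he0 : 0 ≤ e ∧ e ≤ 1 := by
    have a1 := hre k0 hk0 l0 hl0 m0 hm0 hkl0 hkm0.symm hlm0.symm
    have a2 : 0 ≤ ∑ x ∈ Φ, (y k0 x - y l0 x) ^ 2 * y m0 x := sum_nonneg fun x hx => by
      rcases h.bin m0 hm0 x hx with a | a <;> simp [a, sq_nonneg]
    have a3 : ∑ x ∈ Φ, (y k0 x - y l0 x) ^ 2 * y m0 x ≤ p := sum_le_sum fun x hx => by
      rcases h.bin m0 hm0 x hx with a | a <;> simp [a, sq_nonneg]
    rw [a1] at a2 a3
    constructor <;> nlinarith only [a2, a3, hp0]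
  set w : K → ℝ := fun k => ∑ x ∈ Φ, φ x * y k x with hw
  set q : K → K → ℝ := fun k l => ∑ x ∈ Φ, φ x * (y k x * y l x) with hq
  set ζ : K → K → ℝ := fun k l => 2 * e * (w k + w l) - 2 * q k l with hζ
  have hw0 : ∑ k ∈ Δ, w k = 0 := h.sum_w h0
  have hz : ∀ k ∈ Δ, ∀ l ∈ Δ, ∑ x ∈ Φ, φ x * (y k x - y l x) ^ 2 =
      (1 - 2 * e) * (w k + w l) + ζ k l := fun k hk l hl => by
    have : ∑ x ∈ Φ, φ x * (y k x - y l x) ^ 2 = w k + w l - 2 * q k l := by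
      simp only [hw, hq, mul_sum, ← sum_add_distrib, ← sum_sub_distrib]
      refine sum_congr rfl fun x hx => ?_
      have a1 := h.sq hk hx
      have a2 := h.sq hl hx
      linear_combination (φ x) * a1 + (φ x) * a2
    rw [this, hζ]; ring
  have hce : ∀ m ∈ Δ, ((Δ.erase m).card : ℝ) = s - 1 := fun m hm => by
    rw [hsd, ← card_erase_add_one hm]; push_cast; ring
  have hζ0 : ∀ m ∈ Δ, ∑ k ∈ Δ.erase m, ζ k m = 0 := fun m hm => by
    have a1 : ∑ k ∈ Δ.erase m, q k m = (a - 1) * w m := by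
      simp only [hq, hw]
      rw [sum_comm, mul_sum]
      refine sum_congr rfl fun x hx => ?_
      rw [← mul_sum, ← sum_mul, sum_erase_eq_sub hm, h.tot x hx]
      linear_combination (-φ x) * h.sq hm hx
    have a2 : ∑ k ∈ Δ.erase m, w k = -w m := by rw [sum_erase_eq_sub hm, hw0, zero_sub]
    simp only [hζ, sum_sub_distrib, ← mul_sum, sum_add_distrib, a1, a2, sum_const, nsmul_eq_mul,
      hce m hm]
    rw [he]; field_simp; ring
  have bes : ∀ k ∈ Δ, ∀ l ∈ Δ, ∀ m ∈ Δ, k ≠ l → m ≠ k → m ≠ l →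
      (ζ k m - ζ l m) ^ 2 ≤ p * en Φ τ φ k l - (w k - w l) ^ 2 := by
    intro k hk l hl m hm a1 a2 a3
    set u := w k - w l with hu
    set v := ζ k m - ζ l m with hv
    have b1 : ∑ x ∈ Φ, (φ x - φ (τ k l x)) / 2 * (y k x - y l x) = u := by
      rw [h.anti hk hl a1 φ (fun x => y k x - y l x) fun x hx => by
        simp only [h.sw1 k hk l hl a1 x hx, h.sw2 k hk l hl a1 x hx]; ring]
      simp only [hu, hw, mul_sub, sum_sub_distrib]
    have b2 : ∑ x ∈ Φ, (φ x - φ (τ k l x)) / 2 * ((y k x - y l x) * (y m x - e)) = -v / 2 := by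
      rw [h.anti hk hl a1 φ (fun x => (y k x - y l x) * (y m x - e)) fun x hx => by
        simp only [h.sw1 k hk l hl a1 x hx, h.sw2 k hk l hl a1 x hx,
          h.sw3 k hk l hl a1 m hm a2 a3 x hx]; ring]
      have : -v / 2 = q k m - q l m - e * w k + e * w l := by simp only [hv, hζ]; ring
      rw [this]
      simp only [hq, hw, mul_sum, ← sum_sub_distrib, ← sum_add_distrib]
      exact sum_congr rfl fun x _ => by ring
    have b3 := hpe k hk l hl a1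
    have b4 := hre k hk l hl m hm a1 a2 a3
    have b5 : 0 ≤ ∑ x ∈ Φ, (p * ((φ x - φ (τ k l x)) / 2) - u * (y k x - y l x) +
        2 * v * ((y k x - y l x) * (y m x - e))) ^ 2 := sum_nonneg fun _ _ => sq_nonneg _
    have b6 : ∑ x ∈ Φ, (p * ((φ x - φ (τ k l x)) / 2) - u * (y k x - y l x) +
        2 * v * ((y k x - y l x) * (y m x - e))) ^ 2 =
        p ^ 2 * en Φ τ φ k l
        - 2 * p * u * ∑ x ∈ Φ, (φ x - φ (τ k l x)) / 2 * (y k x - y l x)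
        + 4 * p * v * ∑ x ∈ Φ, (φ x - φ (τ k l x)) / 2 * ((y k x - y l x) * (y m x - e))
        + (u ^ 2 + 4 * u * v * e + 4 * v ^ 2 * e ^ 2) * ∑ x ∈ Φ, (y k x - y l x) ^ 2
        + (4 * v ^ 2 * (1 - 2 * e) - 4 * u * v) * ∑ x ∈ Φ, (y k x - y l x) ^ 2 * y m x := by
      simp only [en, mul_sum, ← sum_sub_distrib, ← sum_add_distrib]
      refine sum_congr rfl fun x hx => ?_
      linear_combination (4 * v ^ 2 * (y k x - y l x) ^ 2) * h.sq hm hx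
    rw [b6, b1, b2, b3, b4] at b5
    have b7 : 0 ≤ p * (p * en Φ τ φ k l - u ^ 2 - v ^ 2 - v ^ 2 * (1 - 2 * e) ^ 2) :=
      b5.trans_eq (by ring)
    have b8 := (mul_nonneg_iff_of_pos_left hp0).1 b7
    have b9 := mul_nonneg (sq_nonneg v) (sq_nonneg (1 - 2 * e))
    linarith only [b8, b9]
  set G : K → K → ℝ := fun k l => if k = l then 0 else p * en Φ τ φ k l - (w k - w l) ^ 2 with hG
  set Z := ∑ m ∈ Δ, ∑ k ∈ Δ.erase m, ζ k m ^ 2 with hZ
  have hZ0 : 0 ≤ Z := sum_nonneg fun _ _ => sum_nonneg fun _ _ => sq_nonneg _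
  have c1 : 2 * (s - 1) * Z ≤ (s - 2) * ∑ k ∈ Δ, ∑ l ∈ Δ, G k l := by
    have a1 : ∀ m ∈ Δ, 2 * (s - 1) * ∑ k ∈ Δ.erase m, ζ k m ^ 2 ≤
        ∑ k ∈ Δ, ∑ l ∈ Δ, G k l - ∑ l ∈ Δ, G m l - ∑ k ∈ Δ, G k m := fun m hm => by
      have b1 := sum_sq_sub (Δ.erase m) fun k => ζ k m
      rw [hζ0 m hm, hce m hm] at b1
      have b2 : ∑ k ∈ Δ.erase m, ∑ l ∈ Δ.erase m, (ζ k m - ζ l m) ^ 2 ≤
          ∑ k ∈ Δ.erase m, ∑ l ∈ Δ.erase m, G k l :=
        sum_le_sum fun k hk => sum_le_sum fun l hl => by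
          by_cases hkl : k = l
          · simp [hG, hkl]
          · simp only [hG, hkl, if_false]
            exact bes k (mem_erase.1 hk).2 l (mem_erase.1 hl).2 m hm hkl (mem_erase.1 hk).1.symm
              (mem_erase.1 hl).1.symm
      simp only [sum_erase_eq_sub hm, sum_sub_distrib] at b2
      have b3 : G m m = 0 := by simp [hG]
      simp only [sum_erase_eq_sub hm, sum_sub_distrib] at b1 ⊢
      linarith
    have a2 := sum_le_sum a1
    rw [← mul_sum, sum_sub_distrib, sum_sub_distrib, sum_const, nsmul_eq_mul,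
      sum_comm (f := fun m k => G k m)] at a2
    linarith
  set W := ∑ k ∈ Δ, w k ^ 2 with hW
  have hW0 : 0 ≤ W := sum_nonneg fun _ _ => sq_nonneg _
  have c2 : ∑ k ∈ Δ, ∑ l ∈ Δ, G k l = p * ∑ k ∈ Δ, ∑ l ∈ Δ.erase k, en Φ τ φ k l - 2 * s * W := by
    have a1 := sum_sq_sub Δ w
    rw [hw0] at a1
    have a2 : ∀ k ∈ Δ, ∑ l ∈ Δ, G k l =
        p * ∑ l ∈ Δ.erase k, en Φ τ φ k l - ∑ l ∈ Δ, (w k - w l) ^ 2 := fun k hk => by
      rw [← add_sum_erase _ _ hk, ← add_sum_erase _ (fun l => (w k - w l) ^ 2) hk,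
        sum_congr rfl fun l hl => if_neg (mem_erase.1 hl).1.symm]
      simp [hG, sum_sub_distrib, mul_sum]
    rw [sum_congr rfl a2, sum_sub_distrib, ← mul_sum, a1]; ring
  have c3 : p * ∑ k ∈ Δ, ∑ l ∈ Δ.erase k, c k l ^ 2 * ∑ x ∈ Φ, (y k x - y l x) ^ 2 =
      (1 - 2 * e) ^ 2 * (2 * (s - 2) * W) + Z := by
    have sy : ∀ k l, ζ k l = ζ l k := fun k l => by
      simp only [hζ, hq, mul_comm (y k _), add_comm]
    have a1 : ∀ k ∈ Δ, p * ∑ l ∈ Δ.erase k, c k l ^ 2 * ∑ x ∈ Φ, (y k x - y l x) ^ 2 =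
        (1 - 2 * e) ^ 2 * ((s - 4) * w k ^ 2 + W) + ∑ l ∈ Δ.erase k, ζ l k ^ 2 +
          2 * (1 - 2 * e) * ∑ l ∈ Δ.erase k, w l * ζ l k := fun k hk => by
      have b1 : ∀ l ∈ Δ.erase k, p * (c k l ^ 2 * ∑ x ∈ Φ, (y k x - y l x) ^ 2) =
          (1 - 2 * e) ^ 2 * (w k ^ 2 + 2 * w k * w l + w l ^ 2) + ζ l k ^ 2 +
            2 * (1 - 2 * e) * (w l * ζ l k) + 2 * (1 - 2 * e) * w k * ζ l k := fun l hl => by
        obtain ⟨hlk, hl⟩ := mem_erase.1 hl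
        have d1 := hc k hk l hl hlk.symm
        rw [hz k hk l hl, hpe k hk l hl hlk.symm, sy k l] at d1
        rw [hpe k hk l hl hlk.symm]
        have : p * (c k l ^ 2 * p) = (c k l * p) ^ 2 := by ring
        rw [this, d1]; ring
      rw [mul_sum, sum_congr rfl b1]
      simp only [sum_add_distrib, ← mul_sum, hζ0 k hk, sum_const, nsmul_eq_mul, hce k hk]
      rw [sum_erase_eq_sub hk (f := w), sum_erase_eq_sub hk (f := fun l => w l ^ 2), hw0]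
      ring
    have a2 : ∑ k ∈ Δ, ∑ l ∈ Δ.erase k, w l * ζ l k = 0 := by
      rw [sum_comm' (t' := Δ) (s' := fun l => Δ.erase l)]
      · refine sum_eq_zero fun l hl => ?_
        rw [← mul_sum, sum_congr rfl fun k _ => sy l k, hζ0 l hl, mul_zero]
      · intro k l; simp only [mem_erase]; tauto
    rw [mul_sum, sum_congr rfl a1]
    simp only [sum_add_distrib, ← mul_sum, a2, sum_const, nsmul_eq_mul]
    ring
  refine le_of_mul_le_mul_left ?_ (mul_pos hp0 hs2)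
  rw [c2] at c1
  have c4 : (1 - 2 * e) ^ 2 ≤ 1 := by nlinarith only [he0.1, he0.2]
  have c5 : (1 - 2 * e) ^ 2 * (2 * (s - 2) * W) ≤ 2 * s * W := by
    have := mul_le_mul_of_nonneg_right c4 (mul_nonneg (by linarith : 0 ≤ 2 * (s - 2)) hW0)
    linarith only [this, hW0]
  rw [mul_comm p, mul_assoc, c3, mul_assoc]
  have c6 := mul_le_mul_of_nonneg_left c5 hs2.le
  nlinarith only [c1, c6, hZ0, hs2]

theorem sum_sq_shift (Ψ : Finset X) (φ : X → ℝ) :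
    ∑ x ∈ Ψ, (φ x - (∑ x ∈ Ψ, φ x) / Ψ.card) = 0 ∧ ∑ x ∈ Ψ, φ x ^ 2 =
      ∑ x ∈ Ψ, (φ x - (∑ x ∈ Ψ, φ x) / Ψ.card) ^ 2 + (∑ x ∈ Ψ, φ x) ^ 2 / Ψ.card := by
  rcases Ψ.eq_empty_or_nonempty with rfl | h
  · simp
  have : (Ψ.card : ℝ) ≠ 0 := by exact_mod_cast h.card_pos.ne'
  simp only [sub_sq, sum_add_distrib, sum_sub_distrib, sum_const, nsmul_eq_mul, ← sum_mul,
    ← mul_sum]
  constructor <;> field_simp <;> ring

theorem restrict {k : K} {Δ : Finset K} (hk : k ∉ Δ) (h : JH Φ (insert k Δ) y τ a) (b : ℝ)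
    [DecidablePred fun x => y k x = b] : JH (Φ.filter fun x => y k x = b) Δ y τ (a - b) := by
  have i : ∀ l ∈ Δ, l ∈ insert k Δ := fun l hl => mem_insert_of_mem hl
  have ne : ∀ l ∈ Δ, k ≠ l := fun l hl e => hk (e ▸ hl)
  refine ⟨fun l hl x hx => h.bin l (i l hl) x (mem_filter.1 hx).1, fun l hl m hm e x hx => ?_,
    fun l hl m hm e x hx => h.inv l (i l hl) m (i m hm) e x (mem_filter.1 hx).1,
    fun l hl m hm e x hx => h.sw1 l (i l hl) m (i m hm) e x (mem_filter.1 hx).1,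
    fun l hl m hm e x hx => h.sw2 l (i l hl) m (i m hm) e x (mem_filter.1 hx).1,
    fun l hl m hm e n hn e1 e2 x hx =>
      h.sw3 l (i l hl) m (i m hm) e n (i n hn) e1 e2 x (mem_filter.1 hx).1, fun x hx => ?_⟩
  · obtain ⟨hx, hb⟩ := mem_filter.1 hx
    refine mem_filter.2 ⟨h.mem l (i l hl) m (i m hm) e x hx, ?_⟩
    rw [h.sw3 l (i l hl) m (i m hm) e k (mem_insert_self _ _) (ne l hl) (ne m hm) x hx, hb]
  · obtain ⟨hx, hb⟩ := mem_filter.1 hx
    rw [← h.tot x hx, sum_insert hk, hb]; ring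

theorem poincare (Δ : Finset K) : ∀ (Φ : Finset X) (a : ℝ), JH Φ Δ y τ a →
    (∀ x ∈ Φ, ∀ x' ∈ Φ, (∀ k ∈ Δ, y k x = y k x') → x = x') → ∀ φ : X → ℝ, ∑ x ∈ Φ, φ x = 0 →
    ∑ x ∈ Φ, φ x ^ 2 ≤ 4 * ∑ k ∈ Δ, ∑ l ∈ Δ.erase k, en Φ τ φ k l := by
  classical
  induction Δ using Finset.induction_on with
  | empty =>
    intro Φ a _ hf φ h0
    refine le_of_eq (Eq.trans (sum_eq_zero fun x hx => ?_) (by simp))
    rw [sum_eq_single_of_mem x hx fun x' hx' hne => absurd (hf x' hx' x hx (by simp)) hne] at h0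
    simp [h0]
  | insert k Δ hk ih =>
    intro Φ a h hf φ h0
    have hk' := mem_insert_self k Δ
    have part : ∀ f : X → ℝ, ∑ x ∈ Φ, f x =
        ∑ x ∈ Φ.filter (fun x => y k x = 1), f x + ∑ x ∈ Φ.filter (fun x => y k x = 0), f x := by
      intro f
      rw [← sum_filter_add_sum_filter_not Φ (fun x => y k x = 1)]
      congr 1
      refine sum_congr (filter_congr fun x hx => ?_) fun _ _ => rfl
      rcases h.bin k hk' x hx with e | e <;> simp [e]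
    have sub : ∀ b : ℝ, ∑ x ∈ Φ.filter (fun x => y k x = b), φ x ^ 2 ≤
        4 * ∑ l ∈ Δ, ∑ m ∈ Δ.erase l, en (Φ.filter fun x => y k x = b) τ φ l m +
        (∑ x ∈ Φ.filter (fun x => y k x = b), φ x) ^ 2 / (Φ.filter fun x => y k x = b).card := by
      intro b
      obtain ⟨a1, a2⟩ := sum_sq_shift (Φ.filter fun x => y k x = b) φ
      have := ih _ _ (h.restrict hk b) (fun x hx x' hx' e => by
        obtain ⟨hx, b1⟩ := mem_filter.1 hx
        obtain ⟨hx', b2⟩ := mem_filter.1 hx'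
        refine hf x hx x' hx' fun l hl => ?_
        rcases mem_insert.1 hl with rfl | hl
        · rw [b1, b2]
        · exact e l hl) _ a1
      simp only [en, sub_sub_sub_cancel_right] at this
      rw [a2]
      simp only [en]
      linarith
    set w := ∑ x ∈ Φ.filter (fun x => y k x = 1), φ x with hw
    have hw' : ∑ x ∈ Φ.filter (fun x => y k x = 0), φ x = -w := by
      have := part φ
      linarith
    have hw2 : w = ∑ x ∈ Φ, φ x * y k x := by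
      rw [hw, sum_filter]
      refine sum_congr rfl fun x hx => ?_
      rcases h.bin k hk' x hx with e | e <;> simp [e]
    set N := ∑ l ∈ Δ, en Φ τ φ k l with hN
    have hN0 : 0 ≤ N := sum_nonneg fun _ _ => en_nonneg _ _ _ _ _
    have key : ∀ n : ℝ, (∀ l ∈ Δ, ∑ x ∈ Φ, (y k x - y l x) ^ 2 ≤ 2 * n) → 0 ≤ n →
        w ^ 2 / n ≤ 2 * N := by
      intro n hn hn0
      have a1 : ((Δ.card : ℝ) + 1) * w =
          ∑ l ∈ Δ, ∑ x ∈ Φ, (φ x - φ (τ k l x)) / 2 * (y k x - y l x) := by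
        have b1 := h.sum_w h0
        rw [sum_insert hk] at b1
        rw [sum_congr rfl fun l hl => h.anti hk' (mem_insert_of_mem hl) (fun e => hk (e ▸ hl)) φ
          (fun x => y k x - y l x) fun x hx => by
            simp only [h.sw1 k hk' l (mem_insert_of_mem hl) (fun e => hk (e ▸ hl)) x hx,
              h.sw2 k hk' l (mem_insert_of_mem hl) (fun e => hk (e ▸ hl)) x hx]; ring]
        simp only [mul_sub, sum_sub_distrib, sum_const, nsmul_eq_mul, hw2]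
        linarith
      have a2 : ∀ l ∈ Δ, (∑ x ∈ Φ, (φ x - φ (τ k l x)) / 2 * (y k x - y l x)) ^ 2 ≤
          en Φ τ φ k l * (2 * n) := fun l hl =>
        (sum_mul_sq_le_sq_mul_sq _ _ _).trans
          (mul_le_mul_of_nonneg_left (hn l hl) (en_nonneg _ _ _ _ _))
      have a3 := (sq_sum_le_card_mul_sum_sq (s := Δ)).trans
        (mul_le_mul_of_nonneg_left (sum_le_sum a2) (Nat.cast_nonneg _))
      rw [← a1, ← sum_mul] at a3
      have a4 : (0 : ℝ) ≤ Δ.card := Nat.cast_nonneg _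
      have a5 : w ^ 2 ≤ 2 * N * n := by
        by_contra hc
        push Not at hc
        have := mul_nonneg hN0 hn0
        nlinarith [mul_nonneg a4 (sq_nonneg w), mul_nonneg (sq_nonneg (Δ.card : ℝ)) (sq_nonneg w),
          mul_le_mul_of_nonneg_left hc.le a4]
      rcases hn0.eq_or_lt with e | e
      · rw [← e, div_zero]; linarith
      · rwa [div_le_iff₀ e]
    have eqs : ∀ l ∈ Δ, ∑ x ∈ Φ, y l x = ∑ x ∈ Φ, y k x := fun l hl => by
      rw [← h.sum_τ hk' (mem_insert_of_mem hl) (fun e => hk (e ▸ hl))]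
      exact sum_congr rfl fun x hx =>
        h.sw2 k hk' l (mem_insert_of_mem hl) (fun e => hk (e ▸ hl)) x hx
    have k1 := key (Φ.filter fun x => y k x = 1).card (fun l hl => by
      have b1 : ((Φ.filter fun x => y k x = 1).card : ℝ) = ∑ x ∈ Φ, y k x := by
        rw [card_filter]; push_cast
        refine sum_congr rfl fun x hx => ?_
        rcases h.bin k hk' x hx with e | e <;> simp [e]
      rw [b1, two_mul]
      nth_rw 2 [← eqs l hl]
      rw [← sum_add_distrib]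
      refine sum_le_sum fun x hx => ?_
      rcases h.bin k hk' x hx with e | e <;>
        rcases h.bin l (mem_insert_of_mem hl) x hx with e' | e' <;> simp [e, e'])
      (Nat.cast_nonneg _)
    have k0 := key (Φ.filter fun x => y k x = 0).card (fun l hl => by
      have b1 : ((Φ.filter fun x => y k x = 0).card : ℝ) = ∑ x ∈ Φ, (1 - y k x) := by
        rw [card_filter]; push_cast
        refine sum_congr rfl fun x hx => ?_
        rcases h.bin k hk' x hx with e | e <;> simp [e]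
      have b2 : ∑ x ∈ Φ, (1 - y k x) = ∑ x ∈ Φ, (1 - y l x) := by
        simp only [sum_sub_distrib, eqs l hl]
      rw [b1, two_mul]
      nth_rw 2 [b2]
      rw [← sum_add_distrib]
      refine sum_le_sum fun x hx => ?_
      rcases h.bin k hk' x hx with e | e <;>
        rcases h.bin l (mem_insert_of_mem hl) x hx with e' | e' <;> simp [e, e'])
      (Nat.cast_nonneg _)
    have s1 := sub 1
    have s0 := sub 0
    rw [hw', neg_sq] at s0
    have e1 : ∑ l ∈ Δ, ∑ m ∈ Δ.erase l, en (Φ.filter fun x => y k x = 1) τ φ l m +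
        ∑ l ∈ Δ, ∑ m ∈ Δ.erase l, en (Φ.filter fun x => y k x = 0) τ φ l m ≤
        ∑ l ∈ Δ, ∑ m ∈ (insert k Δ).erase l, en Φ τ φ l m := by
      rw [← sum_add_distrib]
      refine sum_le_sum fun l _ => ?_
      rw [← sum_add_distrib]
      refine le_trans (le_of_eq (sum_congr rfl fun m _ => (part _).symm)) ?_
      exact sum_le_sum_of_subset_of_nonneg (erase_subset_erase _ (subset_insert _ _))
        fun _ _ _ => en_nonneg _ _ _ _ _
    rw [part, sum_insert hk, erase_insert hk]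
    linarith

end JH

end Vale.Agent.P335
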