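import Vale.Agent.P335.Tri2
import Vale.Agent.P335.John

open Finset

noncomputable section

namespace Vale.Agent.P335

variable {V : Type*} [Fintype V] [DecidableEq V] {d : V → ℤ}

/-- integer value of a bit -/
def io (b : Bool) : ℤ := if b then 1 else 0

/-- edge configurations with prescribed degrees -/
abbrev Cfg (d : V → ℤ) :=
  {x : Sym2 V → Bool // (∀ v, x s(v, v) = false) ∧ ∀ v, ∑ u, io (x s(v, u)) = d v}

/-- agreement off a set of edges -/
def Ag (d : V → ℤ) (E : Sym2 V → Prop) : Setoid (Cfg d) :=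
  ⟨fun x y => ∀ e, ¬E e → x.1 e = y.1 e, fun _ _ _ => rfl, fun h e he => (h e he).symm,
    fun h h' e he => (h e he).trans (h' e he)⟩

theorem Ag_iff {E : Sym2 V → Prop} {x y : Cfg d} : Ag d E x y ↔ ∀ e, ¬E e → x.1 e = y.1 e :=
  Iff.rfl

theorem sum_eq_of_off (x y : Cfg d) (v : V) (T : Finset V)
    (h : ∀ u, u ∉ T → x.1 s(v, u) = y.1 s(v, u)) :
    ∑ u ∈ T, io (x.1 s(v, u)) = ∑ u ∈ T, io (y.1 s(v, u)) := by
  have h1 := (x.2.2 v).trans (y.2.2 v).symm
  rw [← sum_add_sum_compl T, ← sum_add_sum_compl T (fun u => io (y.1 s(v, u))),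
    sum_congr (s₁ := Tᶜ) rfl fun u hu => by rw [h u (mem_compl.1 hu)]] at h1
  exact add_right_cancel h1

theorem comm_disj {E E' : Sym2 V → Prop} (h : ∀ e, E e → ¬E' e) (F : Cfg d → ℝ) :
    P (Ag d E) (P (Ag d E') F) = P (Ag d E') (P (Ag d E) F) := by
  classical
  ext x
  refine P_comm_on (fun _ => True) (fun _ _ _ _ => trivial) (fun _ _ _ _ => trivial)
    (fun x y z _ a b => ?_) (fun x y _ a b => Subtype.ext (funext fun e => ?_)) F trivial
  · refine ⟨⟨fun e => if E e then y.1 e else z.1 e, fun v => ?_, fun v => ?_⟩, fun e he => ?_,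
      fun e he => ?_⟩
    · simp [y.2.1, z.2.1]
    · have : ∀ e, io (if E e then y.1 e else z.1 e) = io (y.1 e) + io (z.1 e) - io (x.1 e) :=
        fun e => by
          by_cases he : E e
          · simp [he, b e (h e he)]
          · simp [he, a e he]
      simp only [this, sum_sub_distrib, sum_add_distrib, x.2.2, y.2.2, z.2.2]; ring
    · by_cases h' : E e
      · simp [h']
      · simp [h', ← a e h', b e he]
    · simp [he]
  · by_cases he : E e
    · exact b e (h e he)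
    · exact a e he

/-- the edges resampled by the pair move -/
def Ee (i j : V) (e : Sym2 V) : Prop := (i ∈ e ∨ j ∈ e) ∧ e ≠ s(i, j)

theorem Ee_comm (i j : V) : Ee i j = Ee j i := by
  ext e; simp only [Ee, or_comm, Sym2.eq_swap (a := i)]

theorem colsum {i j c : V} (hij : i ≠ j) (hi : c ≠ i) (hj : c ≠ j) {x y : Cfg d}
    (h : Ag d (Ee i j) x y) :
    io (x.1 s(i, c)) + io (x.1 s(j, c)) = io (y.1 s(i, c)) + io (y.1 s(j, c)) := by
  have := sum_eq_of_off x y c {i, j} fun u hu => h _ (by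
    simp only [mem_insert, mem_singleton, not_or] at hu
    simp [Ee, hi.symm, hj.symm, Ne.symm hu.1, Ne.symm hu.2])
  rwa [sum_pair hij, sum_pair hij, Sym2.eq_swap (a := c), Sym2.eq_swap (a := c) (b := j)] at this

/-- four distinct vertices -/
structure Dist (i j k l : V) : Prop where
  ij : i ≠ j
  ik : i ≠ k
  il : i ≠ l
  jk : j ≠ k
  jl : j ≠ l
  kl : k ≠ l

omit [Fintype V] [DecidableEq V] in
theorem Dist.symm {i j k l : V} (h : Dist i j k l) : Dist k l i j :=
  ⟨h.kl, h.ik.symm, h.jk.symm, h.il.symm, h.jl.symm, h.ij⟩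

/-- the block of four edges -/
def Blk (i j k l : V) (e : Sym2 V) : Prop :=
  e = s(i, k) ∨ e = s(i, l) ∨ e = s(j, k) ∨ e = s(j, l)

instance (i j k l : V) : DecidablePred (Blk i j k l) := fun e => by unfold Blk; infer_instance

theorem Blk_symm (i j k l : V) : Blk i j k l = Blk k l i j := by
  ext e; simp only [Blk, Sym2.eq_swap (a := k), Sym2.eq_swap (a := l)]; tauto

/-- alternating pattern -/
def alt (i j k l : V) (e : Sym2 V) : ℤ :=
  (if e = s(i, k) then 1 else 0) - (if e = s(i, l) then 1 else 0) -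
    (if e = s(j, k) then 1 else 0) + (if e = s(j, l) then 1 else 0)

theorem sum_edge {a b : V} (h : a ≠ b) (v : V) : ∑ u, (if s(v, u) = s(a, b) then (1 : ℤ) else 0) =
    (if v = a then 1 else 0) + (if v = b then 1 else 0) := by
  by_cases h1 : v = a
  · subst h1; simp [h, Sym2.congr_right]
  by_cases h2 : v = b
  · subst h2; simp [h1]
  · simp [h1, h2]

theorem mk_cfg {i j k l : V} (h : Dist i j k l) (x y z : Cfg d) (w : Sym2 V → Bool) (t : ℤ)
    (hw : ∀ e, io (w e) = io (y.1 e) + io (z.1 e) - io (x.1 e) + t * alt i j k l e) :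
    (∀ v, w s(v, v) = false) ∧ ∀ v, ∑ u, io (w s(v, u)) = d v := by
  constructor
  · intro v
    have := hw s(v, v)
    have e : ∀ {a b : V}, a ≠ b → s(v, v) ≠ s(a, b) := fun hab he => by
      rcases Sym2.eq_iff.1 he with ⟨rfl, rfl⟩ | ⟨rfl, rfl⟩ <;> exact hab rfl
    simpa [x.2.1, y.2.1, z.2.1, alt, e h.ik, e h.il, e h.jk, e h.jl, io] using this
  · intro v
    simp only [hw, alt, sum_add_distrib, sum_sub_distrib, ← mul_sum, x.2.2, y.2.2, z.2.2,
      sum_edge h.ik, sum_edge h.il, sum_edge h.jk, sum_edge h.jl]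
    ring

/-- the block is in a switchable state -/
def Dg (i j k l : V) (x : Cfg d) : Prop :=
  x.1 s(i, k) = x.1 s(j, l) ∧ x.1 s(i, l) = x.1 s(j, k) ∧ x.1 s(i, k) ≠ x.1 s(i, l)

theorem Dg_symm (i j k l : V) : Dg (d := d) i j k l = Dg k l i j := by
  ext x; simp only [Dg, Sym2.eq_swap (a := k), Sym2.eq_swap (a := l)]
  cases x.1 s(i, k) <;> cases x.1 s(i, l) <;> cases x.1 s(j, k) <;> cases x.1 s(j, l) <;> simp

theorem Dist.ne {i j k l : V} (h : Dist i j k l) : s(i, k) ≠ s(i, l) ∧ s(i, k) ≠ s(j, k) ∧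
    s(i, k) ≠ s(j, l) ∧ s(i, l) ≠ s(j, k) ∧ s(i, l) ≠ s(j, l) ∧ s(j, k) ≠ s(j, l) := by
  simp [h.ij, h.ik, h.il, h.jk, h.jl, h.kl]

theorem alt_cases {i j k l : V} (h : Dist i j k l) : alt i j k l s(i, k) = 1 ∧
    alt i j k l s(i, l) = -1 ∧ alt i j k l s(j, k) = -1 ∧ alt i j k l s(j, l) = 1 ∧
    ∀ e, ¬Blk i j k l e → alt i j k l e = 0 := by
  obtain ⟨a1, a2, a3, a4, a5, a6⟩ := h.ne
  refine ⟨?_, ?_, ?_, ?_, fun e he => ?_⟩
  · simp only [alt, if_neg a1, if_neg a2, if_neg a3]; simp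
  · simp only [alt, if_neg a1.symm, if_neg a4, if_neg a5]; simp
  · simp only [alt, if_neg a2.symm, if_neg a4.symm, if_neg a6]; simp
  · simp only [alt, if_neg a3.symm, if_neg a5.symm, if_neg a6.symm]; simp
  · simp only [Blk, not_or] at he
    simp only [alt, if_neg he.1, if_neg he.2.1, if_neg he.2.2.1, if_neg he.2.2.2]; simp

open Classical in
/-- the switch -/
def tau (i j k l : V) (x : Cfg d) : Cfg d :=
  if h : Dist i j k l ∧ Dg i j k l x then
    ⟨fun e => if Blk i j k l e then !x.1 e else x.1 e,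
      mk_cfg h.1 x x x (fun e => if Blk i j k l e then !x.1 e else x.1 e)
        (1 - 2 * io (x.1 s(i, k))) fun e => by
        obtain ⟨b1, b2, b3, b4, b5⟩ := alt_cases h.1
        obtain ⟨c1, c2, c3⟩ := h.2
        by_cases he : Blk i j k l e
        · simp only [if_pos he]
          rcases he with rfl | rfl | rfl | rfl <;> simp only [b1, b2, b3, b4] <;>
            revert c1 c2 c3 <;> cases x.1 s(i, k) <;> cases x.1 s(i, l) <;> cases x.1 s(j, k) <;>
            cases x.1 s(j, l) <;> simp [io]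
        · simp [he, b5 e he]⟩
  else x

theorem tau_pos {i j k l : V} (h : Dist i j k l) {x : Cfg d} (hx : Dg i j k l x) (e : Sym2 V) :
    (tau i j k l x).1 e = if Blk i j k l e then !x.1 e else x.1 e := by
  rw [tau, dif_pos ⟨h, hx⟩]

theorem tau_neg {i j k l : V} {x : Cfg d} (hx : ¬Dg i j k l x) : tau i j k l x = x := by
  rw [tau, dif_neg fun h => hx h.2]

theorem tau_off {i j k l : V} (h : Dist i j k l) (x : Cfg d) {e : Sym2 V} (he : ¬Blk i j k l e) :
    (tau i j k l x).1 e = x.1 e := by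
  by_cases hx : Dg i j k l x
  · rw [tau_pos h hx, if_neg he]
  · rw [tau_neg hx]

theorem tau_symm {i j k l : V} (h : Dist i j k l) : tau (d := d) i j k l = tau k l i j := by
  ext x e
  by_cases hx : Dg i j k l x
  · rw [tau_pos h hx, tau_pos h.symm (Dg_symm i j k l ▸ hx)]
    simp only [Blk_symm i j k l]
  · rw [tau_neg hx, tau_neg (Dg_symm i j k l ▸ hx)]

theorem Dg_tau {i j k l : V} (h : Dist i j k l) {x : Cfg d} (hx : Dg i j k l x) :
    Dg i j k l (tau i j k l x) := by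
  simp only [Dg, tau_pos h hx, Blk, true_or, or_true, if_true]
  simpa [Dg] using hx

theorem tau_invol {i j k l : V} (h : Dist i j k l) :
    Function.Involutive (tau (d := d) i j k l) := fun x => by
  by_cases hx : Dg i j k l x
  · ext e
    rw [tau_pos h (Dg_tau h hx), tau_pos h hx]
    split_ifs <;> simp
  · rw [tau_neg hx, tau_neg hx]

theorem Blk_Ee {i j k l : V} (h : Dist i j k l) {e : Sym2 V} (he : Blk i j k l e) : Ee i j e := by
  rcases he with rfl | rfl | rfl | rfl <;>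
    simp [Ee, h.ij.symm, h.ik.symm, h.il.symm, h.jk.symm, h.jl.symm]

theorem Ee_Blk {i j k l : V} (h : Dist i j k l) {e : Sym2 V} (h1 : Ee i j e) (h2 : Ee k l e) :
    Blk i j k l e := by
  have key : ∀ {a b : V}, a ≠ b → a ∈ e → b ∈ e → e = s(a, b) := fun hab ha hb =>
    (Sym2.mem_and_mem_iff hab).1 ⟨ha, hb⟩
  rcases h1.1 with a | a <;> rcases h2.1 with b | b
  · exact Or.inl (key h.ik a b)
  · exact Or.inr (Or.inl (key h.il a b))
  · exact Or.inr (Or.inr (Or.inl (key h.jk a b)))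
  · exact Or.inr (Or.inr (Or.inr (key h.jl a b)))

theorem tau_Ee {i j k l : V} (h : Dist i j k l) (x : Cfg d) :
    Ag d (Ee i j) x (tau i j k l x) := fun e he => (tau_off h x fun hb => he (Blk_Ee h hb)).symm

/-- pair move with the block frozen -/
def Ub (d : V → ℤ) (i j k l : V) : Setoid (Cfg d) := Ag d fun e => Ee i j e ∧ ¬Blk i j k l e

theorem Ub_blk {i j k l : V} {x y : Cfg d} (h : Ub d i j k l x y) {e : Sym2 V}
    (he : Blk i j k l e) : x.1 e = y.1 e := h e fun h' => h'.2 he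

theorem Ub_Dg {i j k l : V} {x y : Cfg d} (h : Ub d i j k l x y) :
    Dg i j k l x ↔ Dg i j k l y := by
  simp only [Dg, Ub_blk h (Or.inl rfl), Ub_blk h (Or.inr (Or.inl rfl)),
    Ub_blk h (Or.inr (Or.inr (Or.inl rfl))), Ub_blk h (Or.inr (Or.inr (Or.inr rfl)))]

theorem Ub_tau {i j k l : V} (h : Dist i j k l) {x y : Cfg d} (hxy : Ub d i j k l x y) :
    Ub d i j k l (tau i j k l x) (tau i j k l y) := fun e he => by
  by_cases hx : Dg i j k l x
  · rw [tau_pos h hx, tau_pos h ((Ub_Dg hxy).1 hx), hxy e he]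
  · rw [tau_neg hx, tau_neg fun h' => hx ((Ub_Dg hxy).2 h'), hxy e he]

theorem Ub_of {i j k l : V} {x y : Cfg d} (h : Ag d (Ee i j) x y)
    (h1 : x.1 s(i, k) = y.1 s(i, k)) (h2 : x.1 s(i, l) = y.1 s(i, l))
    (h3 : x.1 s(j, k) = y.1 s(j, k)) (h4 : x.1 s(j, l) = y.1 s(j, l)) : Ub d i j k l x y :=
  fun e he => by
    by_cases hb : Blk i j k l e
    · rcases hb with rfl | rfl | rfl | rfl <;> assumption
    · exact h e fun h' => he ⟨h', hb⟩

/-- odd block -/
def Od (i j k l : V) (x : Cfg d) : Prop :=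
  (x.1 s(i, k) ^^ x.1 s(i, l) ^^ x.1 s(j, k) ^^ x.1 s(j, l)) = true

theorem odd_fill : ∀ x1 x2 x3 x4 y1 y2 y3 y4 z1 z2 z3 z4 : Bool, (x1 ^^ x2 ^^ x3 ^^ x4) = true →
    io x1 + io x3 = io y1 + io y3 → io x2 + io x4 = io y2 + io y4 →
    io x1 + io x2 = io z1 + io z2 → io x3 + io x4 = io z3 + io z4 →
    ∃ b1 b2 b3 b4 : Bool, ∃ t : ℤ, io b1 = io y1 + io z1 - io x1 + t * 1 ∧
      io b2 = io y2 + io z2 - io x2 + t * -1 ∧ io b3 = io y3 + io z3 - io x3 + t * -1 ∧
      io b4 = io y4 + io z4 - io x4 + t * 1 := by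
  intro x1 x2 x3 x4 y1 y2 y3 y4 z1 z2 z3 z4 h0 h1 h2 h3 h4
  refine ⟨(x1 && x2 || x3 && x4) ^^ ((y1 ^^ y2) && (z1 ^^ z3)),
    (x1 && x2 || x3 && x4) ^^ ((y1 ^^ y2) && (z2 ^^ z4)),
    (x1 && x2 || x3 && x4) ^^ ((y3 ^^ y4) && (z1 ^^ z3)),
    (x1 && x2 || x3 && x4) ^^ ((y3 ^^ y4) && (z2 ^^ z4)),
    io ((x1 && x2 || x3 && x4) ^^ ((y1 ^^ y2) && (z1 ^^ z3))) - io y1 - io z1 + io x1, ?_⟩
  revert x1 x2 x3 x4 y1 y2 y3 y4 z1 z2 z3 z4
  decide +kernel

theorem disj_cfg {i j k l : V} (h : Dist i j k l) (F : Cfg d → ℝ) :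
    ∑ x, ((F x - F (tau i j k l x)) / 2) ^ 2 -
      (∑ x, ind (Dg i j k l) x *
          (P (Ub d i j k l) (symm (tau i j k l) F) x - P (Ag d (Ee i j)) F x) ^ 2 +
        ∑ x, ind (Dg k l i j) x *
          (P (Ub d k l i j) (symm (tau k l i j) F) x - P (Ag d (Ee k l)) F x) ^ 2) / 2 ≤
      ip (hb (Ag d (Ee i j)) F) (hb (Ag d (Ee k l)) F) := by
  classical
  have ck : ∀ {x y : Cfg d}, Ag d (Ee i j) x y → _ := fun a => colsum h.ij h.ik.symm h.jk.symm a
  have cl : ∀ {x y : Cfg d}, Ag d (Ee i j) x y → _ := fun a => colsum h.ij h.il.symm h.jl.symm a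
  have ri : ∀ {x y : Cfg d}, Ag d (Ee k l) x y →
      io (x.1 s(i, k)) + io (x.1 s(i, l)) = io (y.1 s(i, k)) + io (y.1 s(i, l)) := fun a => by
    simpa only [Sym2.eq_swap (b := i)] using colsum h.kl h.ik h.il a
  have rj : ∀ {x y : Cfg d}, Ag d (Ee k l) x y →
      io (x.1 s(j, k)) + io (x.1 s(j, l)) = io (y.1 s(j, k)) + io (y.1 s(j, l)) := fun a => by
    simpa only [Sym2.eq_swap (b := j)] using colsum h.kl h.jk h.jl a
  have Oe : ∀ x y : Cfg d, Od i j k l x → Ag d (Ee i j) x y → Od i j k l y := fun x y a b => by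
    have := ck b; have := cl b
    unfold Od at *
    generalize x.1 s(i, k) = x1, x.1 s(i, l) = x2, x.1 s(j, k) = x3, x.1 s(j, l) = x4,
      y.1 s(i, k) = y1, y.1 s(i, l) = y2, y.1 s(j, k) = y3, y.1 s(j, l) = y4 at *
    revert x1 x2 x3 x4 y1 y2 y3 y4; decide
  have Of : ∀ x y : Cfg d, Od i j k l x → Ag d (Ee k l) x y → Od i j k l y := fun x y a b => by
    have := ri b; have := rj b
    unfold Od at *
    generalize x.1 s(i, k) = x1, x.1 s(i, l) = x2, x.1 s(j, k) = x3, x.1 s(j, l) = x4,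
      y.1 s(i, k) = y1, y.1 s(i, l) = y2, y.1 s(j, k) = y3, y.1 s(j, l) = y4 at *
    revert x1 x2 x3 x4 y1 y2 y3 y4; decide
  rw [← tau_symm h, ← Dg_symm i j k l]
  refine disj_abs (Ag d (Ee i j)) (Ag d (Ee k l)) (Ub d i j k l) (Ub d k l i j) (tau i j k l)
    (Dg i j k l) (Od i j k l) (fun x y a e he => a e fun h' => he h'.1)
    (fun x y a e he => a e fun h' => he h'.1)
    (comm_disj fun e a b => a.2 (Ee_Blk h a.1 b))
    (comm_disj fun e a b => a.2 (Ee_Blk h.symm a.1 b))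
    (comm_disj fun e a b => a.2 (Ee_Blk h a.1 b.1)) (tau_invol h) (tau_Ee h)
    (fun x => tau_symm (d := d) h ▸ tau_Ee h.symm x) (fun x => ?_) (fun x => ?_)
    (fun x y a b => (Ub_Dg b).1 a)
    (fun x y a b => Dg_symm (d := d) k l i j ▸ (Ub_Dg b).1 (Dg_symm (d := d) i j k l ▸ a)) Oe Of
    (fun F x hx => P_comm_on (Od i j k l) Oe Of (fun x y z a b c => ?_) (fun x y a b c => ?_) F hx)
    F
  · have : Dg i j k l x ∨ Od i j k l x ∨ (x.1 s(i, k) = x.1 s(j, k) ∧ x.1 s(i, l) = x.1 s(j, l)) ∨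
        (x.1 s(i, k) = x.1 s(i, l) ∧ x.1 s(j, k) = x.1 s(j, l)) := by
      unfold Dg Od
      cases x.1 s(i, k) <;> cases x.1 s(i, l) <;> cases x.1 s(j, k) <;> cases x.1 s(j, l) <;> simp
    have fr : ∀ a b c e : Bool, a = b → io a + io b = io c + io e → a = c ∧ b = e := by decide
    rcases this with a | a | a | a
    · exact Or.inl a
    · exact Or.inr (Or.inl a)
    · refine Or.inr (Or.inr (Or.inl fun y b => ?_))
      have b1 := fr _ _ _ _ a.1 (ck b)
      have b2 := fr _ _ _ _ a.2 (cl b)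
      exact Ub_of b b1.1 b2.1 b1.2 b2.2
    · refine Or.inr (Or.inr (Or.inr fun y b => ?_))
      have b1 := fr _ _ _ _ a.1 (ri b)
      have b2 := fr _ _ _ _ a.2 (rj b)
      refine Ub_of b ?_ ?_ ?_ ?_ <;> rw [Sym2.eq_swap]
      exacts [b1.1, b2.1, b1.2, b2.2]
  · unfold Dg Od
    cases x.1 s(i, k) <;> cases x.1 s(i, l) <;> cases x.1 s(j, k) <;> cases x.1 s(j, l) <;> simp
  · obtain ⟨b1, b2, b3, b4, t, e1, e2, e3, e4⟩ :=
      odd_fill _ _ _ _ _ _ _ _ _ _ _ _ a (ck b) (cl b) (ri c) (rj c)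
    obtain ⟨a1, a2, a3, a4, a5, a6⟩ := h.ne
    obtain ⟨c1, c2, c3, c4, c5⟩ := alt_cases h
    let w : Sym2 V → Bool := fun e => if e = s(i, k) then b1 else if e = s(i, l) then b2 else
      if e = s(j, k) then b3 else if e = s(j, l) then b4 else if Ee i j e then y.1 e else z.1 e
    have hw : ∀ e, ¬Blk i j k l e → w e = if Ee i j e then y.1 e else z.1 e := fun e he => by
      simp only [Blk, not_or] at he
      simp only [w, if_neg he.1, if_neg he.2.1, if_neg he.2.2.1, if_neg he.2.2.2]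
    refine ⟨⟨w, mk_cfg h x y z w t fun e => ?_⟩, fun e he => ?_, fun e he => ?_⟩
    · by_cases he : Blk i j k l e
      · rcases he with rfl | rfl | rfl | rfl
        · rw [c1, ← e1]; simp only [w, if_true]
        · rw [c2, ← e2]; simp only [w, if_neg a1.symm, if_true]
        · rw [c3, ← e3]; simp only [w, if_neg a2.symm, if_neg a4.symm, if_true]
        · rw [c4, ← e4]; simp only [w, if_neg a3.symm, if_neg a5.symm, if_neg a6.symm, if_true]
      · rw [hw e he, c5 e he]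
        by_cases h' : Ee i j e
        · simp [h', c e fun h'' => he (Ee_Blk h h' h'')]
        · simp [h', b e h']
    · change _ = w e
      rw [hw e fun h' => he (Blk_Ee h.symm (Blk_symm i j k l ▸ h'))]
      by_cases h' : Ee i j e
      · simp [h']
      · simp [h', ← b e h', c e he]
    · change _ = w e
      rw [hw e fun h' => he (Blk_Ee h h'), if_neg he]
  · ext e
    by_cases he : Blk i j k l e
    · have := ck b; have := cl b; have := ri c; have := rj c
      have : x.1 s(i, k) = y.1 s(i, k) ∧ x.1 s(i, l) = y.1 s(i, l) ∧ x.1 s(j, k) = y.1 s(j, k) ∧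
          x.1 s(j, l) = y.1 s(j, l) := by
        unfold Od at *
        generalize x.1 s(i, k) = x1, x.1 s(i, l) = x2, x.1 s(j, k) = x3, x.1 s(j, l) = x4,
          y.1 s(i, k) = y1, y.1 s(i, l) = y2, y.1 s(j, k) = y3, y.1 s(j, l) = y4 at *
        revert x1 x2 x3 x4 y1 y2 y3 y4; decide
      rcases he with rfl | rfl | rfl | rfl <;> simp [this]
    · by_cases h' : Ee i j e
      · rw [c e fun h'' => he (Ee_Blk h h' h'')]
      · rw [b e h']

end Vale.Agent.P335
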