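import Vale.Agent.P335.Cfg

open Finset

noncomputable section

namespace Vale.Agent.P335

variable {V : Type*} [Fintype V] [DecidableEq V] {d : V → ℤ}

/-- differing columns -/
def Del (i j : V) (x : Cfg d) : Finset V :=
  univ.filter fun c => c ≠ i ∧ c ≠ j ∧ x.1 s(i, c) ≠ x.1 s(j, c)

/-- coordinates -/
def yy (i : V) (c : V) (x : Cfg d) : ℝ := (io (x.1 s(i, c)) : ℝ)

theorem col_cases {i j c : V} (hij : i ≠ j) (hi : c ≠ i) (hj : c ≠ j) {x y : Cfg d}
    (h : Ag d (Ee i j) x y) : (x.1 s(i, c) ≠ x.1 s(j, c) → y.1 s(j, c) = !y.1 s(i, c)) ∧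
    (x.1 s(i, c) = x.1 s(j, c) → y.1 s(i, c) = x.1 s(i, c) ∧ y.1 s(j, c) = x.1 s(i, c)) := by
  have := colsum hij hi hj h
  generalize x.1 s(i, c) = a, x.1 s(j, c) = b, y.1 s(i, c) = e, y.1 s(j, c) = f at *
  revert a b e f; decide

theorem dist_of {i j k l : V} (hij : i ≠ j) {x : Cfg d} (hk : k ∈ Del i j x) (hl : l ∈ Del i j x)
    (hkl : k ≠ l) : Dist i j k l := by
  simp only [Del, mem_filter, mem_univ, true_and] at hk hl
  exact ⟨hij, hk.1.symm, hl.1.symm, hk.2.1.symm, hl.2.1.symm, hkl⟩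

theorem Dg_iff {i j k l : V} (hij : i ≠ j) {x0 x : Cfg d} (hk : k ∈ Del i j x0)
    (hl : l ∈ Del i j x0) (hx : Ag d (Ee i j) x0 x) :
    Dg i j k l x ↔ x.1 s(i, k) ≠ x.1 s(i, l) := by
  simp only [Del, mem_filter, mem_univ, true_and] at hk hl
  simp only [Dg, (col_cases hij hk.1 hk.2.1 hx).1 hk.2.2, (col_cases hij hl.1 hl.2.1 hx).1 hl.2.2]
  cases x.1 s(i, k) <;> cases x.1 s(i, l) <;> simp

theorem off_Del {i j : V} (hij : i ≠ j) {x0 x : Cfg d} (hx : Ag d (Ee i j) x0 x) {u : V}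
    (hu : u ∉ Del i j x0) : x.1 s(i, u) = x0.1 s(i, u) := by
  by_cases h1 : u = i
  · rw [h1, x.2.1, x0.2.1]
  by_cases h2 : u = j
  · rw [h2, hx _ fun h => h.2 rfl]
  simp only [Del, mem_filter, mem_univ, true_and, not_and, not_not] at hu
  exact ((col_cases hij h1 h2 hx).2 (hu h1 h2)).1

theorem jh {i j : V} (hij : i ≠ j) (x0 : Cfg d) : JH (cls (Ag d (Ee i j)) x0) (Del i j x0) (yy i)
    (tau i j) (∑ k ∈ Del i j x0, yy i k x0) := by
  refine ⟨fun k _ x _ => ?_, fun k hk l hl e x hx => ?_,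
    fun k hk l hl e x _ => tau_invol (dist_of hij hk hl e) x, fun k hk l hl e x hx => ?_,
    fun k hk l hl e x hx => ?_, fun k hk l hl e m hm e1 e2 x hx => ?_, fun x hx => ?_⟩
  · unfold yy; cases x.1 s(i, k) <;> simp [io]
  · exact mem_cls.2 ((Ag d (Ee i j)).trans (mem_cls.1 hx) (tau_Ee (dist_of hij hk hl e) x))
  · have := Dg_iff hij hk hl (mem_cls.1 hx)
    unfold yy
    by_cases h : Dg i j k l x
    · rw [tau_pos (dist_of hij hk hl e) h, if_pos (show Blk i j k l _ from Or.inl rfl)]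
      have := this.1 h
      revert this; cases x.1 s(i, k) <;> cases x.1 s(i, l) <;> simp
    · rw [tau_neg h, not_not.1 (this.not.1 h)]
  · have := Dg_iff hij hk hl (mem_cls.1 hx)
    unfold yy
    by_cases h : Dg i j k l x
    · rw [tau_pos (dist_of hij hk hl e) h, if_pos (show Blk i j k l _ from Or.inr (Or.inl rfl))]
      have := this.1 h
      revert this; cases x.1 s(i, k) <;> cases x.1 s(i, l) <;> simp
    · rw [tau_neg h, not_not.1 (this.not.1 h)]
  · unfold yy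
    rw [tau_off (dist_of hij hk hl e)]
    simp only [Del, mem_filter, mem_univ, true_and] at hm hk hl
    simp [Blk, e1, e2, hm.1, hm.2.1, hij, hk.1.symm, hl.1.symm]
  · have := sum_eq_of_off x x0 i (Del i j x0) fun u hu => off_Del hij (mem_cls.1 hx) hu
    unfold yy
    exact_mod_cast this

theorem faithful {i j : V} (hij : i ≠ j) {x0 x x' : Cfg d} (hx : Ag d (Ee i j) x0 x)
    (hx' : Ag d (Ee i j) x0 x') (h : ∀ k ∈ Del i j x0, yy i k x = yy i k x') : x = x' := by
  have h1 : ∀ u, x.1 s(i, u) = x'.1 s(i, u) := fun u => by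
    by_cases hu : u ∈ Del i j x0
    · have := h u hu
      unfold yy at this
      revert this; cases x.1 s(i, u) <;> cases x'.1 s(i, u) <;> simp [io]
    · rw [off_Del hij hx hu, off_Del hij hx' hu]
  have hxx := (Ag d (Ee i j)).trans ((Ag d (Ee i j)).symm hx) hx'
  have h2 : ∀ u, x.1 s(j, u) = x'.1 s(j, u) := fun u => by
    by_cases a : u = i
    · rw [a, Sym2.eq_swap, h1]
    by_cases b : u = j
    · rw [b, x.2.1, x'.2.1]
    have := colsum hij a b hxx
    rw [h1] at this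
    revert this; cases x.1 s(j, u) <;> cases x'.1 s(j, u) <;> simp [io]
  ext e
  by_cases he : Ee i j e
  · rcases he.1 with a | a
    · obtain ⟨u, rfl⟩ := Sym2.mem_iff_exists.1 a; rw [h1]
    · obtain ⟨u, rfl⟩ := Sym2.mem_iff_exists.1 a; rw [h2]
  · rw [hxx e he]

/-- the other vertices -/
def Out (i j : V) : Finset V := (univ.erase i).erase j

theorem Del_sub (i j : V) (x : Cfg d) : Del i j x ⊆ Out i j := fun c hc => by
  simp only [Del, mem_filter, mem_univ, true_and] at hc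
  simp [Out, hc.1, hc.2.1]

/-- switch energy of a pair -/
def swE (i j : V) (F : Cfg d → ℝ) : ℝ :=
  ∑ k ∈ Out i j, ∑ l ∈ (Out i j).erase k, ∑ x, ((F x - F (tau i j k l x)) / 2) ^ 2

theorem sum_pairs_le {K : Type*} [DecidableEq K] {Δ T : Finset K} (h : Δ ⊆ T) (f : K → K → ℝ)
    (hf : ∀ k l, 0 ≤ f k l) : ∑ k ∈ Δ, ∑ l ∈ Δ.erase k, f k l ≤ ∑ k ∈ T, ∑ l ∈ T.erase k, f k l :=
  (sum_le_sum fun k _ => sum_le_sum_of_subset_of_nonneg (erase_subset_erase _ h)
    fun l _ _ => hf k l).trans (sum_le_sum_of_subset_of_nonneg h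
      fun k _ _ => sum_nonneg fun l _ => hf k l)

theorem sum_center {X : Type*} [Fintype X] (R : Setoid X) (F : X → ℝ) (x0 : X) :
    ∑ x ∈ cls R x0, (F x - P R F x0) = 0 := by
  rw [sum_sub_distrib, sum_const, nsmul_eq_mul, P_apply,
    mul_div_cancel₀ _ (card_cls_pos R x0).ne', sub_self]

theorem hb_le_swE {i j : V} (hij : i ≠ j) (F : Cfg d → ℝ) :
    ip (hb (Ag d (Ee i j)) F) (hb (Ag d (Ee i j)) F) ≤ 4 * swE i j F := by
  rw [swE, sum_congr rfl fun k _ => sum_comm, sum_comm, mul_sum]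
  refine sum_le_of_cls (Ag d (Ee i j)) fun x0 => ?_
  have := JH.poincare _ _ _ (jh hij x0)
    (fun x hx x' hx' h => faithful hij (mem_cls.1 hx) (mem_cls.1 hx') h) _
    (sum_center (Ag d (Ee i j)) F x0)
  rw [← mul_sum, sum_comm, sum_congr rfl fun k _ => sum_comm]
  refine le_trans (le_of_eq (sum_congr rfl fun x hx => ?_)) (this.trans ?_)
  · rw [hb_apply, Pi.sub_apply, P_inv F (mem_cls.1 hx), sq]
  · simp only [en, sub_sub_sub_cancel_right]
    exact mul_le_mul_of_nonneg_left (sum_pairs_le (Del_sub i j x0) _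
      fun k l => sum_nonneg fun _ _ => sq_nonneg _) (by norm_num)

theorem P_Ub {i j k l : V} (h : Dist i j k l) (F : Cfg d → ℝ) {x : Cfg d} (hx : Dg i j k l x) :
    P (Ub d i j k l) (symm (tau i j k l) F) x * ∑ y ∈ cls (Ag d (Ee i j)) x, ind (Dg i j k l) y =
      ∑ y ∈ cls (Ag d (Ee i j)) x, F y * ind (Dg i j k l) y := by
  classical
  let R : Setoid (Cfg d) := ⟨fun x y => Ag d (Ee i j) x y ∧ (Dg i j k l x ↔ Dg i j k l y),
    fun x => ⟨(Ag d (Ee i j)).refl x, Iff.rfl⟩, fun a => ⟨(Ag d (Ee i j)).symm a.1, a.2.symm⟩,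
    fun a b => ⟨(Ag d (Ee i j)).trans a.1 b.1, a.2.trans b.2⟩⟩
  have hR : ∀ x y, R x y ↔ Ag d (Ee i j) x y ∧ (Dg i j k l x ↔ Dg i j k l y) := fun _ _ => Iff.rfl
  have fine : ∀ x y, Ub d i j k l x y → R x y := fun x y a =>
    ⟨fun e he => a e fun h' => he h'.1, Ub_Dg a⟩
  have Rτ : ∀ x, R x (tau i j k l x) := fun x => ⟨tau_Ee h x, by
    by_cases hx : Dg i j k l x
    · exact iff_of_true hx (Dg_tau h hx)
    · rw [tau_neg hx]⟩
  set S := symm (tau i j k l) F with hS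
  have Sτ : S ∘ tau i j k l = S := by
    ext y; simp [hS, symm, tau_invol h y, add_comm]
  have G1 : P (Ub d i j k l) S (tau i j k l x) = P (Ub d i j k l) S x := by
    have := P_comp (R := Ub d i j k l) (tau_invol h) (fun _ _ a => Ub_tau h a) S
    rw [Sτ] at this
    exact (congrFun this x).symm
  have G2 : P R (P (Ub d i j k l) S) x = P (Ub d i j k l) S x := P_const fun y hy => by
    have hy' := hy.2.1 hx
    by_cases e : x.1 s(i, k) = y.1 s(i, k)
    · refine (P_inv S (Ub_of hy.1 e ?_ ?_ ?_)).symm <;> unfold Dg at hx hy' <;>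
      revert e hx hy' <;>
      generalize x.1 s(i, k) = x1, x.1 s(i, l) = x2, x.1 s(j, k) = x3, x.1 s(j, l) = x4,
        y.1 s(i, k) = y1, y.1 s(i, l) = y2, y.1 s(j, k) = y3, y.1 s(j, l) = y4 <;>
      revert x1 x2 x3 x4 y1 y2 y3 y4 <;> decide
    · rw [← G1]
      refine (P_inv S (Ub_of ((Ag d (Ee i j)).trans ((Ag d (Ee i j)).symm (tau_Ee h x)) hy.1)
        ?_ ?_ ?_ ?_)).symm <;> rw [tau_pos h hx] <;>
      simp only [Blk, true_or, or_true, if_true] <;> unfold Dg at hx hy' <;>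
      revert e hx hy' <;>
      generalize x.1 s(i, k) = x1, x.1 s(i, l) = x2, x.1 s(j, k) = x3, x.1 s(j, l) = x4,
        y.1 s(i, k) = y1, y.1 s(i, l) = y2, y.1 s(j, k) = y3, y.1 s(j, l) = y4 <;>
      revert x1 x2 x3 x4 y1 y2 y3 y4 <;> decide
  have G3 : P R S = P R F := by
    rw [hS, symm, map_smul, map_add, P_comp_self (tau_invol h) Rτ]
    ext y; simp; ring
  have c : cls R x = (cls (Ag d (Ee i j)) x).filter (Dg i j k l) := by
    ext y; simp [mem_cls, hR, hx]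
  rw [← G2, P_P_coarse fine, G3, P_apply, c, card_filter, sum_filter]
  have p := card_cls_pos R x
  rw [c, card_filter] at p
  push_cast at p ⊢
  simp only [ind]
  rw [div_mul_cancel₀ _ p.ne']
  exact sum_congr rfl fun y _ => by split_ifs <;> simp

theorem err_le_swE {i j : V} (hij : i ≠ j) (F : Cfg d → ℝ) :
    ∑ k ∈ Out i j, ∑ l ∈ (Out i j).erase k, ∑ x, ind (Dg i j k l) x *
      (P (Ub d i j k l) (symm (tau i j k l) F) x - P (Ag d (Ee i j)) F x) ^ 2 ≤ swE i j F := by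
  rw [swE, sum_congr rfl fun k _ => sum_comm, sum_comm,
    sum_congr (s₁ := Out i j) rfl fun k _ => sum_comm, sum_comm (s := Out i j)]
  refine sum_le_of_cls (Ag d (Ee i j)) fun x0 => ?_
  set Φ := cls (Ag d (Ee i j)) x0 with hΦ
  set m := P (Ag d (Ee i j)) F x0 with hm
  have yD : ∀ k ∈ Del i j x0, ∀ l ∈ Del i j x0, ∀ x ∈ Φ,
      (yy i k x - yy i l x) ^ 2 = ind (Dg i j k l) x := fun k hk l hl x hx => by
    simp only [ind, Dg_iff hij hk hl (mem_cls.1 hx), yy]
    cases x.1 s(i, k) <;> cases x.1 s(i, l) <;> simp [io]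
  let c : V → V → ℝ := fun k l =>
    (∑ x ∈ Φ, (F x - m) * ind (Dg i j k l) x) / ∑ x ∈ Φ, ind (Dg i j k l) x
  have i0 : ∀ k l x, 0 ≤ ind (Dg (d := d) i j k l) x := fun k l x => by
    unfold ind; split_ifs <;> norm_num
  have := (jh hij x0).level (sum_center (Ag d (Ee i j)) F x0) c (fun k hk l hl hkl => by
    rw [sum_congr rfl (yD k hk l hl), sum_congr (f := fun x => (F x - m) * (yy i k x - yy i l x) ^ 2)
      rfl fun x hx => by rw [yD k hk l hl x hx]]
    by_cases h0 : ∑ x ∈ Φ, ind (Dg i j k l) x = 0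
    · rw [h0, mul_zero, sum_eq_zero]
      intro x hx
      rw [(sum_eq_zero_iff_of_nonneg fun x _ => i0 k l x).1 h0 x hx, mul_zero]
    · exact div_mul_cancel₀ _ h0)
  rw [sum_comm, sum_congr rfl fun k _ => sum_comm, sum_comm (s := Φ),
    sum_congr (s₁ := Out i j) rfl fun k _ => sum_comm (s := Φ)]
  simp only [en, sub_sub_sub_cancel_right] at this
  refine le_trans ?_ (this.trans (sum_pairs_le (Del_sub i j x0) _
    fun k l => sum_nonneg fun _ _ => sq_nonneg _))
  have z : ∀ k ∈ Out i j, ∀ l ∈ Out i j, (k ∉ Del i j x0 ∨ l ∉ Del i j x0) → ∀ x ∈ Φ,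
      ind (Dg i j k l) x = 0 := fun k hk l hl h x hx => by
    simp only [Out, mem_erase, mem_univ, and_true] at hk hl
    simp only [Del, mem_filter, mem_univ, true_and, not_and, not_not] at h
    refine if_neg fun hD => ?_
    rcases h with h | h
    · have := (col_cases hij hk.2 hk.1 (mem_cls.1 hx)).2 (h hk.2 hk.1)
      exact hD.2.2 (by rw [hD.2.1, this.1, this.2])
    · have := (col_cases hij hl.2 hl.1 (mem_cls.1 hx)).2 (h hl.2 hl.1)
      exact hD.2.2 (by rw [hD.1, this.1, this.2])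
  rw [← sum_subset (Del_sub i j x0) fun k hk hk' => sum_eq_zero fun l hl => sum_eq_zero
    fun x hx => by rw [z k hk l (mem_erase.1 hl).2 (Or.inl hk') x hx, zero_mul]]
  refine sum_le_sum fun k hk => ?_
  rw [← sum_subset (erase_subset_erase k (Del_sub i j x0)) fun l hl hl' => sum_eq_zero
    fun x hx => by
      rw [z k (Del_sub i j x0 hk) l (mem_erase.1 hl).2
        (Or.inr fun h => hl' (mem_erase.2 ⟨(mem_erase.1 hl).1, h⟩)) x hx, zero_mul]]
  refine sum_le_sum fun l hl => le_of_eq ?_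
  obtain ⟨hlk, hl⟩ := mem_erase.1 hl
  rw [sum_congr rfl (yD k hk l hl), mul_sum]
  refine sum_congr rfl fun x hx => ?_
  by_cases hD : Dg i j k l x
  · have a1 := P_Ub (dist_of hij hk hl hlk.symm) F hD
    rw [← cls_eq (mem_cls.1 hx)] at a1
    have a2 : ∑ x ∈ Φ, ind (Dg i j k l) x ≠ 0 := fun h0 => by
      have := (sum_eq_zero_iff_of_nonneg fun x _ => i0 k l x).1 h0 x hx
      simp [ind, hD] at this
    rw [mul_comm, ← P_inv F (mem_cls.1 hx)]
    congr 2
    simp only [c, sub_mul, sum_sub_distrib, ← mul_sum]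
    rw [← a1, ← hΦ, ← hm]; field_simp
  · simp [ind, hD]

end Vale.Agent.P335
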