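import Vale.Agent.P335.Cfg

open Finset

noncomputable section

namespace Vale.Agent.P335

variable {V : Type*} [Fintype V] [DecidableEq V] {d : V → ℤ}

/-- columns: outside vertices and the inner triangle -/
abbrev Col (t : Fin 3 → V) := Option {w : V // ∀ r, t r ≠ w}

/-- the edge coding an entry -/
def ed (t : Fin 3 → V) : Col t → Fin 3 → Sym2 V
  | some w, r => s(t r, w.1)
  | none, r => s(t (r + 1), t (r + 2))

/-- the entry -/
def bit (t : Fin 3 → V) (x : Sym2 V → Bool) (c : Col t) (r : Fin 3) : Bool :=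
  c.isNone ^^ x (ed t c r)

variable {t : Fin 3 → V}

theorem mem_ed (ht : Function.Injective t) (c : Col t) (r s : Fin 3) :
    t s ∈ ed t c r ↔ (if c.isNone then s ≠ r else s = r) := by
  cases c with
  | none =>
    simp only [ed, Sym2.mem_iff, ht.eq_iff, Option.isNone_none, if_true]
    revert r s; decide
  | some w => simp [ed, ht.eq_iff, w.2 s]

theorem ed_inj (ht : Function.Injective t) {c c' : Col t} {r r' : Fin 3}
    (h : ed t c r = ed t c' r') : c = c' ∧ r = r' := by
  have h1 : ∀ s, (if c.isNone then s ≠ r else s = r) ↔ (if c'.isNone then s ≠ r' else s = r') :=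
    fun s => by rw [← mem_ed ht, ← mem_ed ht, h]
  cases c with
  | none =>
    cases c' with
    | none => exact ⟨rfl, by simpa using (h1 r)⟩
    | some w =>
      exfalso
      simp only [Option.isNone_none, Option.isNone_some, if_true, Bool.false_eq_true,
        if_false] at h1
      clear h; revert r r'; decide
  | some w =>
    cases c' with
    | none =>
      exfalso
      simp only [Option.isNone_none, Option.isNone_some, if_true, Bool.false_eq_true,
        if_false] at h1
      clear h; revert r r'; decide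
    | some w' =>
      have : r = r' := by simpa using (h1 r)
      subst this
      simp only [ed, Sym2.congr_right] at h
      exact ⟨congrArg some (Subtype.ext h), rfl⟩

theorem ed_surj (ht : Function.Injective t) {e : Sym2 V} (h : ∃ r, t r ∈ e) (hd : ¬e.IsDiag) :
    ∃ c r, e = ed t c r := by
  obtain ⟨r, hr⟩ := h
  obtain ⟨u, rfl⟩ := Sym2.mem_iff_exists.1 hr
  by_cases hu : ∀ s, t s ≠ u
  · exact ⟨some ⟨u, hu⟩, r, rfl⟩
  push Not at hu
  obtain ⟨s, rfl⟩ := hu
  have hne : r ≠ s := fun h => hd (by simp [h])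
  have : ∀ r s : Fin 3, r ≠ s → ∃ q, (r = q + 1 ∧ s = q + 2) ∨ (s = q + 1 ∧ r = q + 2) := by decide
  obtain ⟨q, ⟨rfl, rfl⟩ | ⟨rfl, rfl⟩⟩ := this r s hne
  · exact ⟨none, q, rfl⟩
  · exact ⟨none, q, Sym2.eq_swap⟩

theorem sum_split (ht : Function.Injective t) (f : V → ℤ) :
    ∑ u, f u = ∑ r, f (t r) + ∑ w : {w : V // ∀ r, t r ≠ w}, f w := by
  rw [← sum_filter_add_sum_filter_not univ (fun w => ∀ r, t r ≠ w), add_comm]
  congr 1
  · rw [← sum_image (g := t) fun a _ b _ h => ht h]
    congr 1; ext w; simp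
  · exact sum_subtype _ (by simp) f

/-- touching the triple -/
def Tt (t : Fin 3 → V) (e : Sym2 V) : Prop := ∃ r, t r ∈ e

/-- column sum -/
def cs (x : Sym2 V → Bool) (c : Col t) : ℤ := ∑ r, io (bit t x c r)
/-- row sum -/
def rs (t : Fin 3 → V) (x : Sym2 V → Bool) (r : Fin 3) : ℤ := ∑ c, io (bit t x c r)

theorem deg_out (ht : Function.Injective t) (x y : Sym2 V → Bool)
    (h : ∀ e, ¬Tt t e → x e = y e) (w : {w : V // ∀ r, t r ≠ w}) :
    ∑ u, io (x s(w.1, u)) - ∑ u, io (y s(w.1, u)) = cs x (some w) - cs y (some w) := by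
  rw [sum_split ht, sum_split ht, sum_congr (s₁ := univ) (f := fun u : {w : V // ∀ r, t r ≠ w} =>
    io (x s(w.1, u.1))) rfl fun u _ => by
      rw [h _ fun ⟨r, hr⟩ => by simp [w.2 r, u.2 r] at hr]]
  simp [cs, bit, ed, Sym2.eq_swap]

theorem deg_in (ht : Function.Injective t) (x : Sym2 V → Bool) (hx : ∀ v, x s(v, v) = false)
    (r : Fin 3) : ∑ u, io (x s(t r, u)) = rs t x r + 2 - cs x (none : Col t) := by
  have n : ∀ b, io (!b) = 1 - io b := by decide
  have z : io false = 0 := rfl
  rw [sum_split ht, rs, cs, Fintype.sum_option]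
  simp only [bit, ed, Option.isNone_none, Option.isNone_some, Bool.true_xor, Bool.false_xor,
    Fin.sum_univ_three, n]
  fin_cases r <;> simp [hx, z, Sym2.eq_swap (a := t 1) (b := t 0), Sym2.eq_swap (a := t 2) (b := t 0),
    Sym2.eq_swap (a := t 2) (b := t 1)] <;> ring

theorem sum_rs (x : Sym2 V → Bool) : ∑ r, rs t x r = ∑ c : Col t, cs x c := sum_comm

theorem margins (ht : Function.Injective t) {x y : Cfg d} (h : Ag d (Tt t) x y) :
    (∀ c : Col t, cs x.1 c = cs y.1 c) ∧ ∀ r, rs t x.1 r = rs t y.1 r := by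
  have h1 : ∀ w, cs (t := t) x.1 (some w) = cs y.1 (some w) := fun w => by
    have := deg_out ht x.1 y.1 h w
    rw [x.2.2, y.2.2] at this; linarith
  have h2 : ∀ r, rs t x.1 r - cs x.1 (none : Col t) = rs t y.1 r - cs y.1 (none : Col t) :=
    fun r => by
      have a := deg_in ht x.1 x.2.1 r
      have b := deg_in ht y.1 y.2.1 r
      rw [x.2.2] at a; rw [y.2.2] at b; linarith
  have h3 : cs x.1 (none : Col t) = cs y.1 (none : Col t) := by
    have a := sum_rs (t := t) x.1
    have b := sum_rs (t := t) y.1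
    rw [Fintype.sum_option, Fin.sum_univ_three] at a b
    simp only [h1] at a
    linarith [h2 0, h2 1, h2 2]
  exact ⟨fun c => by cases c; exacts [h3, h1 _], fun r => by linarith [h2 r]⟩

theorem cfg_of (ht : Function.Injective t) (x : Cfg d) (y : Sym2 V → Bool)
    (hy : ∀ v, y s(v, v) = false) (h : ∀ e, ¬Tt t e → x.1 e = y e)
    (hc : ∀ c : Col t, cs x.1 c = cs y c) (hr : ∀ r, rs t x.1 r = rs t y r) (v : V) :
    ∑ u, io (y s(v, u)) = d v := by
  rw [← x.2.2]
  by_cases hv : ∀ r, t r ≠ v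
  · have := deg_out ht x.1 y h ⟨v, hv⟩
    rw [hc] at this; simp only at this; linarith
  · push Not at hv
    obtain ⟨r, rfl⟩ := hv
    rw [deg_in ht _ hy, deg_in ht _ x.2.1, hc, hr]

/-- nontrivial columns -/
abbrev NC (t : Fin 3 → V) (x : Cfg d) := {c : Col t // cs x.1 c = 1 ∨ cs x.1 c = 2}

/-- type of a column -/
def ty (t : Fin 3 → V) (x : Cfg d) (c : NC t x) : Bool := decide (cs x.1 c.1 = 1)

/-- entry of a marked column -/
def mb (b : Bool) (q r : Fin 3) : Bool := if b then decide (q = r) else decide (q ≠ r)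

theorem sum_mb {C : Type*} [Fintype C] [DecidableEq C] (ε : C → Bool) (ρ : C → Fin 3) (r : Fin 3) :
    ∑ c, io (mb (ε c) (ρ c) r) =
      (cn ε true ρ r : ℤ) - cn ε false ρ r + (univ.filter fun c => ε c = false).card := by
  simp only [cn, card_filter]
  push_cast
  rw [← sum_sub_distrib, ← sum_add_distrib]
  refine sum_congr rfl fun c _ => ?_
  by_cases h : ρ c = r <;> cases ε c <;> simp [mb, io, h]

/-- the row constraints -/
def ccT (t : Fin 3 → V) (x : Cfg d) (r : Fin 3) : ℤ :=
  ∑ c : NC t x, io (bit t x.1 c.1 r) - (univ.filter fun c => ty t x c = false).card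

theorem rs_split (x : Cfg d) (y : Sym2 V → Bool) (hc : ∀ c : Col t, cs x.1 c = cs y c) (r : Fin 3) :
    rs t x.1 r - rs t y r = ∑ c : NC t x, io (bit t x.1 c.1 r) - ∑ c : NC t x, io (bit t y c.1 r) ∧
    ∀ c : Col t, ¬(cs x.1 c = 1 ∨ cs x.1 c = 2) → bit t x.1 c r = bit t y c r := by
  have h : ∀ c : Col t, ¬(cs x.1 c = 1 ∨ cs x.1 c = 2) → bit t x.1 c r = bit t y c r := by
    intro c h
    have := hc c
    unfold cs at this h
    generalize bit t x.1 c = a, bit t y c = b at *
    simp only [Fin.sum_univ_three] at this h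
    revert a b r; decide
  refine ⟨?_, h⟩
  rw [rs, rs, ← sum_sub_distrib, ← sum_sub_distrib, ← sum_subtype
    (univ.filter fun c : Col t => cs x.1 c = 1 ∨ cs x.1 c = 2) (by simp)
    (fun c => io (bit t x.1 c r) - io (bit t y c r)), sum_filter]
  refine sum_congr rfl fun c _ => ?_
  split_ifs with hc
  · rfl
  · rw [h c hc, sub_self]

/-- underlying configuration of a marking -/
def gf (t : Fin 3 → V) (x : Cfg d) (ρ : NC t x → Fin 3) : Sym2 V → Bool :=
  Function.extend (fun p : NC t x × Fin 3 => ed t p.1.1 p.2)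
    (fun p => p.1.1.isNone ^^ mb (ty t x p.1) (ρ p.1) p.2) x.1

theorem gf_bit (ht : Function.Injective t) (x : Cfg d) (ρ : NC t x → Fin 3) (c : NC t x)
    (r : Fin 3) : bit t (gf t x ρ) c.1 r = mb (ty t x c) (ρ c) r := by
  have inj : Function.Injective (fun p : NC t x × Fin 3 => ed t p.1.1 p.2) := fun p q h =>
    Prod.ext (Subtype.ext (ed_inj ht h).1) (ed_inj ht h).2
  have := inj.extend_apply (fun p => p.1.1.isNone ^^ mb (ty t x p.1) (ρ p.1) p.2) x.1 (c, r)
  rw [bit, gf, this]; simp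

theorem gf_off (x : Cfg d) (ρ : NC t x → Fin 3) {e : Sym2 V}
    (h : ¬∃ p : NC t x × Fin 3, ed t p.1.1 p.2 = e) : gf t x ρ e = x.1 e :=
  Function.extend_apply' _ _ _ h

theorem ed_Tt (ht : Function.Injective t) (c : Col t) (r : Fin 3) : Tt t (ed t c r) := by
  cases c with
  | none => exact ⟨r + 1, by simp [ed]⟩
  | some w => exact ⟨r, by simp [ed]⟩

theorem ed_diag (ht : Function.Injective t) (c : Col t) (r : Fin 3) (v : V) :
    ed t c r ≠ s(v, v) := fun h => by
  have : (ed t c r).IsDiag := by rw [h]; simp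
  cases c with
  | none =>
    simp only [ed, Sym2.mk_isDiag_iff, ht.eq_iff] at this
    clear h; revert r; decide
  | some w => exact w.2 r (by simpa [ed] using this)

theorem gf_cs (ht : Function.Injective t) (x : Cfg d) (ρ : NC t x → Fin 3) (c : Col t) :
    cs x.1 c = cs (gf t x ρ) c := by
  by_cases h : cs x.1 c = 1 ∨ cs x.1 c = 2
  · rw [cs.eq_1 (gf t x ρ), sum_congr rfl fun r _ => by rw [gf_bit ht x ρ ⟨c, h⟩ r]]
    have : ∀ q : Fin 3, ∑ r, io (mb true q r) = 1 ∧ ∑ r, io (mb false q r) = 2 := by decide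
    rcases h with h | h <;> simp [ty, h, this]
  · refine sum_congr rfl fun r _ => ?_
    rw [bit, bit, gf_off x ρ fun ⟨p, hp⟩ => h ((ed_inj ht hp).1 ▸ p.1.2)]

/-- configuration of a state of the three-row model -/
def gT (ht : Function.Injective t) (x : Cfg d) (p : M3 (ty t x) (ccT t x)) : Cfg d :=
  ⟨gf t x p.1, fun v => by rw [gf_off x _ fun ⟨p, hp⟩ => ed_diag ht _ _ _ hp, x.2.1],
    cfg_of ht x _ (fun v => by rw [gf_off x _ fun ⟨p, hp⟩ => ed_diag ht _ _ _ hp, x.2.1])
      (fun e he => (gf_off x _ fun ⟨p, hp⟩ => he (hp ▸ ed_Tt ht _ _)).symm) (gf_cs ht x _)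
      fun r => by
        have := (rs_split x _ (gf_cs ht x p.1) r).1
        simp only [gf_bit ht, sum_mb, p.2, ccT] at this
        linarith⟩

/-- the pair move fixing row `r` -/
def RT (d : V → ℤ) (t : Fin 3 → V) (r : Fin 3) : Setoid (Cfg d) := Ag d (Ee (t (r + 1)) (t (r + 2)))

theorem Ee_ed (ht : Function.Injective t) (c : Col t) (r s : Fin 3) :
    Ee (t (r + 1)) (t (r + 2)) (ed t c s) ↔ s ≠ r := by
  have e : ed t c s = s(t (r + 1), t (r + 2)) ↔ c = none ∧ s = r :=
    ⟨fun h => ed_inj ht (c' := none) h, fun ⟨a, b⟩ => by rw [a, b]; rfl⟩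
  simp only [Ee, mem_ed ht, ne_eq, e]
  clear e
  cases c <;> simp <;> revert r s <;> decide

theorem RT_gT (ht : Function.Injective t) (x : Cfg d) (r : Fin 3) (p q : M3 (ty t x) (ccT t x)) :
    RT d t r (gT ht x p) (gT ht x q) ↔ R3 _ _ r p q := by
  have m : ∀ (b : Bool) (q q' r : Fin 3), mb b q r = mb b q' r ↔ (q = r ↔ q' = r) := by decide
  constructor
  · intro h c
    have := h (ed t c.1 r) (by simp [Ee_ed ht])
    rw [← m (ty t x c), ← gf_bit ht, ← gf_bit ht, bit, bit]
    exact congrArg _ this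
  · intro h e he
    by_cases h' : ∃ p : NC t x × Fin 3, ed t p.1.1 p.2 = e
    · obtain ⟨⟨c, s⟩, rfl⟩ := h'
      have : s = r := by simpa [Ee_ed ht] using he
      subst this
      have := (m (ty t x c) _ _ _).2 (h c)
      rw [← gf_bit ht, ← gf_bit ht, bit, bit] at this
      simpa [gT] using this
    · exact (gf_off x _ h').trans (gf_off x _ h').symm

theorem gT_surj (ht : Function.Injective t) {x y : Cfg d} (h : Ag d (Tt t) x y) :
    ∃ q, y = gT ht x q := by
  obtain ⟨hc, hr⟩ := margins ht h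
  have : ∀ c : NC t x, ∃ q, ∀ r, bit t y.1 c.1 r = mb (ty t x c) q r := fun c => by
    have a := c.2
    rw [ty]
    rw [hc] at a ⊢
    unfold cs at a ⊢
    generalize bit t y.1 c.1 = b at *
    simp only [Fin.sum_univ_three] at a ⊢
    revert b; decide
  choose ρ hρ using this
  refine ⟨⟨ρ, fun r => ?_⟩, Subtype.ext (funext fun e => ?_)⟩
  · have := (rs_split x _ hc r).1
    simp only [hρ, sum_mb, hr] at this
    rw [ccT]; linarith
  · change _ = gf t x ρ e
    by_cases h' : ∃ p : NC t x × Fin 3, ed t p.1.1 p.2 = e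
    · obtain ⟨⟨c, s⟩, rfl⟩ := h'
      have := hρ c s
      rw [← gf_bit ht, bit, bit] at this
      simpa using this
    rw [gf_off x _ h']
    by_cases h1 : Tt t e
    · by_cases h2 : e.IsDiag
      · induction e using Sym2.ind with
        | _ a b => rw [Sym2.mk_isDiag_iff.1 h2, x.2.1, y.2.1]
      obtain ⟨c, r, rfl⟩ := ed_surj ht h1 h2
      have := (rs_split x _ hc r).2 c fun hc => h' ⟨(⟨c, hc⟩, r), rfl⟩
      simpa [bit] using this.symm
    · exact (h e h1).symm

theorem RT_le (r : Fin 3) (x y : Cfg d) (h : RT d t r x y) : Ag d (Tt t) x y := fun e he =>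
  h e fun h' => he (h'.1.elim (fun a => ⟨_, a⟩) fun a => ⟨_, a⟩)

theorem Ag_gT (ht : Function.Injective t) (x : Cfg d) (p : M3 (ty t x) (ccT t x)) :
    Ag d (Tt t) x (gT ht x p) := fun e he =>
  (gf_off x _ fun ⟨p, hp⟩ => he (hp ▸ ed_Tt ht _ _)).symm

theorem tri_cfg {i j m : V} (hij : i ≠ j) (him : i ≠ m) (hjm : j ≠ m) (G : Cfg d → ℝ) :
    0 ≤ ip (hb (Ag d (Ee m j)) G) (hb (Ag d (Ee m i)) G) +
      ip (hb (Ag d (Ee i m)) G) (hb (Ag d (Ee i j)) G) +
      ip (hb (Ag d (Ee j i)) G) (hb (Ag d (Ee j m)) G) := by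
  have ht : Function.Injective ![i, j, m] := by
    intro a b; fin_cases a <;> fin_cases b <;> simp [hij, him, hjm, hij.symm, him.symm, hjm.symm]
  generalize ht' : ![i, j, m] = t at ht
  have := tri_abs (RT d t) (Ag d (Tt t)) RT_le (fun f a ha hf he r x y hxy => by
    have inj : Function.Injective (gT ht x) := fun p q h => Subtype.ext (funext fun c => by
      have := (RT_gT ht x (p.1 c) p q).1 (h ▸ (RT d t _).refl _) c
      exact (this.1 rfl).symm)
    have tr : ∀ r p y, RT d t r (gT ht x p) y ↔ ∃ q, y = gT ht x q ∧ R3 _ _ r p q := by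
      intro r p y
      constructor
      · intro h
        obtain ⟨q, rfl⟩ := gT_surj ht ((Ag d (Tt t)).trans (Ag_gT ht x p) (RT_le r _ _ h))
        exact ⟨q, rfl, (RT_gT ht x r p q).1 h⟩
      · rintro ⟨q, rfl, h⟩
        exact (RT_gT ht x r p q).2 h
    obtain ⟨p, hp⟩ := gT_surj ht ((Ag d (Tt t)).refl x)
    obtain ⟨q, hq⟩ := gT_surj ht hxy
    have := rigid (f := fun r => f r ∘ gT ht x) ha
      (fun r p q h => hf r _ _ ((RT_gT ht x r p q).2 h)) (fun r j k a b c => by
        ext p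
        have := congrFun (he r j k a b c) (gT ht x p)
        rw [P_transfer inj (tr r)] at this
        exact this) r p q
    rw [hq]; nth_rw 1 [hp]; exact this) G
  subst ht'
  rw [Ee_comm m j, Ee_comm i m, Ee_comm j i]
  exact this

end Vale.Agent.P335
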