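import Mathlib

namespace Vale.Agent.P335

open Classical

/-- `Ω_d`: the labelled simple graphs on `Fin n` with degree `d i` at each vertex `i` -/
abbrev Omega {n : ℕ} (d : Fin n → ℕ) : Type :=
  {G : SimpleGraph (Fin n) // ∀ i, G.degree i = d i}

/-- `F` is a perfect matching of the complete graph on the vertex set `S` -/
def IsPM {n : ℕ} (S : Finset (Fin n)) (F : Finset (Sym2 (Fin n))) : Prop :=
  (∀ e ∈ F, ¬ e.IsDiag ∧ ∀ v ∈ e, v ∈ S) ∧ ∀ v ∈ S, ∃! e, e ∈ F ∧ v ∈ e

/-- the ordered pairs `(F, F')` of distinct perfect matchings of the complete graph on `S` -/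
noncomputable def pairs {n : ℕ} (S : Finset (Fin n)) :
    Finset (Finset (Sym2 (Fin n)) × Finset (Sym2 (Fin n))) :=
  Finset.univ.filter fun p => IsPM S p.1 ∧ IsPM S p.2 ∧ p.1 ≠ p.2

/-- replace `F` by `F'` if all edges of `F` are present and all edges of `F'` are absent;
otherwise do nothing -/
noncomputable def switch {n : ℕ} (G : SimpleGraph (Fin n)) (F F' : Finset (Sym2 (Fin n))) :
    SimpleGraph (Fin n) :=
  if (∀ e ∈ F, e ∈ G.edgeSet) ∧ (∀ e ∈ F', e ∉ G.edgeSet) then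
    SimpleGraph.fromEdgeSet ((G.edgeSet \ (F : Set (Sym2 (Fin n)))) ∪ (F' : Set (Sym2 (Fin n))))
  else G

/-- the transition matrix `P_d` of the lazy switch chain -/
noncomputable def switchChain {n : ℕ} (d : Fin n → ℕ) : Matrix (Omega d) (Omega d) ℝ :=
  fun G H => 1 / 2 * (if G = H then 1 else 0) +
    1 / 2 * ∑ S ∈ Finset.powersetCard 4 (Finset.univ : Finset (Fin n)), 1 / (n.choose 4 : ℝ) *
      ∑ p ∈ pairs S, 1 / 6 * (if switch G.1 p.1 p.2 = H.1 then 1 else 0)

/-- total variation distance between `P_d^t(G, ·)` and the uniform law `π_d` on `Ω_d` -/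
noncomputable def tvDist {n : ℕ} (d : Fin n → ℕ) (t : ℕ) (G : Omega d) : ℝ :=
  1 / 2 * ∑ H : Omega d, |(switchChain d ^ t) G H - 1 / (Fintype.card (Omega d) : ℝ)|

end Vale.Agent.P335
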