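import Vale.Agent.P335.CE

open Finset

noncomputable section

namespace Vale.Agent.P335

variable {X : Type*} [Fintype X]

theorem proj_nonneg (A B : (X → ℝ) →ₗ[ℝ] (X → ℝ)) (hA : ∀ F G, ip (A F) G = ip F (A G))
    (hB : ∀ F G, ip (B F) G = ip F (B G)) (hAA : ∀ F, A (A F) = A F) (hBB : ∀ F, B (B F) = B F)
    (F : X → ℝ) (h : A (B F) = B (A F)) : 0 ≤ ip (A F) (B F) := by
  have := ip_self_nonneg (A (B F))
  rw [hA, hAA, h, ← hB, hBB, ip_comm] at this
  exact this

/-- `1 - P R` -/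
def hb (R : Setoid X) : (X → ℝ) →ₗ[ℝ] (X → ℝ) := LinearMap.id - P R

theorem hb_apply (R : Setoid X) (F : X → ℝ) : hb R F = F - P R F := rfl
theorem ip_hb (R : Setoid X) (F G : X → ℝ) : ip (hb R F) G = ip F (hb R G) := by
  rw [hb_apply, hb_apply, ip_sub_left, ip_sub_right, ip_P]
theorem P_hb (R : Setoid X) (F : X → ℝ) : P R (hb R F) = 0 := by
  rw [hb_apply, map_sub, P_P, sub_self]
theorem hb_hb (R : Setoid X) (F : X → ℝ) : hb R (hb R F) = hb R F := by
  rw [hb_apply R (hb R F), P_hb, sub_zero]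
theorem ip_hb_hb (R : Setoid X) (F : X → ℝ) : ip (hb R F) (hb R F) = ip F (hb R F) := by
  rw [ip_hb, hb_hb]

open Classical in
/-- indicator -/
def ind (D : X → Prop) : X → ℝ := fun x => if D x then 1 else 0

theorem ind_inv {R : Setoid X} {D : X → Prop} (h : ∀ x y, D x → R x y → D y) (x y : X)
    (hxy : R x y) : ind D x = ind D y := by
  have : D x ↔ D y := ⟨fun a => h _ _ a hxy, fun a => h _ _ a (R.symm hxy)⟩
  unfold ind; rw [propext this]

theorem sum_ind_P_le {R : Setoid X} {D : X → Prop} (h : ∀ x y, D x → R x y → D y) (F : X → ℝ) :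
    ∑ x, ind D x * P R F x ^ 2 ≤ ∑ x, ind D x * F x ^ 2 := by
  have := ip_P_le R (ind D * F)
  rw [P_mul F (ind_inv h)] at this
  refine le_of_eq_of_le ?_ (le_of_le_of_eq this ?_) <;>
  exact sum_congr rfl fun x _ => by by_cases hx : D x <;> simp [ind, hx, sq]

/-- symmetrisation -/
def symm (τ : X → X) (F : X → ℝ) : X → ℝ := (1 / 2 : ℝ) • (F + F ∘ τ)

theorem disj_abs (Re Rf U W : Setoid X) (τ : X → X) (D O : X → Prop)
    (hU : ∀ x y, U x y → Re x y) (hW : ∀ x y, W x y → Rf x y)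
    (c1 : ∀ F, P U (P Rf F) = P Rf (P U F)) (c2 : ∀ F, P W (P Re F) = P Re (P W F))
    (c3 : ∀ F, P U (P W F) = P W (P U F))
    (hτ : Function.Involutive τ) (τe : ∀ x, Re x (τ x)) (τf : ∀ x, Rf x (τ x))
    (cover : ∀ x, D x ∨ O x ∨ (∀ y, Re x y → U x y) ∨ (∀ y, Rf x y → W x y))
    (DO : ∀ x, D x → ¬ O x)
    (DU : ∀ x y, D x → U x y → D y) (DW : ∀ x y, D x → W x y → D y)
    (Oe : ∀ x y, O x → Re x y → O y) (Of : ∀ x y, O x → Rf x y → O y)
    (cO : ∀ F x, O x → P Re (P Rf F) x = P Rf (P Re F) x) (F : X → ℝ) :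
    ∑ x, ((F x - F (τ x)) / 2) ^ 2 -
      (∑ x, ind D x * (P U (symm τ F) x - P Re F x) ^ 2 +
        ∑ x, ind D x * (P W (symm τ F) x - P Rf F x) ^ 2) / 2 ≤ ip (hb Re F) (hb Rf F) := by
  set S := symm τ F with hS
  set A : X → ℝ := (1 / 2 : ℝ) • (F - F ∘ τ) with hA
  have hF : F = A + S := by ext x; simp [hA, hS, symm]; ring
  have eA : P Re A = 0 := by rw [hA, map_smul, map_sub, P_comp_self hτ τe]; simp
  have fA : P Rf A = 0 := by rw [hA, map_smul, map_sub, P_comp_self hτ τf]; simp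
  have eS : P Re F = P Re S := by rw [hF, map_add, eA, zero_add]
  have fS : P Rf F = P Rf S := by rw [hF, map_add, fA, zero_add]
  have AS : ip A S = 0 := by
    have h1 : ip A S = ∑ x, (F x ^ 2 - F (τ x) ^ 2) / 4 :=
      sum_congr rfl fun x _ => by simp [hA, hS, symm]; ring
    rw [h1, ← sum_div, sum_sub_distrib, sum_invol hτ fun x => F x ^ 2]; simp
  have AA : ip A A = ∑ x, ((F x - F (τ x)) / 2) ^ 2 :=
    sum_congr rfl fun x _ => by simp [hA]; ring
  have h0 : ip (hb Re F) (hb Rf F) = ip A A + ip (hb Re S) (hb Rf S) := by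
    have a1 : hb Re F = A + hb Re S := by rw [hb_apply, hb_apply, eS]; nth_rw 1 [hF]; abel
    have a2 : hb Rf F = A + hb Rf S := by rw [hb_apply, hb_apply, fS]; nth_rw 1 [hF]; abel
    have a3 : ip A (hb Rf S) = 0 := by rw [← ip_hb, hb_apply, fA, sub_zero, AS]
    have a4 : ip (hb Re S) A = 0 := by rw [ip_hb, hb_apply, eA, sub_zero, ip_comm, AS]
    rw [a1, a2, ip_add_left, ip_add_right, ip_add_right, a3, a4]; ring
  set α := P U S - P Re S with hα
  set β := P W S - P Rf S with hβ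
  have T1 : 0 ≤ ip (hb U S) (hb Rf S) :=
    proj_nonneg _ _ (ip_hb U) (ip_hb Rf) (hb_hb U) (hb_hb Rf) S (by
      simp only [hb_apply, map_sub, c1]; abel)
  have T2 : 0 ≤ ip α (hb W S) :=
    proj_nonneg (P U - P Re) _ (fun F G => by
        simp only [LinearMap.sub_apply, ip_sub_left, ip_sub_right, ip_P]) (ip_hb W) (fun F => by
        simp only [LinearMap.sub_apply, map_sub, P_P, P_P_fine hU, P_P_coarse hU]; abel)
      (hb_hb W) S (by
      simp only [hb_apply, map_sub, LinearMap.sub_apply, c2, c3]; abel)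
  have h1 : ip (hb Re S) (hb Rf S) = ip (hb U S) (hb Rf S) + ip α (hb W S) + ip α β := by
    have a1 : hb Re S = hb U S + α := by simp only [hb_apply, hα]; abel
    have a2 : hb Rf S = hb W S + β := by simp only [hb_apply, hβ]; abel
    rw [a1, ip_add_left, add_assoc, ← ip_add_right, ← a2]
  set g := P U (P W S) with hg
  have Wα : P W α = hb Re g := by
    rw [hα, map_sub, ← c3, c2, hb_apply, hg, P_P_coarse hU]
  have Uβ : P U β = hb Rf g := by
    rw [hβ, map_sub, c1, hb_apply, hg, c3, P_P_coarse hW]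
  have h2 : ip α β = ip (hb Re g) (hb Rf g) := by
    have a1 : P W β = β := by rw [hβ, map_sub, P_P, P_P_fine hW]
    have a2 : P U α = α := by rw [hα, map_sub, P_P, P_P_fine hU]
    rw [← Wα, ← Uβ, ← ip_P U, c3, a2, ip_P, a1]
  have gU : ∀ x y, U x y → g x = g y := fun x y h => P_inv _ h
  have gW : ∀ x y, W x y → g x = g y := fun x y h => by rw [hg, c3]; exact P_inv _ h
  have h3 : ∑ x, (ind O x * (hb Re g x * hb Rf g x) -
      (ind D x * hb Re g x ^ 2 + ind D x * hb Rf g x ^ 2) / 2) ≤ ip (hb Re g) (hb Rf g) := by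
    refine sum_le_sum fun x _ => ?_
    by_cases hD : D x
    · simp only [ind, hD, DO x hD, if_true, if_false]
      nlinarith [sq_nonneg (hb Re g x + hb Rf g x)]
    by_cases hO : O x
    · simp [ind, hD, hO]
    simp only [ind, hD, hO, if_false]
    rcases cover x with h | h | h | h
    · exact absurd h hD
    · exact absurd h hO
    · have : hb Re g x = 0 := by
        rw [hb_apply, Pi.sub_apply, P_const fun y hy => (gU x y (h y hy)).symm, sub_self]
      simp [this]
    · have : hb Rf g x = 0 := by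
        rw [hb_apply, Pi.sub_apply, P_const fun y hy => (gW x y (h y hy)).symm, sub_self]
      simp [this]
  have h4 : 0 ≤ ∑ x, ind O x * (hb Re g x * hb Rf g x) := by
    have me : ∀ G, P Re (ind O * G) = ind O * P Re G := fun G => P_mul G (ind_inv Oe)
    have mf : ∀ G, P Rf (ind O * G) = ind O * P Rf G := fun G => P_mul G (ind_inv Of)
    have := proj_nonneg _ _ (ip_hb Re) (ip_hb Rf) (hb_hb Re) (hb_hb Rf) (ind O * g) (by
      have : ind O * P Re (P Rf g) = ind O * P Rf (P Re g) := by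
        ext x; by_cases hx : O x
        · simp [cO g x hx]
        · simp [ind, hx]
      simp only [hb_apply, map_sub, me, mf, this]; abel)
    refine le_of_le_of_eq this (sum_congr rfl fun x _ => ?_)
    simp only [hb_apply, me, mf]
    by_cases hx : O x <;> simp [ind, hx]
  have h5 := sum_ind_P_le DW α
  have h6 := sum_ind_P_le DU β
  rw [Wα] at h5
  rw [Uβ] at h6
  rw [sum_sub_distrib, ← sum_div, sum_add_distrib] at h3
  rw [eS, fS, h0, h1, h2, AA]
  have e5 : ∑ x, ind D x * (P U S x - P Re S x) ^ 2 = ∑ x, ind D x * α x ^ 2 := rfl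
  have e6 : ∑ x, ind D x * (P W S x - P Rf S x) ^ 2 = ∑ x, ind D x * β x ^ 2 := rfl
  rw [e5, e6]
  linarith

end Vale.Agent.P335
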