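import Vale.Agent.P335.CfgT
import Vale.Agent.P335.CfgJ

open Finset

noncomputable section

namespace Vale.Agent.P335

variable {V : Type*} [Fintype V] [DecidableEq V] {d : V → ℤ}

theorem sw_ex (x : Cfg d) (W : Finset V) {v a b : V} (hv : v ∈ W) (ha : a ∈ W) (hb : b ∈ W)
    (h1 : x.1 s(v, a) = true) (h2 : x.1 s(v, b) = false) (hvb : v ≠ b)
    (h : ∑ w ∈ W, io (x.1 s(a, w)) ≤ ∑ w ∈ W, io (x.1 s(b, w))) :
    ∃ c ∈ W, Dist v c a b ∧ Dg v c a b x := by
  have hva : v ≠ a := fun e => by rw [e, x.2.1] at h1; exact Bool.false_ne_true h1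
  have hab : a ≠ b := fun e => by rw [e, h2] at h1; exact Bool.false_ne_true h1
  by_contra hno
  push Not at hno
  have : ∑ w ∈ W, ((if w = v then 1 else 0) - (if w = a then io (x.1 s(a, b)) else 0) +
      (if w = b then io (x.1 s(a, b)) else 0)) ≤
      ∑ w ∈ W, (io (x.1 s(a, w)) - io (x.1 s(b, w))) := by
    refine sum_le_sum fun w hw => ?_
    by_cases e1 : w = v
    · subst e1
      rw [Sym2.eq_swap (a := a) (b := w), Sym2.eq_swap (a := b) (b := w), h1, h2]
      simp [hva, hvb, io]
    by_cases e2 : w = a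
    · subst e2
      rw [Sym2.eq_swap (a := b), x.2.1]; simp [e1, hab, io]
    by_cases e3 : w = b
    · subst e3
      rw [x.2.1]; simp [e1, e2, io]
    have := hno w hw ⟨Ne.symm e1, hva, hvb, e2, e3, hab⟩
    simp only [Dg, h1, h2] at this
    rw [Sym2.eq_swap (a := a) (b := w), Sym2.eq_swap (a := b) (b := w)]
    revert this
    cases x.1 s(w, a) <;> cases x.1 s(w, b) <;> simp [e1, e2, e3, io]
  simp only [sum_add_distrib, sum_sub_distrib, sum_ite_eq', hv, ha, hb, if_true] at this
  linarith

theorem connected {F : Cfg d → ℝ} (hF : ∀ i j k l x, Dist i j k l → F (tau i j k l x) = F x)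
    (W : Finset V) : ∀ x y : Cfg d, (∀ e, ¬(∀ v ∈ e, v ∈ W) → x.1 e = y.1 e) → F x = F y := by
  induction W using Finset.induction_on with
  | empty =>
    intro x y h
    congr 1; ext e
    rw [h e]
    induction e using Sym2.ind with
    | _ a b => exact fun h => notMem_empty _ (h a (by simp))
  | insert v W hv ih =>
    suffices H : ∀ (n : ℕ) (x y : Cfg d),
        (univ.filter fun u => x.1 s(v, u) ≠ y.1 s(v, u)).card = n →
        (∀ e, ¬(∀ u ∈ e, u ∈ insert v W) → x.1 e = y.1 e) → F x = F y from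
      fun x y => H _ x y rfl
    intro n
    induction n using Nat.strong_induction_on with
    | _ n ihn =>
    have step : ∀ x y : Cfg d, (univ.filter fun u => x.1 s(v, u) ≠ y.1 s(v, u)).card = n →
        (∀ e, ¬(∀ u ∈ e, u ∈ insert v W) → x.1 e = y.1 e) → ∀ a b, x.1 s(v, a) = true →
        y.1 s(v, a) = false → x.1 s(v, b) = false → y.1 s(v, b) = true →
        ∑ w ∈ insert v W, io (x.1 s(a, w)) ≤ ∑ w ∈ insert v W, io (x.1 s(b, w)) → F x = F y := by
      intro x y hn h a b a1 a2 b1 b2 hle
      have mem : ∀ u, x.1 s(v, u) ≠ y.1 s(v, u) → u ∈ insert v W := fun u hu => by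
        by_contra hc
        exact hu (h _ fun h' => hc (h' u (by simp)))
      have ha := mem a (by simp [a1, a2])
      have hb := mem b (by simp [b1, b2])
      obtain ⟨c, hc, hD, hg⟩ := sw_ex x _ (mem_insert_self v W) ha hb a1 b1
        (fun e => by rw [← e, y.2.1] at b2; exact Bool.false_ne_true b2) hle
      rw [← hF _ _ _ _ x hD]
      refine ihn _ ?_ _ y rfl fun e he => ?_
      · rw [← hn]
        refine card_lt_card (Finset.ssubset_iff_subset_ne.2 ⟨fun u hu => ?_, fun hsub => ?_⟩)
        · have hu := (mem_filter.1 hu).2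
          refine mem_filter.2 ⟨mem_univ _, fun e => hu ?_⟩
          have e1 : u ≠ a := fun e' => by rw [e', a1, a2] at e; exact Bool.false_ne_true e.symm
          have e2 : u ≠ b := fun e' => by rw [e', b1, b2] at e; exact Bool.false_ne_true e
          rw [tau_off hD, e]
          simp [Blk, e1, e2, hD.ij, hD.ik, hD.il]
        · have : a ∈ univ.filter fun u => x.1 s(v, u) ≠ y.1 s(v, u) := by simp [a1, a2]
          rw [← hsub] at this
          have := (mem_filter.1 this).2
          rw [tau_pos hD hg, if_pos (show Blk v c a b _ from Or.inl rfl), a1, a2] at this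
          exact this rfl
      · rw [tau_off hD, h e he]
        rintro (rfl | rfl | rfl | rfl) <;> refine he ?_ <;> simp only [Sym2.mem_iff] <;>
          rintro u (rfl | rfl) <;> first | assumption | exact mem_insert_self _ _
    intro x y hn h
    by_cases h0 : ∀ u, x.1 s(v, u) = y.1 s(v, u)
    · refine ih x y fun e he => ?_
      by_cases hve : v ∈ e
      · obtain ⟨u, rfl⟩ := Sym2.mem_iff_exists.1 hve
        exact h0 u
      · exact h e fun h' => he fun u hu =>
          (mem_insert.1 (h' u hu)).resolve_left fun e' => hve (e' ▸ hu)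
    have ex : ∀ x y : Cfg d, (¬∀ u, x.1 s(v, u) = y.1 s(v, u)) →
        ∃ a, x.1 s(v, a) = true ∧ y.1 s(v, a) = false := fun x y h0 => by
      by_contra hno
      push Not at hno h0
      obtain ⟨u, hu⟩ := h0
      have : ∑ u, io (x.1 s(v, u)) < ∑ u, io (y.1 s(v, u)) := sum_lt_sum (fun w _ => by
          have := hno w
          revert this; cases x.1 s(v, w) <;> cases y.1 s(v, w) <;> simp [io])
        ⟨u, mem_univ _, by
          have := hno u
          revert this hu; cases x.1 s(v, u) <;> cases y.1 s(v, u) <;> simp [io]⟩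
      rw [x.2.2, y.2.2] at this
      exact lt_irrefl _ this
    obtain ⟨a, a1, a2⟩ := ex x y h0
    obtain ⟨b, b1, b2⟩ := ex y x fun h => h0 fun u => (h u).symm
    have dg : ∀ u, ∑ w ∈ insert v W, io (x.1 s(u, w)) = ∑ w ∈ insert v W, io (y.1 s(u, w)) :=
      fun u => sum_eq_of_off x y u _ fun w hw => h _ fun h' => hw (h' w (by simp))
    rcases le_total (∑ w ∈ insert v W, io (x.1 s(a, w))) (∑ w ∈ insert v W, io (x.1 s(b, w))) with
      hle | hle
    · exact step x y hn h a b a1 a2 b2 b1 hle
    · rw [dg, dg] at hle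
      refine (step y x ?_ (fun e he => (h e he).symm) b a b1 b2 a2 a1 hle).symm
      rw [← hn]; simp only [ne_comm]

/-- sum over ordered triples of distinct vertices -/
def S3 (f : V → V → V → ℝ) : ℝ := ∑ i, ∑ j ∈ univ.erase i, ∑ m ∈ Out i j, f i j m

theorem S3_eq (f : V → V → V → ℝ) :
    S3 f = ∑ i, ∑ j, ∑ m, if i ≠ j ∧ i ≠ m ∧ j ≠ m then f i j m else 0 := by
  refine sum_congr rfl fun i _ => ?_
  rw [← filter_ne' univ i, sum_filter]
  refine sum_congr rfl fun j _ => ?_
  split_ifs with h
  · rw [← sum_filter]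
    congr 1; ext m; simp [Out, h.symm, ne_comm, and_comm]
  · simp [not_not.1 h]

theorem S3_swap12 (f : V → V → V → ℝ) : S3 (fun i j m => f j i m) = S3 f := by
  rw [S3_eq, S3_eq, sum_comm]
  refine sum_congr rfl fun i _ => sum_congr rfl fun j _ => sum_congr rfl fun m _ => ?_
  refine if_congr ?_ rfl rfl
  simp only [ne_comm (a := j) (b := i)]; tauto

theorem S3_swap23 (f : V → V → V → ℝ) : S3 (fun i j m => f i m j) = S3 f := by
  rw [S3_eq, S3_eq]
  refine sum_congr rfl fun i _ => ?_
  rw [sum_comm]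
  refine sum_congr rfl fun j _ => sum_congr rfl fun m _ => ?_
  refine if_congr ?_ rfl rfl
  simp only [ne_comm (a := m) (b := j)]; tauto

/-- sum over ordered quadruples of distinct vertices -/
def S4 (f : V → V → V → V → ℝ) : ℝ :=
  ∑ i, ∑ j ∈ univ.erase i, ∑ k ∈ Out i j, ∑ l ∈ (Out i j).erase k, f i j k l

open Classical in
theorem S4_eq (f : V → V → V → V → ℝ) :
    S4 f = ∑ i, ∑ j, ∑ k, ∑ l, if Dist i j k l then f i j k l else 0 := by
  refine sum_congr rfl fun i _ => ?_
  rw [← filter_ne' univ i, sum_filter]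
  refine sum_congr rfl fun j _ => ?_
  split_ifs with h
  · rw [← sum_subset (subset_univ (Out i j))]
    · refine sum_congr rfl fun k hk => ?_
      rw [← sum_filter]
      congr 1; ext l
      simp only [Out, mem_erase, mem_univ, and_true, mem_filter, true_and] at hk ⊢
      exact ⟨fun a => ⟨h.symm, hk.2.symm, a.2.2.symm, hk.1.symm, a.2.1.symm, a.1.symm⟩,
        fun a => ⟨a.kl.symm, a.jl.symm, a.il.symm⟩⟩
    · intro k _ hk
      refine sum_eq_zero fun l _ => if_neg fun a => hk ?_
      simp [Out, a.ik.symm, a.jk.symm]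
  · exact (sum_eq_zero fun k _ => sum_eq_zero fun l _ => if_neg fun a => h a.ij.symm).symm

theorem S4_symm (f : V → V → V → V → ℝ) : S4 (fun i j k l => f k l i j) = S4 f := by
  classical
  have e : ∀ g : V → V → V → V → ℝ, ∑ i, ∑ j, ∑ k, ∑ l, g i j k l =
      ∑ p : V × V, ∑ q : V × V, g p.1 p.2 q.1 q.2 := fun g => by simp only [Fintype.sum_prod_type]
  rw [S4_eq, S4_eq, e, e, sum_comm]
  refine sum_congr rfl fun p _ => sum_congr rfl fun q _ => if_congr ⟨Dist.symm, Dist.symm⟩ rfl rfl

theorem S4_le {f g : V → V → V → V → ℝ} (h : ∀ i j k l, Dist i j k l → f i j k l ≤ g i j k l) :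
    S4 f ≤ S4 g := by
  rw [S4_eq, S4_eq]
  refine sum_le_sum fun i _ => sum_le_sum fun j _ => sum_le_sum fun k _ => sum_le_sum fun l _ => ?_
  split_ifs with a
  exacts [h _ _ _ _ a, le_rfl]

theorem sum_Out {i j : V} (h : i ≠ j) (f : V → ℝ) : ∑ k, f k = f i + f j + ∑ k ∈ Out i j, f k := by
  rw [Out, sum_erase_eq_sub (mem_erase.2 ⟨h.symm, mem_univ _⟩), sum_erase_eq_sub (mem_univ _)]
  ring

/-- the total heat-bath generator -/
def HH (d : V → ℤ) : (Cfg d → ℝ) →ₗ[ℝ] (Cfg d → ℝ) :=
  ∑ i, ∑ j ∈ univ.erase i, hb (Ag d (Ee i j))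

theorem HH_apply (G : Cfg d → ℝ) : HH d G = ∑ i, ∑ j ∈ univ.erase i, hb (Ag d (Ee i j)) G := by
  simp [HH, LinearMap.sum_apply]

theorem ip_HH (G : Cfg d → ℝ) : ip G (HH d G) =
    ∑ i, ∑ j ∈ univ.erase i, ip (hb (Ag d (Ee i j)) G) (hb (Ag d (Ee i j)) G) := by
  simp only [HH_apply, ip_sum_right, ip_hb_hb]

theorem HH_sq (G : Cfg d → ℝ) : 2 * ip G (HH d G) ≤ ip (HH d G) (HH d G) := by
  set T : V → V → V → V → ℝ := fun i j k l =>
    ip (hb (Ag d (Ee i j)) G) (hb (Ag d (Ee k l)) G) with hT
  have s1 : ∀ i j k l, T i j k l = T i j l k := fun i j k l => by simp only [hT, Ee_comm k l]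
  have s2 : ∀ i j k l, T i j k l = T j i k l := fun i j k l => by simp only [hT, Ee_comm i j]
  have h1 : ip (HH d G) (HH d G) = 2 * ip G (HH d G) + 2 * S3 (fun i j m => T i j i m) +
      2 * S3 (fun i j m => T j i j m) + S4 T := by
    rw [ip_HH, S3, S3, S4]
    nth_rw 1 [HH_apply]
    simp only [ip_sum_left, mul_sum, ← sum_add_distrib]
    refine sum_congr rfl fun i _ => sum_congr rfl fun j hj => ?_
    have hij := (mem_erase.1 hj).1.symm
    rw [HH_apply]
    simp only [ip_sum_right]
    change ∑ k, ∑ l ∈ univ.erase k, T i j k l = 2 * T i j i j + _ + _ + _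
    rw [sum_Out hij]
    have e : ∀ k ∈ Out i j, ∑ l ∈ univ.erase k, T i j k l =
        T i j i k + T j i j k + ∑ l ∈ (Out i j).erase k, T i j k l := fun k hk => by
      rw [sum_erase_eq_sub (mem_univ _), sum_erase_eq_sub hk, sum_Out hij, s1 i j k i, s1 i j k j,
        s2 i j j k]; ring
    rw [sum_congr rfl e, sum_erase_eq_sub (mem_univ _), sum_erase_eq_sub (mem_univ _),
      sum_Out hij, sum_Out hij, s1 i j j i]
    simp only [sum_add_distrib, s2 i j j, ← mul_sum]
    ring
  have h2 : 0 ≤ S3 fun i j m => T i j i m := by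
    have a1 : 0 ≤ S3 fun i j m => T m j m i + T i m i j + T j i j m :=
      sum_nonneg fun i _ => sum_nonneg fun j hj => sum_nonneg fun m hm => by
        simp only [Out, mem_erase, mem_univ, and_true] at hj hm
        exact tri_cfg hj.symm hm.2.symm hm.1.symm G
    have a2 : S3 (fun i j m => T m j m i + T i m i j + T j i j m) = S3 (fun i j m => T m j m i) +
        S3 (fun i j m => T i m i j) + S3 fun i j m => T j i j m := by
      simp only [S3, sum_add_distrib]
    have a3 := S3_swap12 fun i j m => T i j i m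
    have a4 := S3_swap23 fun i j m => T i j i m
    have a5 := S3_swap12 fun i j m => T m i m j
    have a6 := S3_swap23 fun i j m => T j i j m
    linarith
  have h3 : 0 ≤ S4 T := by
    have a1 := S4_le (g := T) fun i j k l h => disj_cfg h G
    have a2 := S4_symm fun i j k l => ∑ x, ind (Dg i j k l) x *
      (P (Ub d i j k l) (symm (tau i j k l) G) x - P (Ag d (Ee i j)) G x) ^ 2
    have a3 : S4 (fun i j k l => ∑ x, ind (Dg i j k l) x *
        (P (Ub d i j k l) (symm (tau i j k l) G) x - P (Ag d (Ee i j)) G x) ^ 2) ≤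
        S4 fun i j k l => ∑ x, ((G x - G (tau i j k l x)) / 2) ^ 2 :=
      sum_le_sum fun i _ => sum_le_sum fun j hj => err_le_swE (mem_erase.1 hj).1.symm G
    simp only [S4, sum_sub_distrib, ← sum_div, sum_add_distrib] at a1 a2 a3 ⊢
    linarith
  have := S3_swap12 fun i j m => T i j i m
  linarith

theorem gap (G : Cfg d → ℝ) (h0 : ∑ x, G x = 0) :
    ip G G ≤ 2 * S4 fun i j k l => ∑ x, ((G x - G (tau i j k l x)) / 2) ^ 2 := by
  let A : Setoid (Cfg d) := ⊤
  have hA : ∀ F, P A (HH d F) = 0 := fun F => by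
    simp only [HH_apply, map_sum, hb_apply, map_sub, P_P_coarse (S := A) fun _ _ _ => trivial,
      sub_self, sum_const_zero]
  have sy : ∀ F G, ip (HH d F) G = ip F (HH d G) := fun F G => by
    simp only [HH_apply, ip_sum_left, ip_sum_right, ip_hb]
  have key := quad_le (-(HH d + (2 : ℝ) • P A)) (fun F G => by
    simp only [LinearMap.neg_apply, LinearMap.add_apply, LinearMap.smul_apply, ← neg_one_smul ℝ
      (HH d _ + _), ip_smul_left, ip_smul_right, ip_add_left, ip_add_right, sy, ip_P]) (-2)
    (fun F hF μ hμ => by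
      simp only [LinearMap.neg_apply, LinearMap.add_apply, LinearMap.smul_apply] at hμ
      by_cases h1 : P A F = 0
      · rw [h1, smul_zero, add_zero, neg_eq_iff_eq_neg, ← neg_smul] at hμ
        have a1 := HH_sq F
        have a2 : 0 ≤ ip F (HH d F) := by
          rw [ip_HH]; exact sum_nonneg fun _ _ => sum_nonneg fun _ _ => ip_self_nonneg _
        have p := ip_self_pos hF
        by_cases h2 : μ = 0
        · exfalso
          have a3 := ip_HH F
          rw [hμ, h2, neg_zero, zero_smul, ip_zero_right] at a3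
          have a4 : ∀ i j, i ≠ j → P (Ag d (Ee i j)) F = F := fun i j hij => by
            have b1 := (sum_eq_zero_iff_of_nonneg fun _ _ => sum_nonneg fun _ _ =>
              ip_self_nonneg _).1 a3.symm i (mem_univ _)
            have b2 := (sum_eq_zero_iff_of_nonneg fun _ _ => ip_self_nonneg _).1 b1 j
              (mem_erase.2 ⟨hij.symm, mem_univ _⟩)
            by_contra hne
            exact (ip_self_pos (sub_ne_zero.2 (Ne.symm hne))).ne' b2
          have a5 : ∀ x y, F x = F y := fun x y => connected (fun i j k l x h => by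
            rw [← a4 i j h.ij]; exact (P_inv F (tau_Ee h x)).symm) univ x y (by simp)
          rw [P_of_inv fun x y _ => a5 x y] at h1
          exact hF h1
        rw [hμ, ip_smul_left, ip_smul_right] at a1
        rw [hμ, ip_smul_right] at a2
        have a3 : 0 ≤ -μ := nonneg_of_mul_nonneg_left a2 p
        have a4 : 0 < -μ := lt_of_le_of_ne a3 (by simpa [eq_comm] using h2)
        have a5 := le_of_mul_le_mul_right a1 (mul_pos a4 p)
        linarith
      · have := congrArg (P A) hμ
        rw [map_neg, map_add, hA, zero_add, map_smul, map_smul, P_P, ← neg_smul] at this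
        exact (smul_left_injective ℝ h1 this).ge) G
  have hG : P A G = 0 := funext fun x => by
    have : cls A x = univ := eq_univ_of_forall fun y => mem_cls.2 trivial
    rw [P_apply, this, h0]; simp
  simp only [LinearMap.neg_apply, LinearMap.add_apply, LinearMap.smul_apply, hG, smul_zero,
    add_zero] at key
  rw [← neg_one_smul ℝ (HH d G), ip_smul_right, ip_HH] at key
  have := sum_le_sum fun i (_ : i ∈ univ) => sum_le_sum fun j (hj : j ∈ univ.erase i) =>
    hb_le_swE (mem_erase.1 hj).1.symm G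
  simp only [← mul_sum] at this
  change _ ≤ 2 * ∑ i, ∑ j ∈ univ.erase i, swE i j G
  linarith

theorem gap' {Y : Type*} [Fintype Y] (e : Y ≃ Cfg d) (G : Y → ℝ) (h0 : ∑ x, G x = 0) :
    ∑ x, G x ^ 2 ≤
      2 * S4 fun i j k l => ∑ x, ((G x - G (e.symm (tau i j k l (e x)))) / 2) ^ 2 := by
  have h1 := gap (G ∘ e.symm) (by rw [← h0]; exact Equiv.sum_comp e.symm G)
  simp only [ip, ← Equiv.sum_comp e, Function.comp, Equiv.symm_apply_apply] at h1
  simpa only [sq] using h1

end Vale.Agent.P335
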