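import Mathlib

open Finset

noncomputable section

namespace Vale.Agent.P335

theorem mix {X : Type*} [Fintype X] [DecidableEq X] (M : Matrix X X ℝ) (c m : ℕ) (hc : 0 < c)
    (sy : ∀ x y, M x y = M y x) (nn : ∀ x y, 0 ≤ M x y) (row : ∀ x, ∑ y, M x y = 1)
    (dg : ∀ x, 1 / 2 ≤ M x x)
    (poi : ∀ G : X → ℝ, ∑ x, G x = 0 →
      ∑ x, G x ^ 2 ≤ c * (1 / 2 * ∑ x, ∑ y, M x y * (G x - G y) ^ 2))
    (hm : Fintype.card X ≤ 2 ^ m) (x : X) :
    1 / 2 * ∑ y, |(M ^ (c * (m + 2))) x y - 1 / (Fintype.card X : ℝ)| ≤ 1 / 4 := by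
  have col : ∀ y, ∑ x, M x y = 1 := fun y => by simp only [sy _ y, row]
  have hc' : (0 : ℝ) < c := by exact_mod_cast hc
  have hc1 : (1 : ℝ) ≤ c := by exact_mod_cast hc
  have hγ : 0 ≤ 1 - 1 / (c : ℝ) := by rw [sub_nonneg, div_le_one hc']; exact hc1
  have step : ∀ G : X → ℝ, ∑ x, G x = 0 →
      ∑ x, (∑ y, M x y * G y) ^ 2 ≤ (1 - 1 / c) * ∑ x, G x ^ 2 := by
    intro G h0
    have a1 := poi G h0
    have a2 : ∑ x, ∑ y, M x y * (G x - G y) ^ 2 =
        2 * ∑ x, G x ^ 2 - 2 * ∑ x, G x * ∑ y, M x y * G y := by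
      have : ∀ x y, M x y * (G x - G y) ^ 2 =
          M x y * G x ^ 2 + M x y * G y ^ 2 - 2 * (G x * (M x y * G y)) := fun x y => by ring
      simp only [this, sum_add_distrib, sum_sub_distrib, ← sum_mul, ← mul_sum, row, one_mul]
      rw [sum_comm]
      simp only [← sum_mul, col, one_mul]; ring
    let K : X → X → ℝ := fun x y => 2 * M x y - if x = y then 1 else 0
    have K0 : ∀ x y, 0 ≤ K x y := fun x y => by
      by_cases h : x = y
      · subst h; simp only [K, if_true]; linarith [dg x]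
      · simp only [K, if_neg h]; linarith [nn x y]
    have K1 : ∀ x, ∑ y, K x y = 1 := fun x => by
      simp only [K, sum_sub_distrib, ← mul_sum, row, sum_ite_eq, mem_univ, if_true]; norm_num
    have K2 : ∀ y, ∑ x, K x y = 1 := fun y => by
      simp only [K, sum_sub_distrib, ← mul_sum, col, sum_ite_eq', mem_univ, if_true]; norm_num
    have a3 : ∀ x, (2 * ∑ y, M x y * G y - G x) ^ 2 ≤ ∑ y, K x y * G y ^ 2 := fun x => by
      have b1 : 2 * ∑ y, M x y * G y - G x = ∑ y, K x y * G y := by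
        simp [K, sub_mul, sum_sub_distrib, mul_sum, mul_assoc]
      have b2 : 0 ≤ ∑ y, K x y * (G y - ∑ z, K x z * G z) ^ 2 :=
        sum_nonneg fun y _ => mul_nonneg (K0 x y) (sq_nonneg _)
      have b3 : ∀ a, ∑ y, K x y * (G y - a) ^ 2 =
          ∑ y, K x y * G y ^ 2 - 2 * a * ∑ y, K x y * G y + a ^ 2 * ∑ y, K x y := fun a => by
        simp only [mul_sum, ← sum_sub_distrib, ← sum_add_distrib]
        exact sum_congr rfl fun _ _ => by ring
      rw [b3, K1] at b2
      rw [b1]; nlinarith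
    have a4 := sum_le_sum fun x (_ : x ∈ univ) => a3 x
    rw [sum_comm] at a4
    simp only [← sum_mul, K2, one_mul] at a4
    have a5 : ∑ x, (2 * ∑ y, M x y * G y - G x) ^ 2 = 4 * ∑ x, (∑ y, M x y * G y) ^ 2 -
        4 * ∑ x, G x * ∑ y, M x y * G y + ∑ x, G x ^ 2 := by
      simp only [mul_sum (s := univ) (a := (4 : ℝ)), ← sum_sub_distrib, ← sum_add_distrib]
      exact sum_congr rfl fun _ _ => by ring
    rw [a2] at a1
    have a6 : 1 / (c : ℝ) * ∑ x, G x ^ 2 ≤ ∑ x, G x ^ 2 - ∑ x, G x * ∑ y, M x y * G y := by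
      rw [one_div, inv_mul_le_iff₀ hc']; linarith
    linarith
  have N0 : (0 : ℝ) < Fintype.card X := by exact_mod_cast Fintype.card_pos_iff.2 ⟨x⟩
  have ind : ∀ t : ℕ, ∑ y, ((M ^ t) x y - 1 / (Fintype.card X : ℝ)) = 0 ∧
      ∑ y, ((M ^ t) x y - 1 / (Fintype.card X : ℝ)) ^ 2 ≤ (1 - 1 / (c : ℝ)) ^ t := by
    intro t
    induction t with
    | zero =>
      simp only [pow_zero, Matrix.one_apply, sub_sq, sum_add_distrib, sum_sub_distrib, sum_const,
        card_univ, nsmul_eq_mul, ← sum_mul, ← mul_sum, ite_pow, one_pow]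
      simp only [sum_ite_eq, mem_univ, if_true, ne_eq, OfNat.ofNat_ne_zero, not_false_eq_true,
        zero_pow]
      constructor
      · field_simp; ring
      · have : (0 : ℝ) < 1 / Fintype.card X := by positivity
        have e : (Fintype.card X : ℝ) * (1 / Fintype.card X) ^ 2 = 1 / Fintype.card X := by
          field_simp
        rw [e]; linarith
    | succ t ih =>
      have e : ∀ y, (M ^ (t + 1)) x y - 1 / (Fintype.card X : ℝ) =
          ∑ z, M y z * ((M ^ t) x z - 1 / (Fintype.card X : ℝ)) := fun y => by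
        simp only [pow_succ, Matrix.mul_apply, mul_sub, sum_sub_distrib, ← sum_mul, row, one_mul]
        congr 1
        exact sum_congr rfl fun z _ => by rw [sy y z, mul_comm]
      simp only [e]
      constructor
      · rw [sum_comm]; simp only [← sum_mul, col, one_mul, ih.1]
      · rw [pow_succ']
        exact (step _ ih.1).trans (mul_le_mul_of_nonneg_left ih.2 hγ)
  have h1 := (ind (c * (m + 2))).2
  have h2 : (1 - 1 / (c : ℝ)) ^ c ≤ 1 / 2 := by
    have a1 : (1 - 1 / (c : ℝ)) ^ c ≤ Real.exp (-1) := Real.one_sub_div_pow_le_exp_neg hc1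
    have a2 := Real.add_one_le_exp 1
    rw [Real.exp_neg, ← one_div] at a1
    exact a1.trans (one_div_le_one_div_of_le (by norm_num) (by linarith))
  have h3 : (1 - 1 / (c : ℝ)) ^ (c * (m + 2)) ≤ (1 / 2) ^ (m + 2) := by
    rw [pow_mul]; exact pow_le_pow_left₀ (pow_nonneg hγ _) h2 _
  have h4 := sq_sum_le_card_mul_sum_sq (s := univ)
    (f := fun y => |(M ^ (c * (m + 2))) x y - 1 / (Fintype.card X : ℝ)|)
  simp only [sq_abs, card_univ] at h4
  have h5 : (Fintype.card X : ℝ) ≤ 2 ^ m := by exact_mod_cast hm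
  have h6 : (Fintype.card X : ℝ) * (1 / 2) ^ (m + 2) ≤ (1 / 2) ^ 2 := by
    rw [pow_add, ← mul_assoc]
    refine mul_le_of_le_one_left (by norm_num) ?_
    rw [one_div, inv_pow, mul_inv_le_iff₀ (by positivity), one_mul]; exact h5
  have h7 := h4.trans ((mul_le_mul_of_nonneg_left (h1.trans h3) N0.le).trans h6)
  have := abs_le_of_sq_le_sq' h7 (by norm_num)
  linarith [this.2]

end Vale.Agent.P335
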