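import Vale.Agent.P335.Defs
import Vale.Agent.P335.Gap
import Vale.Agent.P335.Mix

open Finset Classical

noncomputable section

namespace Vale.Agent.P335

variable {n : ℕ}

theorem pm_mk {a b c e : Fin n} (h : Dist a b c e) : IsPM {a, b, c, e} {s(a, b), s(c, e)} := by
  refine ⟨fun f hf => ?_, fun v hv => ?_⟩
  · simp only [mem_insert, mem_singleton] at hf
    rcases hf with rfl | rfl
    · refine ⟨by simpa using h.ij, fun v hv => ?_⟩
      rcases Sym2.mem_iff.1 hv with rfl | rfl <;> simp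
    · refine ⟨by simpa using h.kl, fun v hv => ?_⟩
      rcases Sym2.mem_iff.1 hv with rfl | rfl <;> simp
  · simp only [mem_insert, mem_singleton] at hv
    rcases hv with rfl | rfl | rfl | rfl
    · refine ⟨s(v, b), by simp, fun f ⟨hf, hv⟩ => ?_⟩
      simp only [mem_insert, mem_singleton] at hf
      rcases hf with rfl | rfl
      · rfl
      · simp [h.ik, h.il] at hv
    · refine ⟨s(a, v), by simp, fun f ⟨hf, hv⟩ => ?_⟩
      simp only [mem_insert, mem_singleton] at hf
      rcases hf with rfl | rfl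
      · rfl
      · simp [h.jk, h.jl] at hv
    · refine ⟨s(v, e), by simp, fun f ⟨hf, hv⟩ => ?_⟩
      simp only [mem_insert, mem_singleton] at hf
      rcases hf with rfl | rfl
      · simp [h.ik.symm, h.jk.symm] at hv
      · rfl
    · refine ⟨s(c, v), by simp, fun f ⟨hf, hv⟩ => ?_⟩
      simp only [mem_insert, mem_singleton] at hf
      rcases hf with rfl | rfl
      · simp [h.il.symm, h.jl.symm] at hv
      · rfl

theorem pm_of {a b c e : Fin n} (h : Dist a b c e) {F : Finset (Sym2 (Fin n))}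
    (hF : IsPM {a, b, c, e} F) (hab : s(a, b) ∈ F) : F = {s(a, b), s(c, e)} := by
  have u : ∀ v, ∀ f ∈ F, ∀ g ∈ F, v ∈ f → v ∈ g → f = g := fun v f hf g hg h1 h2 =>
    (hF.2 v ((hF.1 f hf).2 v h1)).unique ⟨hf, h1⟩ ⟨hg, h2⟩
  have hce : s(c, e) ∈ F := by
    obtain ⟨f, hf, hc⟩ := (hF.2 c (by simp)).exists
    obtain ⟨x, rfl⟩ := Sym2.mem_iff_exists.1 hc
    have h1 := (hF.1 _ hf).2 x (by simp)
    simp only [mem_insert, mem_singleton] at h1
    rcases h1 with rfl | rfl | rfl | rfl
    · have := u x _ hf _ hab (by simp) (by simp)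
      simp [h.ik.symm, h.jk.symm] at this
    · have := u x _ hf _ hab (by simp) (by simp)
      simp [h.ik.symm, h.jk.symm] at this
    · exact absurd (by simp) (hF.1 _ hf).1
    · exact hf
  ext f
  simp only [mem_insert, mem_singleton]
  refine ⟨fun hf => ?_, by rintro (rfl | rfl) <;> assumption⟩
  induction f using Sym2.ind with
  | _ x y =>
    have h1 := (hF.1 _ hf).2 x (by simp)
    simp only [mem_insert, mem_singleton] at h1
    rcases h1 with rfl | rfl | rfl | rfl
    · exact Or.inl (u x _ hf _ hab (by simp) (by simp))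
    · exact Or.inl (u x _ hf _ hab (by simp) (by simp))
    · exact Or.inr (u x _ hf _ hce (by simp) (by simp))
    · exact Or.inr (u x _ hf _ hce (by simp) (by simp))

theorem card_pairs {S : Finset (Fin n)} (hS : S.card = 4) : (pairs S).card = 6 := by
  obtain ⟨a, T, ha, rfl, hT⟩ := card_eq_succ.1 hS
  obtain ⟨b, c, e, h1, h2, h3, rfl⟩ := card_eq_three.1 hT
  simp only [mem_insert, mem_singleton, not_or] at ha
  have h : Dist a b c e := ⟨ha.1, ha.2.1, ha.2.2, h1, h2, h3⟩
  have h' : Dist a c b e := ⟨h.ik, h.ij, h.il, h.jk.symm, h.kl, h.jl⟩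
  have h'' : Dist a e b c := ⟨h.il, h.ij, h.ik, h.jl.symm, h.kl.symm, h.jk⟩
  have e1 : ({a, c, b, e} : Finset (Fin n)) = {a, b, c, e} := by ext; simp; tauto
  have e2 : ({a, e, b, c} : Finset (Fin n)) = {a, b, c, e} := by ext; simp; tauto
  have key : univ.filter (IsPM ({a, b, c, e} : Finset (Fin n))) =
      {{s(a, b), s(c, e)}, {s(a, c), s(b, e)}, {s(a, e), s(b, c)}} := by
    ext F
    simp only [mem_filter, mem_univ, true_and, mem_insert, mem_singleton]
    constructor
    · intro hF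
      obtain ⟨f, hf, hc⟩ := (hF.2 a (by simp)).exists
      obtain ⟨x, rfl⟩ := Sym2.mem_iff_exists.1 hc
      have h1 := (hF.1 _ hf).2 x (by simp)
      simp only [mem_insert, mem_singleton] at h1
      rcases h1 with rfl | rfl | rfl | rfl
      · exact absurd (by simp) (hF.1 _ hf).1
      · exact Or.inl (pm_of h hF hf)
      · exact Or.inr (Or.inl (pm_of h' (e1 ▸ hF) hf))
      · exact Or.inr (Or.inr (pm_of h'' (e2 ▸ hF) hf))
    · rintro (rfl | rfl | rfl)
      exacts [pm_mk h, e1 ▸ pm_mk h', e2 ▸ pm_mk h'']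
  have c3 : (univ.filter (IsPM ({a, b, c, e} : Finset (Fin n)))).card = 3 := by
    rw [key]
    refine card_eq_three.2 ⟨_, _, _, fun e => ?_, fun e => ?_, fun e => ?_, rfl⟩
    · have : s(a, b) ∈ _ := e ▸ mem_insert_self _ _
      simp [h.ij, h.ik, h.il, h.jk] at this
    · have : s(a, b) ∈ _ := e ▸ mem_insert_self _ _
      simp [h.ij, h.ik, h.il, h.jl] at this
    · have : s(a, c) ∈ _ := e ▸ mem_insert_self _ _
      simp [h.ij, h.ik, h.il, h.kl] at this
  have : pairs ({a, b, c, e} : Finset (Fin n)) =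
      (univ.filter (IsPM ({a, b, c, e} : Finset (Fin n)))).offDiag := by
    ext p; simp [pairs, mem_offDiag]
  rw [this, offDiag_card, c3]

theorem deg_eq (G : SimpleGraph (Fin n)) (v : Fin n) [Fintype (G.neighborSet v)] :
    (G.degree v : ℤ) = ∑ u, if s(v, u) ∈ G.edgeSet then 1 else 0 := by
  have : G.neighborFinset v = univ.filter fun u => G.Adj v u := by ext; simp
  rw [← SimpleGraph.card_neighborFinset_eq_degree, this, card_filter]
  push_cast
  exact sum_congr rfl fun u _ => by simp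

theorem pm_deg {S : Finset (Fin n)} {F : Finset (Sym2 (Fin n))} (h : IsPM S F) (v : Fin n) :
    ∑ u, (if s(v, u) ∈ F then (1 : ℤ) else 0) = if v ∈ S then 1 else 0 := by
  split_ifs with hv
  · obtain ⟨f, ⟨hf, hc⟩, hu⟩ := h.2 v hv
    obtain ⟨x, rfl⟩ := Sym2.mem_iff_exists.1 hc
    rw [sum_eq_single x (fun u _ hne => if_neg fun h' => hne ?_) (by simp), if_pos hf]
    exact Sym2.congr_right.1 (hu _ ⟨h', by simp⟩)
  · exact sum_eq_zero fun u _ => if_neg fun h' => hv ((h.1 _ h').2 v (by simp))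

theorem switch_edge {G : SimpleGraph (Fin n)} {F F' : Finset (Sym2 (Fin n))}
    (h : ∀ e ∈ F', ¬e.IsDiag) (h1 : ∀ e ∈ F, e ∈ G.edgeSet) (h2 : ∀ e ∈ F', e ∉ G.edgeSet)
    (e : Sym2 (Fin n)) : e ∈ (switch G F F').edgeSet ↔ (e ∈ G.edgeSet ∧ e ∉ F) ∨ e ∈ F' := by
  rw [switch, if_pos ⟨h1, h2⟩, SimpleGraph.edgeSet_fromEdgeSet]
  simp only [Set.mem_sdiff, Set.mem_union, mem_coe, Sym2.mem_diagSet]
  refine ⟨fun a => a.1, fun a => ⟨a, ?_⟩⟩
  rcases a with a | a
  exacts [G.not_isDiag_of_mem_edgeSet a.1, h e a]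

theorem switch_deg (G : SimpleGraph (Fin n)) {S : Finset (Fin n)} {F F' : Finset (Sym2 (Fin n))}
    (h : IsPM S F) (h' : IsPM S F') (v : Fin n) : (switch G F F').degree v = G.degree v := by
  by_cases ha : (∀ e ∈ F, e ∈ G.edgeSet) ∧ (∀ e ∈ F', e ∉ G.edgeSet)
  · have : ((switch G F F').degree v : ℤ) = G.degree v := by
      rw [deg_eq, deg_eq, ← add_left_inj (if v ∈ S then (1 : ℤ) else 0)]
      nth_rw 1 [← pm_deg h]
      rw [← pm_deg h', ← sum_add_distrib, ← sum_add_distrib]
      refine sum_congr rfl fun u _ => ?_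
      have a1 := ha.1 s(v, u)
      have a2 := ha.2 s(v, u)
      simp only [switch_edge (fun e he => (h'.1 e he).1) ha.1 ha.2]
      by_cases b1 : s(v, u) ∈ G.edgeSet <;> by_cases b2 : s(v, u) ∈ F <;>
        by_cases b3 : s(v, u) ∈ F' <;> simp_all
    exact_mod_cast this
  · have : switch G F F' = G := if_neg ha
    rw [this]

theorem switch_symm {G H : SimpleGraph (Fin n)} {S : Finset (Fin n)}
    {F F' : Finset (Sym2 (Fin n))} (h : IsPM S F) (h' : IsPM S F') (hne : G ≠ H)
    (he : switch G F F' = H) : switch H F' F = G := by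
  by_cases ha : (∀ e ∈ F, e ∈ G.edgeSet) ∧ (∀ e ∈ F', e ∉ G.edgeSet)
  · have a := switch_edge (fun e he => (h'.1 e he).1) ha.1 ha.2
    rw [he] at a
    have b := switch_edge (G := H) (F := F') (fun e he => (h.1 e he).1)
      (fun e he => (a e).2 (Or.inr he)) fun e he hc => by
        rcases (a e).1 hc with c | c
        exacts [c.2 he, ha.2 e c (ha.1 e he)]
    refine SimpleGraph.edgeSet_injective (Set.ext fun e => ?_)
    rw [b, a]
    have a1 := ha.1 e
    have a2 := ha.2 e
    tauto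
  · exact absurd ((if_neg ha).symm.trans he) hne

variable {d : Fin n → ℕ}

theorem chain_symm (G H : Omega d) : switchChain d G H = switchChain d H G := by
  by_cases hne : G = H
  · rw [hne]
  simp only [switchChain, if_neg hne, if_neg (Ne.symm hne)]
  congr 2
  refine sum_congr rfl fun S _ => ?_
  congr 1
  have hne' : G.1 ≠ H.1 := fun h => hne (Subtype.ext h)
  refine sum_nbij' Prod.swap Prod.swap ?_ ?_ (by simp) (by simp) fun p hp => ?_
  · intro p; simp only [pairs, mem_filter, mem_univ, true_and, Prod.fst_swap, Prod.snd_swap]; tauto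
  · intro p; simp only [pairs, mem_filter, mem_univ, true_and, Prod.fst_swap, Prod.snd_swap]; tauto
  · simp only [pairs, mem_filter, mem_univ, true_and] at hp
    rw [if_congr ⟨switch_symm hp.1 hp.2.1 hne', switch_symm hp.2.1 hp.1 hne'.symm⟩ rfl rfl]
    rfl

theorem chain_ge (G H : Omega d) : 1 / 2 * (if G = H then 1 else 0) ≤ switchChain d G H :=
  le_add_of_nonneg_right (by positivity)

theorem chain_row (hn : 4 ≤ n) (G : Omega d) : ∑ H, switchChain d G H = 1 := by
  simp only [switchChain, sum_add_distrib, ← mul_sum, sum_ite_eq, mem_univ, if_true]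
  rw [sum_comm]
  have : ∀ S ∈ powersetCard 4 (univ : Finset (Fin n)), ∑ H : Omega d, ∑ p ∈ pairs S,
      (if switch G.1 p.1 p.2 = H.1 then (1 : ℝ) else 0) = 6 := fun S hS => by
    rw [sum_comm, sum_congr rfl fun p hp => ?_, sum_const, card_pairs (mem_powersetCard.1 hS).2,
      nsmul_eq_mul, mul_one (M := ℝ), Nat.cast_ofNat]
    simp only [pairs, mem_filter, mem_univ, true_and] at hp
    rw [sum_eq_single ⟨switch G.1 p.1 p.2, fun i => (switch_deg _ hp.1 hp.2.1 i).trans (G.2 i)⟩
      (fun H _ hH => if_neg fun h => hH (Subtype.ext h.symm)) (by simp), if_pos rfl]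
  rw [sum_congr rfl this, sum_const, card_powersetCard, card_univ, Fintype.card_fin, nsmul_eq_mul]
  have : (0 : ℝ) < n.choose 4 := by exact_mod_cast Nat.choose_pos hn
  field_simp; norm_num

/-- graphs as configurations -/
def eqv (d : Fin n → ℕ) : Omega d ≃ Cfg fun i => (d i : ℤ) where
  toFun G := ⟨fun e => decide (e ∈ G.1.edgeSet), fun v => by simp, fun v => by
    simp only [← G.2 v, deg_eq]; simp [io]⟩
  invFun x := ⟨SimpleGraph.fromEdgeSet {e | x.1 e = true}, fun v => by
    refine Nat.cast_injective (R := ℤ) ?_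
    rw [deg_eq]
    refine Eq.trans (sum_congr rfl fun u _ => ?_) (x.2.2 v)
    by_cases h : v = u
    · simp [h, x.2.1, io]
    · simp [h, io]⟩
  left_inv G := Subtype.ext (by simp)
  right_inv x := Subtype.ext (funext fun e => by
    induction e using Sym2.ind with
    | _ v u =>
      by_cases h : v = u
      · simp [h, x.2.1]
      · simp [h])

theorem eqv_val (G : Omega d) (e : Sym2 (Fin n)) : (eqv d G).1 e = true ↔ e ∈ G.1.edgeSet := by
  simp [eqv]

theorem chain_single (G H : Omega d) {S : Finset (Fin n)} (hS : S.card = 4)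
    {F F' : Finset (Sym2 (Fin n))} (h : IsPM S F) (h' : IsPM S F') (hne : F ≠ F')
    (he : switch G.1 F F' = H.1) : 1 / (12 * (n.choose 4 : ℝ)) ≤ switchChain d G H := by
  have a1 := single_le_sum (s := pairs S)
    (f := fun p => (1 / 6 : ℝ) * if switch G.1 p.1 p.2 = H.1 then 1 else 0)
    (fun _ _ => by positivity) (show (F, F') ∈ _ by simp [pairs, h, h', hne])
  have a2 := single_le_sum (s := powersetCard 4 (univ : Finset (Fin n)))
    (f := fun S => 1 / (n.choose 4 : ℝ) *
      ∑ p ∈ pairs S, (1 / 6 : ℝ) * if switch G.1 p.1 p.2 = H.1 then 1 else 0)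
    (fun _ _ => by positivity) (show S ∈ _ by simp [hS])
  simp only [he, if_true] at a1
  have a3 := mul_le_mul_of_nonneg_left a1 (show 0 ≤ 1 / (n.choose 4 : ℝ) by positivity)
  have a4 : (0 : ℝ) ≤ 1 / 2 * (if G = H then 1 else 0) := by positivity
  have a5 : 1 / (12 * (n.choose 4 : ℝ)) = 1 / 2 * (1 / (n.choose 4 : ℝ) * (1 / 6 * 1)) := by ring
  rw [switchChain, a5]
  linarith

theorem chain_tau' {i j k l : Fin n} (h : Dist i j k l) (G H : Omega d)
    (h1 : (eqv d G).1 s(i, k) = true) (h2 : (eqv d G).1 s(j, l) = true)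
    (h3 : (eqv d G).1 s(i, l) = false) (h4 : (eqv d G).1 s(j, k) = false)
    (hH : ∀ e, (eqv d H).1 e = if Blk i j k l e then !(eqv d G).1 e else (eqv d G).1 e) :
    1 / (12 * (n.choose 4 : ℝ)) ≤ switchChain d G H := by
  have d1 : Dist i k j l := ⟨h.ik, h.ij, h.il, h.jk.symm, h.kl, h.jl⟩
  have d2 : Dist i l j k := ⟨h.il, h.ij, h.ik, h.jl.symm, h.kl.symm, h.jk⟩
  have e1 : ({i, l, j, k} : Finset (Fin n)) = {i, k, j, l} := by ext; simp; tauto
  obtain ⟨a1, a2, a3, a4, a5, a6⟩ := h.ne
  have p2 := pm_mk d2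
  refine chain_single G H (S := {i, k, j, l}) ?_ (pm_mk d1) (e1 ▸ p2) (fun e => ?_) ?_
  · rw [card_insert_of_notMem (by simp [h.ik, h.ij, h.il]),
      card_insert_of_notMem (by simp [h.jk.symm, h.kl]), card_pair h.jl]
  · have : s(i, k) ∈ _ := e ▸ mem_insert_self _ _
    simp only [mem_insert, mem_singleton, a1, a2, or_self] at this
  · refine SimpleGraph.edgeSet_injective (Set.ext fun e => ?_)
    rw [switch_edge (fun e he => (p2.1 e he).1), ← eqv_val, ← eqv_val, hH]
    · simp only [mem_insert, mem_singleton]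
      by_cases he : Blk i j k l e
      · rw [if_pos he]
        rcases he with rfl | rfl | rfl | rfl
        · simp only [h1, a1, a2]; simp
        · simp only [h3]; simp
        · simp only [h4]; simp
        · simp only [h2, a5.symm, a6.symm]; simp
      · rw [if_neg he]
        simp only [Blk, not_or] at he
        simp only [he.1, he.2.1, he.2.2.1, he.2.2.2]; simp
    · simp only [mem_insert, mem_singleton]
      rintro e (rfl | rfl) <;> rwa [← eqv_val]
    · simp only [mem_insert, mem_singleton]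
      rintro e (rfl | rfl) <;> rw [← eqv_val] <;> simp [h3, h4]

theorem chain_tau {i j k l : Fin n} (h : Dist i j k l) (G : Omega d) (hG : Dg i j k l (eqv d G)) :
    1 / (12 * (n.choose 4 : ℝ)) ≤ switchChain d G ((eqv d).symm (tau i j k l (eqv d G))) := by
  have hH := tau_pos h hG
  obtain ⟨a1, a2, a3⟩ := hG
  cases e : (eqv d G).1 s(i, k)
  · have a4 : (eqv d G).1 s(i, l) = true := by simpa [e] using a3
    refine chain_tau' (i := i) (j := j) (k := l) (l := k)
      ⟨h.ij, h.il, h.ik, h.jl, h.jk, h.kl.symm⟩ G _ a4 (a2 ▸ a4) e (a1 ▸ e) fun f => ?_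
    rw [Equiv.apply_symm_apply, hH]
    refine if_congr ?_ rfl rfl
    simp only [Blk]; tauto
  · have a4 : (eqv d G).1 s(i, l) = false := by simpa [e] using a3
    exact chain_tau' h G _ e (a1 ▸ e) a4 (a2 ▸ a4) fun f => by rw [Equiv.apply_symm_apply, hH]

theorem chain_poi (hn : 4 ≤ n) (G : Omega d → ℝ) (h0 : ∑ x, G x = 0) : ∑ x, G x ^ 2 ≤
    (12 * n ^ 8 : ℕ) * (1 / 2 * ∑ x, ∑ y, switchChain d x y * (G x - G y) ^ 2) := by
  have nn : ∀ x y, 0 ≤ switchChain d x y := fun x y => le_trans (by positivity) (chain_ge x y)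
  set E := ∑ x, ∑ y, switchChain d x y * (G x - G y) ^ 2 with hE
  have E0 : 0 ≤ E := sum_nonneg fun x _ => sum_nonneg fun y _ => mul_nonneg (nn x y) (sq_nonneg _)
  have c0 : (0 : ℝ) < n.choose 4 := by exact_mod_cast Nat.choose_pos hn
  have c1 : (n.choose 4 : ℝ) ≤ n ^ 4 := by exact_mod_cast Nat.choose_le_pow n 4
  have h1 := gap' (eqv d) G h0
  have h2 := S4_le (f := fun i j k l => ∑ x, ((G x -
      G ((eqv d).symm (tau i j k l (eqv d x)))) / 2) ^ 2) (g := fun _ _ _ _ => 3 * n ^ 4 * E)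
    fun i j k l h => by
      rw [hE, mul_sum]
      refine sum_le_sum fun x _ => ?_
      have a0 : 0 ≤ ∑ y, switchChain d x y * (G x - G y) ^ 2 :=
        sum_nonneg fun y _ => mul_nonneg (nn x y) (sq_nonneg _)
      by_cases hD : Dg i j k l (eqv d x)
      · have a1 := chain_tau h x hD
        set y := (eqv d).symm (tau i j k l (eqv d x))
        have a2 := single_le_sum (f := fun y => switchChain d x y * (G x - G y) ^ 2)
          (fun y _ => mul_nonneg (nn x y) (sq_nonneg _)) (mem_univ y)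
        have a3 := (mul_le_mul_of_nonneg_right a1 (sq_nonneg (G x - G y))).trans a2
        rw [one_div, inv_mul_le_iff₀ (by positivity)] at a3
        nlinarith [mul_le_mul_of_nonneg_right c1 a0]
      · rw [tau_neg hD, Equiv.symm_apply_apply, sub_self]
        simpa using mul_nonneg (by positivity) a0
  have h3 : S4 (fun _ _ _ _ : Fin n => 3 * n ^ 4 * E) ≤ n ^ 4 * (3 * n ^ 4 * E) := by
    rw [S4_eq]
    refine le_trans (sum_le_sum fun _ _ => sum_le_sum fun _ _ => sum_le_sum fun _ _ =>
      sum_le_sum (g := fun _ => 3 * n ^ 4 * E) fun _ _ => ?_) (le_of_eq ?_)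
    · split_ifs
      exacts [le_rfl, mul_nonneg (by positivity) E0]
    · simp only [sum_const, card_univ, Fintype.card_fin, nsmul_eq_mul]; ring
  push_cast
  linarith

theorem card_Omega : Fintype.card (Omega d) ≤ 2 ^ (n * n) := by
  have := Fintype.card_le_of_injective
    (fun (G : Omega d) (p : Fin n × Fin n) => decide (G.1.Adj p.1 p.2)) fun G H h =>
      Subtype.ext (SimpleGraph.ext (funext fun a => funext fun b => by
        simpa using congrFun h (a, b)))
  simpa using this

theorem main : ∃ p : Polynomial ℕ, ∀ n : ℕ, 4 ≤ n → ∀ d : Fin n → ℕ, Nonempty (Omega d) →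
    ∃ t : ℕ, IsLeast {t : ℕ | ∀ G : Omega d, tvDist d t G ≤ 1 / 4} t ∧ t ≤ p.eval n := by
  refine ⟨12 * Polynomial.X ^ 8 * (Polynomial.X * Polynomial.X + 2), fun n hn d _ => ?_⟩
  have : 12 * n ^ 8 * (n * n + 2) ∈ {t : ℕ | ∀ G : Omega d, tvDist d t G ≤ 1 / 4} := fun G =>
    mix (switchChain d) _ _ (by positivity) chain_symm
      (fun x y => le_trans (by positivity) (chain_ge x y)) (chain_row hn)
      (fun x => by simpa using chain_ge x x) (chain_poi hn) card_Omega G
  exact ⟨_, ⟨Nat.sInf_mem ⟨_, this⟩, fun _ h => Nat.sInf_le h⟩, by simpa using Nat.sInf_le this⟩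

end Vale.Agent.P335
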