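import Mathlib

open Finset

noncomputable section

namespace Vale.Agent.P335

theorem contract {ι : Type*} [Finite ι] (g : ι → ℝ) {a : ℝ} (ha : 1 < a)
    (h : ∀ L, (∀ t, |g t| ≤ L) → ∀ t, a * |g t| ≤ L) (t : ι) : g t = 0 := by
  have : Nonempty ι := ⟨t⟩
  obtain ⟨t0, h0⟩ := Finite.exists_max fun t => |g t|
  have h1 := h _ h0 t0
  have h2 := h0 t
  have h3 := abs_nonneg (g t0)
  have : |g t| ≤ 0 := by nlinarith
  exact abs_nonpos_iff.1 this

theorem mlr (N : ℕ) (p q g : ℕ → ℝ) (h : ∀ t t', t' ≤ t → t < N → p t' * q t ≤ p t * q t')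
    (hg : ∀ t t', t' ≤ t → t < N → g t' ≤ g t) :
    (∑ t ∈ range N, p t) * ∑ t ∈ range N, q t * g t ≤
      (∑ t ∈ range N, q t) * ∑ t ∈ range N, p t * g t := by
  have h1 : 0 ≤ ∑ t ∈ range N, ∑ t' ∈ range N, (g t - g t') * (p t * q t' - p t' * q t) := by
    refine sum_nonneg fun t ht => sum_nonneg fun t' ht' => ?_
    rcases le_total t' t with e | e
    · exact mul_nonneg (sub_nonneg.2 (hg _ _ e (mem_range.1 ht)))
        (sub_nonneg.2 (h _ _ e (mem_range.1 ht)))
    · exact mul_nonneg_of_nonpos_of_nonpos (sub_nonpos.2 (hg _ _ e (mem_range.1 ht')))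
        (sub_nonpos.2 (h _ _ e (mem_range.1 ht')))
  have h2 : ∀ t t', (g t - g t') * (p t * q t' - p t' * q t) =
      p t * g t * q t' - q t * g t * p t' - p t * (q t' * g t') + q t * (p t' * g t') :=
    fun t t' => by ring
  simp only [h2, sum_add_distrib, sum_sub_distrib, ← mul_sum, ← sum_mul] at h1
  linarith

/-- log-concave positive weights -/
def LC (v : ℕ → ℝ) : Prop := (∀ t, 0 < v t) ∧ ∀ p q, q ≤ p → v (p + 1) * v q ≤ v p * v (q + 1)

/-- weighted sum over an antidiagonal -/
def ad (v w : ℕ → ℝ) (s : ℕ) (g : ℕ → ℕ → ℝ) : ℝ :=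
  ∑ p ∈ antidiagonal s, v p.1 * w p.2 * g p.1 p.2

theorem ad_swap (v w : ℕ → ℝ) (s : ℕ) (g : ℕ → ℕ → ℝ) :
    ad v w s g = ad w v s fun z t => g t z := by
  rw [ad, ad, ← Nat.sum_antidiagonal_swap]
  exact sum_congr rfl fun p _ => by simp [mul_comm]

theorem ad_pos {v w : ℕ → ℝ} (hv : LC v) (hw : LC w) (s : ℕ) : 0 < ad v w s fun _ _ => 1 :=
  sum_pos (fun p _ => by simpa using mul_pos (hv.1 _) (hw.1 _)) ⟨(0, s), by simp⟩

theorem ad_mono {v w : ℕ → ℝ} (hv : LC v) (hw : LC w) (s : ℕ) (g : ℕ → ℝ)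
    (hg : ∀ t t', t' ≤ t → t < s + 2 → g t' ≤ g t) :
    ad v w (s + 1) (fun _ _ => 1) * ad v w s (fun t _ => g t) ≤
      ad v w s (fun _ _ => 1) * ad v w (s + 1) fun t _ => g t := by
  have := mlr (s + 2) (fun t => v t * w (s + 1 - t)) (fun t => if t ≤ s then v t * w (s - t) else 0)
    g (fun t t' h1 h2 => by
      have a1 := hv.1 t
      have a2 := hv.1 t'
      by_cases h : t ≤ s
      · rw [if_pos h, if_pos (h1.trans h)]
        have := hw.2 (s - t') (s - t) (by omega)
        rw [show s - t' + 1 = s + 1 - t' by omega, show s - t + 1 = s + 1 - t by omega] at this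
        nlinarith [mul_le_mul_of_nonneg_left this (mul_pos a1 a2).le]
      · rw [if_neg h, mul_zero]
        refine mul_nonneg (mul_pos a1 (hw.1 _)).le ?_
        split_ifs
        · exact (mul_pos a2 (hw.1 _)).le
        · exact le_rfl) hg
  have e : ∀ f : ℕ → ℝ, ∑ t ∈ range (s + 2), (if t ≤ s then v t * w (s - t) else 0) * f t =
      ∑ t ∈ range (s + 1), v t * w (s - t) * f t := fun f => by
    rw [sum_range_succ, if_neg (by omega), zero_mul, add_zero]
    exact sum_congr rfl fun t ht => by rw [if_pos (by have := mem_range.1 ht; omega)]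
  have e1 := e fun _ => 1
  simp only [mul_one] at e1
  rw [e, e1] at this
  simpa only [ad, Nat.sum_antidiagonal_eq_sum_range_succ_mk, mul_one] using this

theorem ad_step {v w : ℕ → ℝ} (hv : LC v) (hw : LC w) (s : ℕ) (φ ψ : ℕ → ℝ) (L : ℝ)
    (hφ : ∀ t ≤ s, φ (t + 1) - φ t ≤ L) (hψ : ∀ t ≤ s, ψ (t + 1) - ψ t ≤ L) :
    ad v w (s + 1) (fun t z => φ t + ψ z) / ad v w (s + 1) (fun _ _ => 1) -
      ad v w s (fun t z => φ t + ψ z) / ad v w s (fun _ _ => 1) ≤ L := by
  have mono : ∀ φ : ℕ → ℝ, (∀ t ≤ s, φ (t + 1) - φ t ≤ L) →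
      ∀ t t', t' ≤ t → t < s + 2 → L * t' - φ t' ≤ L * t - φ t := by
    intro φ hφ t t' h1 h2
    induction t, h1 using Nat.le_induction with
    | base => exact le_rfl
    | succ t h1 ih =>
      have := ih (by omega)
      have := hφ t (by omega)
      push_cast; linarith
  have h1 := ad_mono hv hw s (fun t => L * t - φ t) (mono φ hφ)
  have h2 := ad_mono hw hv s (fun t => L * t - ψ t) (mono ψ hψ)
  rw [ad_swap w, ad_swap w, ad_swap w, ad_swap w] at h2
  have e : ∀ s, ad v w s (fun t _ => L * t - φ t) + ad v w s (fun _ z => L * z - ψ z) =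
      L * s * ad v w s (fun _ _ => 1) - ad v w s fun t z => φ t + ψ z := fun s => by
    simp only [ad, mul_sum, ← sum_add_distrib, ← sum_sub_distrib]
    refine sum_congr rfl fun p hp => ?_
    rw [← mem_antidiagonal.1 hp]; push_cast; ring
  have e1 := e s
  have e2 := e (s + 1)
  have p1 := ad_pos hv hw s
  have p2 := ad_pos hv hw (s + 1)
  rw [div_sub_div _ _ p2.ne' p1.ne', div_le_iff₀ (mul_pos p2 p1)]
  push_cast at e2
  have := add_le_add h1 h2
  rw [← mul_add, ← mul_add, e1, e2] at this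
  nlinarith

theorem oneD (v : Fin 3 → ℕ → ℝ) (hv : ∀ i, LC (v i)) (φ : Fin 3 → ℕ → ℝ) (s : ℕ) {a : ℝ}
    (ha : 1 < a) (h : ∀ i, ∃ j k, ∀ u ≤ s, ad (v j) (v k) (s - u) (fun t z => φ j t + φ k z) =
      a * φ i u * ad (v j) (v k) (s - u) fun _ _ => 1) (i : Fin 3) (u : ℕ) (hu : u ≤ s) :
    φ i u = φ i 0 := by
  have key := contract (ι := Fin 3 × Fin s) (fun p => φ p.1 (p.2 + 1) - φ p.1 p.2) ha (by
    rintro L hL ⟨i, u⟩
    obtain ⟨j, k, h⟩ := h i
    have hu := u.2
    have b : ∀ r, ∀ t ≤ s - (u + 1), |φ r (t + 1) - φ r t| ≤ L := fun r t ht =>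
      hL (r, ⟨t, by omega⟩)
    have a1 := ad_step (hv j) (hv k) (s - (u + 1)) (φ j) (φ k) L
      (fun t ht => (abs_le.1 (b j t ht)).2) fun t ht => (abs_le.1 (b k t ht)).2
    have a2 := ad_step (hv j) (hv k) (s - (u + 1)) (fun t => -φ j t) (fun t => -φ k t) L
      (fun t ht => by linarith [(abs_le.1 (b j t ht)).1])
      fun t ht => by linarith [(abs_le.1 (b k t ht)).1]
    have e : ∀ r, ad (v j) (v k) r (fun t z => -φ j t + -φ k z) =
        -ad (v j) (v k) r fun t z => φ j t + φ k z := fun r => by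
      simp only [ad, ← sum_neg_distrib]
      exact sum_congr rfl fun _ _ => by ring
    rw [e, e] at a2
    rw [show s - (u + 1) + 1 = s - u by omega, h u (by omega), h (u + 1) (by omega)] at a1 a2
    have p1 := (ad_pos (hv j) (hv k) (s - u)).ne'
    have p2 := (ad_pos (hv j) (hv k) (s - (u + 1))).ne'
    rw [neg_div, neg_div] at a2
    rw [mul_div_cancel_right₀ _ p1, mul_div_cancel_right₀ _ p2] at a1 a2
    rw [← abs_of_pos (zero_lt_one.trans ha), ← abs_mul, abs_le]
    constructor <;> simp only <;> linarith)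
  induction u with
  | zero => rfl
  | succ u ih =>
    have := key (i, ⟨u, by omega⟩)
    rw [← ih (by omega)]
    simp only at this
    linarith

theorem card_fn (S : Type*) [Fintype S] [DecidableEq S] (N : Fin 3 → ℕ)
    (h : N 0 + N 1 + N 2 = Fintype.card S) :
    (univ.filter fun σ : S → Fin 3 => ∀ i, (univ.filter fun c => σ c = i).card = N i).card *
      ∏ i, (N i).factorial = (Fintype.card S).factorial := by
  have h1 : (univ.filter fun σ : S → Fin 3 =>
      ∀ i, (univ.filter fun c => σ c = i).card = N i).card =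
      ((powersetCard (N 0) (univ : Finset S)).sigma fun A => powersetCard (N 1) Aᶜ).card := by
    refine card_nbij' (fun σ => ⟨univ.filter fun c => σ c = 0, univ.filter fun c => σ c = 1⟩)
      (fun p c => if c ∈ p.1 then 0 else if c ∈ p.2 then 1 else 2) ?_ ?_ ?_ ?_
    · intro σ hσ
      simp only [coe_filter, mem_univ, true_and, Set.mem_ofPred_eq] at hσ
      simp only [coe_sigma, Set.mem_sigma_iff, mem_coe, mem_powersetCard, subset_univ, true_and,
        hσ, and_true]
      intro c hc
      simp only [mem_filter, mem_univ, true_and, mem_compl] at hc ⊢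
      rw [hc]; decide
    · rintro ⟨A, B⟩ hp
      simp only [coe_sigma, Set.mem_sigma_iff, mem_coe, mem_powersetCard, subset_univ,
        true_and] at hp
      obtain ⟨hA, hBA, hB⟩ := hp
      have d : ∀ c ∈ B, c ∉ A := fun c hc => mem_compl.1 (hBA hc)
      simp only [coe_filter, mem_univ, true_and, Set.mem_ofPred_eq]
      have e0 : (univ.filter fun c => (if c ∈ A then 0 else if c ∈ B then 1 else 2 : Fin 3) = 0)
          = A := by
        ext c; by_cases a : c ∈ A <;> by_cases b : c ∈ B <;> simp [a, b]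
      have e1 : (univ.filter fun c => (if c ∈ A then 0 else if c ∈ B then 1 else 2 : Fin 3) = 1)
          = B := by
        ext c; have := d c; by_cases a : c ∈ A <;> by_cases b : c ∈ B <;> simp_all
      have e2 : (univ.filter fun c => (if c ∈ A then 0 else if c ∈ B then 1 else 2 : Fin 3) = 2)
          = Aᶜ \ B := by
        ext c; by_cases a : c ∈ A <;> by_cases b : c ∈ B <;> simp [a, b]
      intro i
      fin_cases i
      · exact (congrArg card e0).trans hA
      · exact (congrArg card e1).trans hB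
      · refine (congrArg card e2).trans ?_
        rw [card_sdiff_of_subset hBA, card_compl, hA, hB]
        change _ = N 2
        omega
    · intro σ _
      ext c
      have : ∀ r : Fin 3, (if r = 0 then 0 else if r = 1 then 1 else 2 : Fin 3) = r := by decide
      simp [this]
    · rintro ⟨A, B⟩ hp
      simp only [coe_sigma, Set.mem_sigma_iff, mem_coe, mem_powersetCard, subset_univ,
        true_and] at hp
      have d : ∀ c ∈ B, c ∉ A := fun c hc => mem_compl.1 (hp.2.1 hc)
      refine Sigma.ext ?_ ?_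
      · ext c; by_cases a : c ∈ A <;> by_cases b : c ∈ B <;> simp [a, b]
      · refine heq_of_eq ?_
        ext c; have := d c; by_cases a : c ∈ A <;> by_cases b : c ∈ B <;> simp_all
  rw [h1, card_sigma, sum_congr rfl fun A hA => by
    rw [card_powersetCard, card_compl, (mem_powersetCard.1 hA).2], sum_const, card_powersetCard,
    card_univ, smul_eq_mul, Fin.prod_univ_three]
  have a1 := Nat.choose_mul_factorial_mul_factorial (show N 0 ≤ Fintype.card S by omega)
  have a2 := Nat.choose_mul_factorial_mul_factorial (show N 1 ≤ Fintype.card S - N 0 by omega)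
  rw [show Fintype.card S - N 0 - N 1 = N 2 by omega] at a2
  rw [← a1, ← a2]; ring

end Vale.Agent.P335
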