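import Vale.Agent.P335.Disj
import Vale.Agent.P335.OneD

open Finset

noncomputable section

namespace Vale.Agent.P335

variable {C : Type*} [Fintype C] [DecidableEq C] (ε : C → Bool) (cc : Fin 3 → ℤ)

/-- number of columns of type `b` marked at row `i` -/
def cn (b : Bool) (ρ : C → Fin 3) (i : Fin 3) : ℕ := (univ.filter fun c => ε c = b ∧ ρ c = i).card

/-- the three-row model -/
abbrev M3 := {ρ : C → Fin 3 // ∀ i, (cn ε true ρ i : ℤ) - cn ε false ρ i = cc i}

/-- same row `i` -/
def R3 (i : Fin 3) : Setoid (M3 ε cc) :=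
  ⟨fun p q => ∀ c, p.1 c = i ↔ q.1 c = i, fun _ _ => Iff.rfl, fun h c => (h c).symm,
    fun h h' c => (h c).trans (h' c)⟩

variable {ε cc}

theorem R3_iff {i : Fin 3} {p q : M3 ε cc} : R3 ε cc i p q ↔ ∀ c, p.1 c = i ↔ q.1 c = i := Iff.rfl

theorem cn_swap {c c' : C} (h : ε c = ε c') (b : Bool) (ρ : C → Fin 3) (i : Fin 3) :
    cn ε b (ρ ∘ Equiv.swap c c') i = cn ε b ρ i := by
  have he : ∀ x, ε (Equiv.swap c c' x) = ε x := fun x => by
    rw [Equiv.swap_apply_def]; split_ifs <;> simp_all
  refine card_nbij' (Equiv.swap c c') (Equiv.swap c c') ?_ ?_ ?_ ?_ <;> intro x <;> simp [he]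

/-- swapping two columns of the same type -/
def sw {c c' : C} (h : ε c = ε c') (p : M3 ε cc) : M3 ε cc :=
  ⟨p.1 ∘ Equiv.swap c c', fun i => by rw [cn_swap h, cn_swap h, p.2]⟩

theorem sw_invol {c c' : C} (h : ε c = ε c') : Function.Involutive (sw (cc := cc) h) :=
  fun p => Subtype.ext (funext fun x => by simp [sw])

theorem sw_R3 {c c' : C} (h : ε c = ε c') {i : Fin 3} {p : M3 ε cc}
    (hp : p.1 c = i ↔ p.1 c' = i) : R3 ε cc i p (sw h p) := fun x => by
  simp only [sw, Function.comp, Equiv.swap_apply_def]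
  split_ifs <;> simp_all

theorem three (i : Fin 3) : ∃ j k, i ≠ j ∧ i ≠ k ∧ j ≠ k ∧ ∀ r, r = i ∨ r = j ∨ r = k := by
  revert i; decide

theorem sum_three {i j k : Fin 3} (h1 : i ≠ j) (h2 : i ≠ k) (h3 : j ≠ k) :
    (univ : Finset (Fin 3)) = {i, j, k} := by
  revert i j k; decide

theorem abs_P_le {X : Type*} [Fintype X] (R : Setoid X) (F : X → ℝ) (x : X) {L : ℝ}
    (h : ∀ y, R x y → |F y| ≤ L) : |P R F x| ≤ L := by
  rw [P_apply, abs_div, abs_of_pos (card_cls_pos R x), div_le_iff₀ (card_cls_pos R x), mul_comm,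
    ← nsmul_eq_mul, ← sum_const]
  exact (abs_sum_le_sum_abs _ _).trans (sum_le_sum fun y hy => h y (mem_cls.1 hy))

section
variable {f : Fin 3 → M3 ε cc → ℝ} {a : ℝ}

theorem stage1 (ha : 1 < a) (hf : ∀ i p q, R3 ε cc i p q → f i p = f i q)
    (he : ∀ i j k, i ≠ j → i ≠ k → j ≠ k → P (R3 ε cc i) (f j + f k) = a • f i)
    (i : Fin 3) {c c' : C} (h : ε c = ε c') (p : M3 ε cc) : f i (sw h p) = f i p := by
  have key := contract (ι := Fin 3 × M3 ε cc × {x : C × C // ε x.1 = ε x.2})
    (fun t => f t.1 t.2.1 - f t.1 (sw t.2.2.2 t.2.1)) ha (by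
    rintro L hL ⟨i, p, ⟨c, c'⟩, h⟩
    have hL0 : 0 ≤ L := (abs_nonneg _).trans (hL ⟨i, p, ⟨c, c'⟩, h⟩)
    simp only at h ⊢
    by_cases hp : p.1 c = i ↔ p.1 c' = i
    · rw [← hf i _ _ (sw_R3 h hp)]; simpa using hL0
    obtain ⟨j, k, h1, h2, h3, h4⟩ := three i
    have a1 := P_comp (R := R3 ε cc i) (sw_invol h) (fun x y hxy d => hxy _) (f j + f k)
    have a2 : a * (f i p - f i (sw h p)) = P (R3 ε cc i) (f j + f k - (f j + f k) ∘ sw h) p := by
      rw [map_sub, a1, he i j k h1 h2 h3]; simp [mul_sub]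
    rw [← abs_of_pos (zero_lt_one.trans ha), ← abs_mul, a2]
    refine abs_P_le _ _ _ fun q hq => ?_
    have b1 := hq c
    have b2 := hq c'
    have : (q.1 c = j ↔ q.1 c' = j) ∨ (q.1 c = k ↔ q.1 c' = k) := by
      rcases h4 (q.1 c) with e | e | e <;> rcases h4 (q.1 c') with e' | e' | e' <;>
        simp_all [h1.symm, h2.symm, h3.symm]
    rcases this with e | e
    · have := hL ⟨k, q, ⟨c, c'⟩, h⟩
      simp only [Pi.sub_apply, Pi.add_apply, Function.comp, ← hf j _ _ (sw_R3 h e)]
      simpa using this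
    · have := hL ⟨j, q, ⟨c, c'⟩, h⟩
      simp only [Pi.sub_apply, Pi.add_apply, Function.comp, ← hf k _ _ (sw_R3 h e)]
      simpa using this) ⟨i, p, ⟨c, c'⟩, h⟩
  exact (sub_eq_zero.1 key).symm

theorem stage1' (i : Fin 3) (hf : ∀ p q, R3 ε cc i p q → f i p = f i q)
    (hs : ∀ c c' (h : ε c = ε c') p, f i (sw h p) = f i p) (q : M3 ε cc) :
    ∀ (n : ℕ) (p : M3 ε cc), (univ.filter fun c => p.1 c = i ∧ q.1 c ≠ i).card = n →
      (∀ b, cn ε b p.1 i = cn ε b q.1 i) → f i p = f i q := by
  intro n
  induction n using Nat.strong_induction_on with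
  | _ n ih =>
  intro p hn hc
  by_cases h0 : ∀ c, p.1 c = i → q.1 c = i
  · refine hf p q fun c => ⟨h0 c, fun hq => ?_⟩
    have := eq_of_subset_of_card_le (s := univ.filter fun x => ε x = ε c ∧ p.1 x = i)
      (t := univ.filter fun x => ε x = ε c ∧ q.1 x = i) (fun x hx => by
        simp only [mem_filter, mem_univ, true_and] at hx ⊢; exact ⟨hx.1, h0 x hx.2⟩)
      (hc (ε c)).ge
    have h1 : c ∈ univ.filter fun x => ε x = ε c ∧ q.1 x = i := by simp [hq]
    rw [← this] at h1
    simpa using h1
  push Not at h0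
  obtain ⟨c, h1, h2⟩ := h0
  have : ∃ c', ε c = ε c' ∧ q.1 c' = i ∧ p.1 c' ≠ i := by
    by_contra hno
    push Not at hno
    have := eq_of_subset_of_card_le (s := univ.filter fun x => ε x = ε c ∧ q.1 x = i)
      (t := univ.filter fun x => ε x = ε c ∧ p.1 x = i) (fun x hx => by
        simp only [mem_filter, mem_univ, true_and] at hx ⊢; exact ⟨hx.1, hno x hx.1.symm hx.2⟩)
      (hc (ε c)).le
    have h3 : c ∈ univ.filter fun x => ε x = ε c ∧ p.1 x = i := by simp [h1]
    rw [← this] at h3
    simp [h2] at h3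
  obtain ⟨c', h3, h4, h5⟩ := this
  rw [← hs c c' h3 p]
  refine ih _ ?_ (sw h3 p) rfl fun b => by rw [← hc, sw, cn_swap h3]
  rw [← hn]
  refine card_lt_card (Finset.ssubset_iff_subset_ne.2 ⟨fun x hx => ?_, fun hsub => ?_⟩)
  · have hx := (mem_filter.1 hx).2
    simp only [mem_filter, mem_univ, true_and, sw, Function.comp, Equiv.swap_apply_def] at hx ⊢
    split_ifs at hx <;> simp_all
  · have : c ∈ univ.filter fun c => p.1 c = i ∧ q.1 c ≠ i := by simp [h1, h2]
    rw [← hsub] at this
    have := (mem_filter.1 this).2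
    simp [sw, h5] at this

end

theorem sum_cn (b : Bool) (ρ : C → Fin 3) :
    ∑ i, cn ε b ρ i = (univ.filter fun c => ε c = b).card := by
  rw [card_eq_sum_card_fiberwise (f := ρ) (t := univ) fun _ _ => mem_univ _]
  exact sum_congr rfl fun i _ => by rw [filter_filter]; rfl

theorem card_typed (N M : Fin 3 → ℕ) (hN : ∑ i, N i = (univ.filter fun c => ε c = true).card)
    (hM : ∑ i, M i = (univ.filter fun c => ε c = false).card) :
    (univ.filter fun ρ : C → Fin 3 => ∀ i, cn ε true ρ i = N i ∧ cn ε false ρ i = M i).card *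
      ((∏ i, (N i).factorial) * ∏ i, (M i).factorial) =
      (univ.filter fun c => ε c = true).card.factorial *
        (univ.filter fun c => ε c = false).card.factorial := by
  have c1 : Fintype.card {c // ε c = true} = (univ.filter fun c => ε c = true).card :=
    Fintype.card_subtype _
  have c2 : Fintype.card {c // ¬ε c = true} = (univ.filter fun c => ε c = false).card := by
    rw [Fintype.card_subtype]; simp
  have h1 := card_fn {c // ε c = true} N (by rw [c1, ← hN, Fin.sum_univ_three])
  have h2 := card_fn {c // ¬ε c = true} M (by rw [c2, ← hM, Fin.sum_univ_three])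
  rw [← c1, ← c2, ← h1, ← h2, mul_mul_mul_comm, ← card_product]
  congr 1
  refine card_equiv (Equiv.piEquivPiSubtypeProd (fun c => ε c = true) fun _ => Fin 3) fun ρ => ?_
  have e1 : ∀ i, cn ε true ρ i = (univ.filter fun c : {c // ε c = true} => ρ c = i).card :=
    fun i => by
      rw [cn, ← card_map (Function.Embedding.subtype _)]
      congr 1; ext c; simp [and_comm]
  have e2 : ∀ i, cn ε false ρ i = (univ.filter fun c : {c // ¬ε c = true} => ρ c = i).card :=
    fun i => by
      rw [cn, ← card_map (Function.Embedding.subtype _)]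
      congr 1; ext c; simp [and_comm]
  simp [e1, e2, forall_and]

/-- the reduced count -/
def nu (p : M3 ε cc) (i : Fin 3) : ℕ := min (cn ε true p.1 i) (cn ε false p.1 i)

theorem cn_true (p : M3 ε cc) (i : Fin 3) : cn ε true p.1 i = nu p i + (cc i).toNat := by
  have := p.2 i; unfold nu; omega
theorem cn_false (p : M3 ε cc) (i : Fin 3) : cn ε false p.1 i = nu p i + (-cc i).toNat := by
  have := p.2 i; unfold nu; omega

/-- the weights -/
def wt (c : ℤ) (t : ℕ) : ℝ := 1 / ((t + c.toNat).factorial * (t + (-c).toNat).factorial)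

theorem wt_lc (c : ℤ) : LC (wt c) := by
  refine ⟨fun t => by unfold wt; positivity, fun p q h => ?_⟩
  simp only [wt, add_right_comm _ 1, Nat.factorial_succ]
  push_cast
  rw [div_mul_div_comm, div_mul_div_comm, one_mul]
  refine one_div_le_one_div_of_le (by positivity) ?_
  have h' : (q : ℝ) ≤ p := by exact_mod_cast h
  have : ((q : ℝ) + c.toNat + 1) * (q + (-c).toNat + 1) ≤
      (p + c.toNat + 1) * (p + (-c).toNat + 1) := by gcongr
  have p0 : (0 : ℝ) ≤ (p + c.toNat).factorial * (p + (-c).toNat).factorial *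
    ((q + c.toNat).factorial * (q + (-c).toNat).factorial) := by positivity
  nlinarith [mul_le_mul_of_nonneg_right this p0]

theorem sum_nu (p q : M3 ε cc) : ∑ i, nu p i = ∑ i, nu q i := by
  have h1 := sum_cn (ε := ε) true p.1
  have h2 := sum_cn (ε := ε) true q.1
  simp only [cn_true, sum_add_distrib] at h1 h2
  omega

theorem card_nu (p0 : M3 ε cc) (ν : Fin 3 → ℕ) (h : ∑ i, ν i = ∑ i, nu p0 i) :
    ((univ.filter fun p : M3 ε cc => ∀ i, nu p i = ν i).card : ℝ) =
      ((univ.filter fun c => ε c = true).card.factorial *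
        (univ.filter fun c => ε c = false).card.factorial : ℕ) * ∏ i, wt (cc i) (ν i) := by
  have h1 := card_typed (ε := ε) (fun i => ν i + (cc i).toNat) (fun i => ν i + (-cc i).toNat)
    (by rw [← sum_cn true p0.1]; simp only [cn_true, sum_add_distrib, h])
    (by rw [← sum_cn false p0.1]; simp only [cn_false, sum_add_distrib, h])
  have h2 : (univ.filter fun p : M3 ε cc => ∀ i, nu p i = ν i).card =
      (univ.filter fun ρ : C → Fin 3 => ∀ i, cn ε true ρ i = ν i + (cc i).toNat ∧
        cn ε false ρ i = ν i + (-cc i).toNat).card := by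
    rw [← card_map (Function.Embedding.subtype _)]
    congr 1; ext ρ
    simp only [mem_map, mem_filter, mem_univ, true_and, Function.Embedding.subtype_apply]
    constructor
    · rintro ⟨p, hp, rfl⟩ i
      rw [cn_true, cn_false, hp]; exact ⟨rfl, rfl⟩
    · intro hρ
      refine ⟨⟨ρ, fun i => by have := hρ i; omega⟩, fun i => ?_, rfl⟩
      have := hρ i
      simp only [nu]; omega
  rw [h2, ← h1]
  simp only [wt, Fin.prod_univ_three]
  push_cast
  field_simp

theorem rigid {f : Fin 3 → M3 ε cc → ℝ} {a : ℝ} (ha : 1 < a)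
    (hf : ∀ i p q, R3 ε cc i p q → f i p = f i q)
    (he : ∀ i j k, i ≠ j → i ≠ k → j ≠ k → P (R3 ε cc i) (f j + f k) = a • f i)
    (i : Fin 3) (p0 q0 : M3 ε cc) : f i p0 = f i q0 := by
  classical
  have h1 : ∀ i p q, nu p i = nu q i → f i p = f i q := fun i p q h =>
    stage1' i (hf i) (fun c c' h p => stage1 ha hf he i h p) q _ p rfl fun b => by
      cases b
      · rw [cn_false, cn_false, h]
      · rw [cn_true, cn_true, h]
  obtain ⟨φ, hφ⟩ : ∃ φ : Fin 3 → ℕ → ℝ, ∀ i p, f i p = φ i (nu p i) :=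
    ⟨fun i u => if h : ∃ p, nu p i = u then f i h.choose else 0, fun i p => by
      have h : ∃ q, nu q i = nu p i := ⟨p, rfl⟩
      simp only [dif_pos h]
      exact h1 i _ _ h.choose_spec.symm⟩
  set s := ∑ i, nu p0 i with hs
  set K : ℝ := (((univ.filter fun c => ε c = true).card.factorial *
        (univ.filter fun c => ε c = false).card.factorial : ℕ) : ℝ) with hK
  have hK0 : 0 < K := by rw [hK]; positivity
  have key := oneD (fun i => wt (cc i)) (fun i => wt_lc _) φ s ha (fun i => by
    obtain ⟨j, k, n1, n2, n3, h4⟩ := three i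
    refine ⟨j, k, fun u hu => ?_⟩
    have lev : ∀ g : ℕ → ℕ → ℝ, ∑ p : M3 ε cc, ind (fun p => nu p i = u) p * g (nu p j) (nu p k) =
        K * wt (cc i) u * ad (wt (cc j)) (wt (cc k)) (s - u) g := by
      intro g
      have a1 : ∑ p : M3 ε cc, ind (fun p => nu p i = u) p * g (nu p j) (nu p k) =
          ∑ p ∈ univ.filter (fun p : M3 ε cc => nu p i = u), g (nu p j) (nu p k) := by
        rw [sum_filter]
        exact sum_congr rfl fun p _ => by by_cases h : nu p i = u <;> simp [ind, h]
      have sm : ∀ ν : Fin 3 → ℕ, ∑ r, ν r = ν i + ν j + ν k := fun ν => by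
        rw [sum_three n1 n2 n3, sum_insert (by simp [n1, n2]), sum_pair n3, add_assoc]
      rw [a1, ← sum_fiberwise_of_maps_to (g := fun p => (nu p j, nu p k))
        (t := antidiagonal (s - u)), ad, mul_sum]
      · refine sum_congr rfl fun tz htz => ?_
        have htz := mem_antidiagonal.1 htz
        rw [sum_congr rfl fun p hp => by
          rw [show nu p j = tz.1 from congrArg Prod.fst (mem_filter.1 hp).2,
            show nu p k = tz.2 from congrArg Prod.snd (mem_filter.1 hp).2], sum_const,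
          nsmul_eq_mul]
        let ν : Fin 3 → ℕ := fun r => if r = i then u else if r = j then tz.1 else tz.2
        have v1 : ν i = u := by simp [ν]
        have v2 : ν j = tz.1 := by simp [ν, n1.symm]
        have v3 : ν k = tz.2 := by simp [ν, n2.symm, n3.symm]
        have b1 := card_nu p0 ν (by rw [sm, v1, v2, v3]; omega)
        rw [sum_three n1 n2 n3, prod_insert (by simp [n1, n2]), prod_pair n3, v1, v2, v3] at b1
        have b2 : (univ.filter (fun p : M3 ε cc => nu p i = u)).filter
            (fun p => (nu p j, nu p k) = tz) = univ.filter fun p => ∀ r, nu p r = ν r := by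
          ext p
          simp only [mem_filter, mem_univ, true_and, Prod.ext_iff]
          constructor
          · rintro ⟨e1, e2, e3⟩ r
            rcases h4 r with rfl | rfl | rfl
            exacts [e1.trans v1.symm, e2.trans v2.symm, e3.trans v3.symm]
          · intro h
            exact ⟨(h i).trans v1, (h j).trans v2, (h k).trans v3⟩
        rw [b2, b1]; ring
      · intro p hp
        have b1 := sum_nu p p0
        rw [sm, (mem_filter.1 hp).2] at b1
        exact mem_antidiagonal.2 (by simp only; omega)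
    have inv : ∀ p q : M3 ε cc, nu p i = u → R3 ε cc i p q → nu q i = u := fun p q h1 h2 => by
      rw [← h1]
      simp only [nu, cn, h2 _]
    have a1 := ip_P (R3 ε cc i) (ind fun p => nu p i = u) (f j + f k)
    rw [P_of_inv (ind_inv inv), he i j k n1 n2 n3] at a1
    have a2 := lev fun t z => φ j t + φ k z
    have a3 := lev fun _ _ => a * φ i u
    have a4 : ad (wt (cc j)) (wt (cc k)) (s - u) (fun _ _ => a * φ i u) =
        a * φ i u * ad (wt (cc j)) (wt (cc k)) (s - u) fun _ _ => 1 := by
      simp only [ad, mul_sum]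
      exact sum_congr rfl fun _ _ => by ring
    rw [← a4]
    refine mul_left_cancel₀ (mul_pos hK0 ((wt_lc (cc i)).1 u)).ne' ?_
    rw [← a2, ← a3]
    simp only [ip, Pi.add_apply, hφ, Pi.smul_apply, smul_eq_mul] at a1
    rw [a1]
    refine sum_congr rfl fun p _ => ?_
    by_cases h : nu p i = u <;> simp [ind, h])
  have le : ∀ p : M3 ε cc, nu p i ≤ s := fun p => by
    rw [hs, ← sum_nu p p0]; exact single_le_sum (f := nu p) (fun _ _ => Nat.zero_le _) (mem_univ i)
  rw [hφ, hφ, key i _ (le p0), key i _ (le q0)]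

end Vale.Agent.P335
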