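import Vale.Agent.P335.Tri

open Finset

noncomputable section

namespace Vale.Agent.P335

variable {X Y : Type*} [Fintype X] [Fintype Y]

theorem P_transfer {R : Setoid X} {R' : Setoid Y} {g : Y → X} (hg : Function.Injective g)
    (h : ∀ p y, R (g p) y ↔ ∃ q, y = g q ∧ R' p q) (F : X → ℝ) (p : Y) :
    P R F (g p) = P R' (F ∘ g) p := by
  have : cls R (g p) = (cls R' p).map ⟨g, hg⟩ := by
    ext y; simp only [mem_cls, h, mem_map, Function.Embedding.coeFn_mk]
    exact ⟨fun ⟨q, a, b⟩ => ⟨q, b, a.symm⟩, fun ⟨q, a, b⟩ => ⟨q, b.symm, a⟩⟩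
  rw [P_apply, P_apply, this, sum_map, card_map]; rfl

theorem tri_abs (R : Fin 3 → Setoid X) (J : Setoid X) (hJ : ∀ i x y, R i x y → J x y)
    (rig : ∀ (f : Fin 3 → X → ℝ) (a : ℝ), 1 < a → (∀ i p q, R i p q → f i p = f i q) →
      (∀ i j k, i ≠ j → i ≠ k → j ≠ k → P (R i) (f j + f k) = a • f i) →
      ∀ i p q, J p q → f i p = f i q) (G : X → ℝ) :
    0 ≤ ip (hb (R 0) G) (hb (R 1) G) + ip (hb (R 1) G) (hb (R 2) G) +
      ip (hb (R 2) G) (hb (R 0) G) := by
  have key := quad_le (P (R 0) + P (R 1) + P (R 2) - P J) (fun F G => by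
    simp only [LinearMap.sub_apply, LinearMap.add_apply, ip_sub_left, ip_sub_right, ip_add_left,
      ip_add_right, ip_P]) 2 (fun F hF μ hμ => by
    by_contra hc
    push Not at hc
    simp only [LinearMap.sub_apply, LinearMap.add_apply] at hμ
    have h0 : P J F = 0 := by
      have := congrArg (P J) hμ
      simp only [map_sub, map_add, P_P_coarse (hJ _), P_P, map_smul] at this
      ext x
      have := congrFun this x
      simp only [Pi.sub_apply, Pi.add_apply, Pi.smul_apply, smul_eq_mul] at this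
      have h2 : (μ - 2) * P J F x = 0 := by linarith
      exact (mul_eq_zero.1 h2).resolve_left (by linarith)
    rw [h0, sub_zero] at hμ
    have h1 := rig (fun i => P (R i) F) (μ - 1) (by linarith) (fun i p q h => P_inv F h)
      (fun i j k a b c => by
        have : P (R j) F + P (R k) F = μ • F - P (R i) F := by
          rw [← hμ, ← Fin.sum_univ_three (fun i => P (R i) F), sum_three a b c,
            sum_insert (by simp [a, b]), sum_pair c]; abel
        rw [this, map_sub, map_smul, P_P, sub_smul, one_smul])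
    have h2 : ∀ i, P (R i) F = 0 := fun i => by
      rw [← P_of_inv (h1 i), P_P_coarse (hJ i), h0]
    rw [h2, h2, h2, add_zero, add_zero] at hμ
    exact hF ((smul_eq_zero.1 hμ.symm).resolve_left (by linarith))) (hb J G)
  set u := hb J G with hu
  have e : ∀ i, hb (R i) u = hb (R i) G := fun i => by
    rw [hu, hb_apply J, map_sub, hb_apply _ (P J G), P_P_fine (hJ i), sub_self, sub_zero]
  have e' : ∀ i, ip u (P (R i) u) = ip u u - ip (hb (R i) G) (hb (R i) G) := fun i => by
    rw [← e, ip_hb_hb (R i), hb_apply (R i) u, ip_sub_right]; ring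
  simp only [LinearMap.sub_apply, LinearMap.add_apply, ip_sub_right, ip_add_right, e'] at key
  rw [hu, P_hb, ip_zero_right, ← hu] at key
  have c := ip_sq_le u (hb (R 0) G + hb (R 1) G + hb (R 2) G)
  have e2 : ∀ i, ip u (hb (R i) G) = ip (hb (R i) G) (hb (R i) G) := fun i => by
    rw [← e, ip_hb_hb (R i)]
  have n := ip_self_nonneg (hb (R 0) G + hb (R 1) G + hb (R 2) G)
  simp only [ip_add_left, ip_add_right, e2] at c n
  rw [ip_comm (hb (R 1) G) (hb (R 0) G), ip_comm (hb (R 2) G) (hb (R 1) G),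
    ip_comm (hb (R 0) G) (hb (R 2) G)] at c n
  have n0 := ip_self_nonneg (hb (R 0) G)
  have n1 := ip_self_nonneg (hb (R 1) G)
  have n2 := ip_self_nonneg (hb (R 2) G)
  have nu := ip_self_nonneg u
  generalize ip (hb (R 0) G) (hb (R 0) G) = a0 at *
  generalize ip (hb (R 1) G) (hb (R 1) G) = a1 at *
  generalize ip (hb (R 2) G) (hb (R 2) G) = a2 at *
  generalize ip (hb (R 0) G) (hb (R 1) G) = b0 at *
  generalize ip (hb (R 1) G) (hb (R 2) G) = b1 at *
  generalize ip (hb (R 2) G) (hb (R 0) G) = b2 at *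
  generalize ip u u = w at *
  by_contra hc
  push Not at hc
  have q0 : 0 < a0 + a1 + a2 := by linarith
  nlinarith [mul_le_mul_of_nonneg_right (show w ≤ a0 + a1 + a2 by linarith) n,
    mul_pos q0 (neg_pos.2 hc)]

end Vale.Agent.P335
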